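import Vale.Agent.P088.Fried

/-! Module CONV (M).  `c ≤ er ‖(u_m+u_l)/2‖ ≤ en ((u_m+u_l)/2)`, `en_para`, `poinc` for `(u_m-u_l)/2`:
`∫ ‖u_m-u_l‖² ≤ (8/lam) (ep m + ep l)`.  Then `ae_tendsto_of_cauchy_eLpNorm` (p = 2) on the ball;
outside the sequence is constant. -/

open MeasureTheory Metric Set Filter Topology
open scoped ContDiff InnerProductSpace

namespace P088

variable {n : ℕ} {W : Type*} [NormedAddCommGroup W] [InnerProductSpace ℝ W] [FiniteDimensional ℝ W]

/-- module MS (S): elementary properties of a minimizing sequence -/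
theorem ms_norm {S : Setup n W} (M : MinSeq S) (m : ℕ) :
    IsLip (fun x => ‖M.u m x‖) ∧ (∀ x, x ∉ ball (0 : En n) 1 → ‖M.u m x‖ = M.f x) ∧
      S.er (fun x => ‖M.u m x‖) ≤ M.c + ep m ∧ M.c ≤ S.er (fun x => ‖M.u m x‖) ∧ 0 ≤ ep m ∧
      ∫ x in ball (0 : En n) 1, df S (M.u m) x ≤ ep m := by
  have h1 : IsLip (fun x => ‖M.u m x‖) := lip_norm (M.u_lip m)
  have h2 : ∀ x, x ∉ ball (0 : En n) 1 → ‖M.u m x‖ = M.f x := by
    intro x hx
    rw [M.u_out m x hx, norm_smul, M.v_norm, mul_one, Real.norm_eq_abs, abs_of_nonneg (M.f_nonneg x)]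
  have h3 : S.er (fun x => ‖M.u m x‖) ≤ M.c + ep m := (er_norm_le S (M.u_lip m)).trans (M.u_en m)
  have h4 : M.c ≤ S.er (fun x => ‖M.u m x‖) := by
    refine M.c_le _ h1 fun x hx => h2 x ?_
    intro hb
    rw [mem_ball] at hb
    rw [mem_sphere] at hx
    linarith
  have h5 : 0 ≤ ep m := by
    unfold ep
    positivity
  refine ⟨h1, h2, h3, h4, h5, ?_⟩
  rw [int_df S (M.u_lip m)]
  have := M.u_en m
  linarith

theorem conv1 {S : Setup n W} (M : MinSeq S) (i : Fin n) (m l : ℕ) :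
    ∫ x in ball (0 : En n) 1, ‖M.u m x - M.u l x‖ ^ 2 ≤ 8 / S.lam * (ep m + ep l) := by
  obtain ⟨K1, hK1⟩ := M.u_lip m
  obtain ⟨K2, hK2⟩ := M.u_lip l
  have hlam := S.lam_pos
  have hU : IsLip (fun x => (1 / 2 : ℝ) • (M.u m x + M.u l x)) := by
    refine ⟨K1 + K2, LipschitzWith.of_dist_le_mul fun x y => ?_⟩
    have h1 := hK1.dist_le_mul x y
    have h2 := hK2.dist_le_mul x y
    rw [dist_eq_norm] at h1 h2
    rw [dist_eq_norm, ← smul_sub, norm_smul]
    have e : M.u m x + M.u l x - (M.u m y + M.u l y) =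
        (M.u m x - M.u m y) + (M.u l x - M.u l y) := by abel
    rw [e]
    have h3 := norm_add_le (M.u m x - M.u m y) (M.u l x - M.u l y)
    have h4 : ‖(1 / 2 : ℝ)‖ = 1 / 2 := by norm_num
    rw [h4]
    have h5 : 0 ≤ ‖(M.u m x - M.u m y) + (M.u l x - M.u l y)‖ := norm_nonneg _
    push_cast
    linarith
  have hD : IsLip (fun x => (1 / 2 : ℝ) • (M.u m x - M.u l x)) := by
    refine ⟨K1 + K2, LipschitzWith.of_dist_le_mul fun x y => ?_⟩
    have h1 := hK1.dist_le_mul x y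
    have h2 := hK2.dist_le_mul x y
    rw [dist_eq_norm] at h1 h2
    rw [dist_eq_norm, ← smul_sub, norm_smul]
    have e : M.u m x - M.u l x - (M.u m y - M.u l y) =
        (M.u m x - M.u m y) - (M.u l x - M.u l y) := by abel
    rw [e]
    have h3 := norm_sub_le (M.u m x - M.u m y) (M.u l x - M.u l y)
    have h4 : ‖(1 / 2 : ℝ)‖ = 1 / 2 := by norm_num
    rw [h4]
    have h5 : 0 ≤ ‖(M.u m x - M.u m y) - (M.u l x - M.u l y)‖ := norm_nonneg _
    push_cast
    linarith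
  have h1 : M.c ≤ S.en (fun x => (1 / 2 : ℝ) • (M.u m x + M.u l x)) := by
    refine le_trans ?_ (er_norm_le S hU)
    refine M.c_le _ (lip_norm hU) fun x hx => ?_
    have hx' : x ∉ ball (0 : En n) 1 := by
      rw [mem_sphere] at hx
      rw [mem_ball, hx]
      exact lt_irrefl _
    rw [M.u_out m x hx', M.u_out l x hx', ← two_smul ℝ (M.f x • M.v), smul_smul]
    norm_num
    rw [norm_smul, M.v_norm, mul_one, Real.norm_eq_abs, abs_of_nonneg (M.f_nonneg x)]
  have h2 := en_para S (M.u_lip m) (M.u_lip l)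
  have h3 := poinc S hD (fun x hx => by
    rw [M.u_out m x hx, M.u_out l x hx, sub_self, smul_zero]) i
  have h4 := M.u_en m
  have h5 := M.u_en l
  have h6 : S.en (fun x => (1 / 2 : ℝ) • (M.u m x - M.u l x)) ≤ (ep m + ep l) / 2 := by linarith
  have h7 : ∀ x, ‖(1 / 2 : ℝ) • (M.u m x - M.u l x)‖ ^ 2 = 1 / 4 * ‖M.u m x - M.u l x‖ ^ 2 := by
    intro x
    rw [norm_smul]
    have h4 : ‖(1 / 2 : ℝ)‖ = 1 / 2 := by norm_num
    rw [h4]
    ring
  simp only [h7] at h3
  rw [integral_const_mul] at h3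
  have h8 : 4 / S.lam * S.en (fun x => (1 / 2 : ℝ) • (M.u m x - M.u l x)) ≤
      4 / S.lam * ((ep m + ep l) / 2) := mul_le_mul_of_nonneg_left h6 (by positivity)
  have h9 : 8 / S.lam * (ep m + ep l) = 4 * (4 / S.lam * ((ep m + ep l) / 2)) := by ring
  rw [h9]
  linarith

theorem CONV_bd {S : Setup n W} (M : MinSeq S) (m l : ℕ) :
    MemLp (M.u m - M.u l) 2 (volume.restrict (ball (0 : En n) 1)) := by
  obtain ⟨K, hK⟩ := M.u_lip m
  obtain ⟨L, hL⟩ := M.u_lip l
  have hc : Continuous (M.u m - M.u l) := hK.continuous.sub hL.continuous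
  obtain ⟨C, hC⟩ := (isCompact_closedBall (0 : En n) 1).exists_bound_of_continuousOn
    hc.continuousOn
  have hfin : IsFiniteMeasure (volume.restrict (ball (0 : En n) 1)) :=
    ⟨by rw [Measure.restrict_apply_univ]; exact measure_ball_lt_top⟩
  refine MemLp.of_bound hc.aestronglyMeasurable C ?_
  rw [ae_restrict_iff' measurableSet_ball]
  exact Filter.Eventually.of_forall fun x hx => hC x (ball_subset_closedBall hx)

theorem CONV_ep_anti {m l : ℕ} (h : m ≤ l) : ep l ≤ ep m := by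
  unfold ep
  exact pow_le_pow_of_le_one (by norm_num) (by norm_num) (by omega)

theorem CONV_lt {S : Setup n W} (M : MinSeq S) (i : Fin n) (N m l : ℕ) (hm : N ≤ m)
    (hl : N ≤ l) : eLpNorm (M.u m - M.u l) 2 (volume.restrict (ball (0 : En n) 1)) <
      ENNReal.ofReal ((Real.sqrt (16 / S.lam) + 1) * (1 / 2) ^ N) := by
  have hlam := S.lam_pos
  rw [(CONV_bd M m l).eLpNorm_eq_integral_rpow_norm (by norm_num) (by norm_num)]
  have h1 := conv1 M i m l
  have h2 : ∫ x in ball (0 : En n) 1, ‖M.u m x - M.u l x‖ ^ 2 ≤ 16 / S.lam * ep N := by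
    have h3 := CONV_ep_anti hm
    have h4 := CONV_ep_anti hl
    calc _ ≤ 8 / S.lam * (ep m + ep l) := h1
      _ ≤ 8 / S.lam * (ep N + ep N) := by gcongr
      _ = 16 / S.lam * ep N := by ring
  have h5 : (∫ x in ball (0 : En n) 1, ‖(M.u m - M.u l) x‖ ^ (2 : ENNReal).toReal) =
      ∫ x in ball (0 : En n) 1, ‖M.u m x - M.u l x‖ ^ 2 := by
    refine integral_congr_ae (Filter.Eventually.of_forall fun x => ?_)
    simp
  rw [h5]
  have h6 : (∫ x in ball (0 : En n) 1, ‖M.u m x - M.u l x‖ ^ 2) ^ (2 : ENNReal).toReal⁻¹ =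
      Real.sqrt (∫ x in ball (0 : En n) 1, ‖M.u m x - M.u l x‖ ^ 2) := by
    rw [Real.sqrt_eq_rpow]
    norm_num
  rw [h6]
  have h7 : Real.sqrt (∫ x in ball (0 : En n) 1, ‖M.u m x - M.u l x‖ ^ 2) ≤
      Real.sqrt (16 / S.lam) * (1 / 2) ^ N := by
    refine (Real.sqrt_le_sqrt h2).trans ?_
    rw [Real.sqrt_mul (by positivity)]
    have h8 : Real.sqrt (ep N) = (1 / 2 : ℝ) ^ (5 * N) := by
      unfold ep
      rw [show 10 * N = (5 * N) * 2 by ring, pow_mul (1 / 2 : ℝ) (5 * N) 2]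
      exact Real.sqrt_sq (by positivity)
    rw [h8]
    refine mul_le_mul_of_nonneg_left ?_ (Real.sqrt_nonneg _)
    exact pow_le_pow_of_le_one (by norm_num) (by norm_num) (by omega)
  rw [ENNReal.ofReal_lt_ofReal_iff (by positivity)]
  have h9 : (0 : ℝ) < (1 / 2) ^ N := by positivity
  linarith

theorem conv {S : Setup n W} (M : MinSeq S) (i : Fin n) :
    ∃ ub : En n → W, AEStronglyMeasurable ub volume ∧
      (∀ᵐ x, Tendsto (fun m => M.u m x) atTop (𝓝 (ub x))) ∧
      ∀ᵐ x, x ∉ ball (0 : En n) 1 → ub x = M.f x • M.v := by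
  have : CompleteSpace W := FiniteDimensional.complete ℝ W
  have hms : ∀ m, Continuous (M.u m) := fun m => by
    obtain ⟨K, hK⟩ := M.u_lip m
    exact hK.continuous
  have hsum : ∑' N : ℕ, ENNReal.ofReal ((Real.sqrt (16 / S.lam) + 1) * (1 / 2) ^ N) ≠ ⊤ := by
    have h1 : Summable fun N : ℕ => (Real.sqrt (16 / S.lam) + 1) * (1 / 2 : ℝ) ^ N :=
      (summable_geometric_of_lt_one (by norm_num) (by norm_num)).mul_left _
    exact h1.tsum_ofReal_ne_top
  have hin : ∀ᵐ x ∂(volume.restrict (ball (0 : En n) 1)), ∃ l : W,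
      Tendsto (fun m => M.u m x) atTop (𝓝 l) :=
    Lp.ae_tendsto_of_cauchy_eLpNorm (p := 2)
      (fun m => (hms m).aestronglyMeasurable) (by norm_num) hsum
      (fun N m l hm hl => CONV_lt M i N m l hm hl)
  rw [ae_restrict_iff' measurableSet_ball] at hin
  have hall : ∀ᵐ x : En n, ∃ l : W, Tendsto (fun m => M.u m x) atTop (𝓝 l) := by
    filter_upwards [hin] with x hx
    by_cases hxb : x ∈ ball (0 : En n) 1
    · exact hx hxb
    · refine ⟨M.f x • M.v, ?_⟩
      simp_rw [M.u_out _ x hxb]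
      exact tendsto_const_nhds
  obtain ⟨ub, hub, hlim⟩ := exists_stronglyMeasurable_limit_of_tendsto_ae
    (fun m => (hms m).aestronglyMeasurable) hall
  refine ⟨ub, hub.aestronglyMeasurable, hlim, ?_⟩
  filter_upwards [hlim] with x hx hxb
  simp_rw [M.u_out _ x hxb] at hx
  exact tendsto_nhds_unique hx tendsto_const_nhds

end P088
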