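import Vale.Agent.P088.Ibp

/-! Module REG1 (M): see the header of `RegLip.lean`. -/

open MeasureTheory Metric Set Filter Topology
open scoped ContDiff InnerProductSpace Convolution

namespace P088

variable {n : ℕ} {X : Type*} [NormedAddCommGroup X] [InnerProductSpace ℝ X]
  [FiniteDimensional ℝ X]

/-- the bump functions -/
noncomputable def REG1_bump (n : ℕ) (k : ℕ) : ContDiffBump (0 : En n) where
  rIn := 1 / ((k : ℝ) + 2)
  rOut := 1 / ((k : ℝ) + 1)
  rIn_pos := by positivity
  rIn_lt_rOut := one_div_lt_one_div_of_lt (by positivity) (by linarith)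

theorem REG1_rOut (n : ℕ) : Tendsto (fun k => (REG1_bump n k).rOut) atTop (𝓝 0) :=
  tendsto_one_div_add_atTop_nhds_zero_nat

theorem REG1_single (v : En n) : v = ∑ i, v i • EuclideanSpace.single i (1 : ℝ) := by
  ext j
  simp [Pi.single_apply]

theorem REG1_clm {D : En n →L[ℝ] X} {w : Fin n → X}
    (h : ∀ i, D (EuclideanSpace.single i (1 : ℝ)) = w i) :
    D = ∑ i, (EuclideanSpace.proj i : En n →L[ℝ] ℝ).smulRight (w i) := by
  ext v
  rw [_root_.sum_apply]
  conv_lhs => rw [REG1_single v, map_sum]
  refine Finset.sum_congr rfl fun i _ => ?_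
  rw [map_smul, h]
  rfl

/-- derivative of the mollification -/
theorem REG1_deriv {t : En n → X} (ht : Continuous t) {F : Fin n → En n → X} {p : En n} {ρ : ℝ}
    (hw : WeakD p ρ t F) (φ : ContDiffBump (0 : En n)) {y : En n}
    (hy : closedBall y φ.rOut ⊆ ball p ρ) :
    HasFDerivAt (φ.normed volume ⋆[ContinuousLinearMap.lsmul ℝ ℝ, volume] t)
      (∑ i, (EuclideanSpace.proj i : En n →L[ℝ] ℝ).smulRight
        (-(φ.normed volume ⋆[ContinuousLinearMap.lsmul ℝ ℝ, volume]
          (ball p ρ).indicator (F i)) y)) y := by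
  set g : En n → ℝ := φ.normed volume with hg
  have hgc : HasCompactSupport g := φ.hasCompactSupport_normed
  have hgd : ContDiff ℝ ∞ g := φ.contDiff_normed
  have hgd1 : ContDiff ℝ 1 g := hgd.of_le (by exact_mod_cast le_top)
  have h1 := hgc.hasFDerivAt_convolution_right (ContinuousLinearMap.lsmul ℝ ℝ).flip
    (μ := volume) (f := t) ht.locallyIntegrable hgd1 y
  rw [convolution_flip] at h1
  have h2 : ∀ i, (t ⋆[(ContinuousLinearMap.lsmul ℝ ℝ).flip.precompR (En n), volume] fderiv ℝ g) y
      (EuclideanSpace.single i (1 : ℝ)) =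
      -(g ⋆[ContinuousLinearMap.lsmul ℝ ℝ, volume] (ball p ρ).indicator (F i)) y := by
    intro i
    rw [convolution_precompR_apply _ ht.locallyIntegrable (hgc.fderiv ℝ)
      (hgd1.continuous_fderiv one_ne_zero)]
    have c1 : (t ⋆[(ContinuousLinearMap.lsmul ℝ ℝ).flip, volume]
        fun a => fderiv ℝ g a (EuclideanSpace.single i (1 : ℝ))) y =
        ∫ z, fderiv ℝ g (y - z) (EuclideanSpace.single i (1 : ℝ)) • t z := rfl
    have c2 : (g ⋆[ContinuousLinearMap.lsmul ℝ ℝ, volume] (ball p ρ).indicator (F i)) y =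
        ∫ z, g (y - z) • (ball p ρ).indicator (F i) z := by
      rw [← convolution_flip]
      rfl
    rw [c1, c2]
    have hgsupp : ∀ z, g (y - z) ≠ 0 → z ∈ closedBall y φ.rOut := by
      intro z hz
      have h3 : y - z ∈ tsupport g := subset_tsupport _ hz
      rw [hg, φ.tsupport_normed_eq, mem_closedBall, dist_zero_right] at h3
      rw [mem_closedBall, dist_eq_norm, norm_sub_rev]
      exact h3
    have hsub : Continuous fun z : En n => y - z := continuous_const.sub continuous_id
    have htest : IsTest p ρ (fun z => g (y - z)) := by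
      have hts : tsupport (fun z => g (y - z)) ⊆ closedBall y φ.rOut :=
        closure_minimal (fun z hz => hgsupp z hz) isClosed_closedBall
      refine ⟨hgd.comp (contDiff_const.sub contDiff_id), ?_, hts.trans hy⟩
      exact HasCompactSupport.of_support_subset_isCompact (isCompact_closedBall y φ.rOut)
        (fun z hz => hgsupp z hz)
    have h3 := hw i (fun z => g (y - z)) htest
    have h4 : ∀ z, pd (fun z => g (y - z)) i z =
        -(fderiv ℝ g (y - z) (EuclideanSpace.single i (1 : ℝ))) := by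
      intro z
      unfold pd
      have h5 : HasFDerivAt (fun z => g (y - z))
          ((fderiv ℝ g (y - z)).comp (-(ContinuousLinearMap.id ℝ (En n)))) z := by
        refine HasFDerivAt.comp z (hgd1.differentiable one_ne_zero (y - z)).hasFDerivAt ?_
        exact (hasFDerivAt_id z).const_sub y
      rw [h5.fderiv]
      simp
    have h6 : ∀ z, g (y - z) • F i z = g (y - z) • (ball p ρ).indicator (F i) z := by
      intro z
      by_cases hz : g (y - z) = 0
      · rw [hz, zero_smul, zero_smul]
      · rw [indicator_of_mem (hy (hgsupp z hz))]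
    simp only [h4, h6, neg_smul, integral_neg] at h3
    rw [← h3, neg_neg]
  rw [REG1_clm h2] at h1
  exact h1

theorem reg_c1 {t : En n → X} (ht : Continuous t) {F : Fin n → En n → X} {p : En n} {ρ : ℝ}
    (hF : ∀ i, ContinuousOn (F i) (ball p ρ)) (hw : WeakD p ρ t F) :
    ∀ x ∈ ball p ρ, DifferentiableAt ℝ t x ∧ ∀ i, pd t i x = - F i x := by
  intro x hx
  have hGm : ∀ i, AEStronglyMeasurable ((ball p ρ).indicator (F i)) (volume : Measure (En n)) :=
    fun i => (aestronglyMeasurable_indicator_iff measurableSet_ball).2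
      ((hF i).aestronglyMeasurable measurableSet_ball)
  have hGc : ∀ i, ContinuousAt ((ball p ρ).indicator (F i)) x := fun i =>
    ((hF i).continuousAt (isOpen_ball.mem_nhds hx)).congr (by
      filter_upwards [isOpen_ball.mem_nhds hx] with y hy
      rw [indicator_of_mem hy])
  let D : En n → (En n →L[ℝ] X) := fun y =>
    ∑ i, (EuclideanSpace.proj i : En n →L[ℝ] ℝ).smulRight (-((ball p ρ).indicator (F i) y))
  let D' : ℕ → En n → (En n →L[ℝ] X) := fun k y =>
    ∑ i, (EuclideanSpace.proj i : En n →L[ℝ] ℝ).smulRight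
      (-((REG1_bump n k).normed volume ⋆[ContinuousLinearMap.lsmul ℝ ℝ, volume]
          (ball p ρ).indicator (F i)) y)
  have hsm : ∀ i : Fin n, Continuous fun v : X =>
      (EuclideanSpace.proj i : En n →L[ℝ] ℝ).smulRight v := fun i =>
    (ContinuousLinearMap.smulRightL ℝ (En n) X (EuclideanSpace.proj i : En n →L[ℝ] ℝ)).continuous
  have hD : Tendsto D (𝓝 x) (𝓝 (D x)) := by
    refine tendsto_finsetSum _ fun i _ => ?_
    exact ((hsm i).tendsto _).comp (hGc i).neg
  have hD' : Tendsto (fun q : ℕ × En n => D' q.1 q.2) (atTop ×ˢ 𝓝 x) (𝓝 (D x)) := by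
    refine tendsto_finsetSum _ fun i _ => ?_
    refine ((hsm i).tendsto _).comp (Tendsto.neg ?_)
    refine ContDiffBump.convolution_tendsto_right (φ := fun q : ℕ × En n => REG1_bump n q.1)
      (g := fun _ => (ball p ρ).indicator (F i)) (k := fun q => q.2) (x₀ := x) ?_ ?_ ?_ ?_
    · exact (REG1_rOut n).comp tendsto_fst
    · exact Eventually.of_forall fun _ => hGm i
    · exact (hGc i).tendsto.comp tendsto_snd
    · exact tendsto_snd
  have h0 : TendstoUniformlyOnFilter D' D atTop (𝓝 x) := by
    rw [Metric.tendstoUniformlyOnFilter_iff]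
    intro ε hε
    have h1 := Metric.tendsto_nhds.1 hD' (ε / 2) (half_pos hε)
    have h2 := (tendsto_snd (f := (atTop : Filter ℕ)) (g := 𝓝 x)).eventually
      (Metric.tendsto_nhds.1 hD (ε / 2) (half_pos hε))
    filter_upwards [h1, h2] with q hq1 hq2
    calc dist (D q.2) (D' q.1 q.2) ≤ dist (D q.2) (D x) + dist (D' q.1 q.2) (D x) :=
          dist_triangle_right _ _ _
      _ < ε / 2 + ε / 2 := add_lt_add hq2 hq1
      _ = ε := add_halves ε
  have h1 : ∀ᶠ q : ℕ × En n in atTop ×ˢ 𝓝 x,
      HasFDerivAt ((REG1_bump n q.1).normed volume ⋆[ContinuousLinearMap.lsmul ℝ ℝ, volume] t)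
        (D' q.1 q.2) q.2 := by
    obtain ⟨δ, hδ, hδ'⟩ : ∃ δ > 0, dist x p + 2 * δ < ρ := by
      refine ⟨(ρ - dist x p) / 4, ?_, ?_⟩
      · have := mem_ball.1 hx
        linarith
      · have := mem_ball.1 hx
        linarith
    have e1 := (tendsto_fst (f := (atTop : Filter ℕ)) (g := 𝓝 x)).eventually
      ((REG1_rOut n).eventually (gt_mem_nhds hδ))
    have e2 := (tendsto_snd (f := (atTop : Filter ℕ)) (g := 𝓝 x)).eventually
      (ball_mem_nhds x hδ)
    filter_upwards [e1, e2] with q hq1 hq2
    refine REG1_deriv ht hw _ fun z hz => ?_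
    rw [mem_closedBall] at hz
    rw [mem_ball]
    have := dist_triangle z q.2 p
    have := dist_triangle q.2 x p
    linarith
  have h2 : ∀ᶠ y in 𝓝 x, Tendsto (fun k : ℕ =>
      ((REG1_bump n k).normed volume ⋆[ContinuousLinearMap.lsmul ℝ ℝ, volume] t) y) atTop
        (𝓝 (t y)) :=
    Eventually.of_forall fun y =>
      ContDiffBump.convolution_tendsto_right_of_continuous (REG1_rOut n) ht y
  have h3 := hasFDerivAt_of_tendstoUniformlyOnFilter h0 h1 h2
  refine ⟨h3.differentiableAt, fun i => ?_⟩
  unfold pd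
  rw [h3.fderiv]
  show (∑ j, (EuclideanSpace.proj j : En n →L[ℝ] ℝ).smulRight
    (-((ball p ρ).indicator (F j) x))) (EuclideanSpace.single i (1 : ℝ)) = - F i x
  rw [_root_.sum_apply, Finset.sum_eq_single i]
  · simp [indicator_of_mem hx]
  · intro j _ hj
    simp [hj]
  · intro h
    exact absurd (Finset.mem_univ i) h

end P088
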