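import Vale.Agent.P088.Test

/-! Module LOG (M): Moser's estimate.  `κ = 1/(max (f x) c0 + δ)` (Lipschitz, `≤ 1/c0`, constant `≤ Lip f/c0²`),
`ψ = χ² (1/(w+δ) - κ)` vanishes on the sphere.  A.e.
`dψ = 2χ dχ (1/(w+δ) - κ) - χ² dw/(w+δ)² - χ² dκ`.  `test_ineq` with `t = δ⁴`; by `gb_le`
`|2χ gb(dw,dχ)|/(w+δ) ≤ ½ χ² gq(dw)/(w+δ)² + 2 gq(dχ)`, `|2χκ gb(dw,dχ)| ≤ gq(dw) + κ² gq(dχ)`,
`χ² |gb(dw,dκ)| ≤ χ² (gq(dw) + gq(dκ))`; `gq(dψ) ≤ 3 (4χ²(1/δ+1/c0)² gq(dχ) + χ⁴ gq(dw)/δ⁴ + χ⁴ gq(dκ))`;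
`∫ gq(dw) = er w ≤ c + 1`.  `χ` is bounded on the ball. -/

open MeasureTheory Metric Set Filter Topology
open scoped ContDiff InnerProductSpace

namespace P088

variable {n : ℕ} {W : Type*} [NormedAddCommGroup W] [InnerProductSpace ℝ W] [FiniteDimensional ℝ W]

private theorem log_lip_mul {a b : En n → ℝ} {Ka Kb : NNReal} {Ma Mb : ℝ} (ha : LipschitzWith Ka a)
    (hb : LipschitzWith Kb b) (hMa : ∀ x, |a x| ≤ Ma) (hMb : ∀ x, |b x| ≤ Mb) :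
    IsLip (fun x => a x * b x) := by
  have hMa0 : 0 ≤ Ma := (abs_nonneg _).trans (hMa 0)
  have hMb0 : 0 ≤ Mb := (abs_nonneg _).trans (hMb 0)
  refine ⟨⟨Ma * Kb + Mb * Ka, by positivity⟩, LipschitzWith.of_dist_le_mul fun x y => ?_⟩
  have h1 : |a x - a y| ≤ Ka * dist x y := by
    have := ha.dist_le_mul x y
    rwa [Real.dist_eq] at this
  have h2 : |b x - b y| ≤ Kb * dist x y := by
    have := hb.dist_le_mul x y
    rwa [Real.dist_eq] at this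
  rw [Real.dist_eq]
  have h3 : a x * b x - a y * b y = a x * (b x - b y) + b y * (a x - a y) := by ring
  rw [h3]
  calc |a x * (b x - b y) + b y * (a x - a y)|
      ≤ |a x * (b x - b y)| + |b y * (a x - a y)| := abs_add_le _ _
    _ = |a x| * |b x - b y| + |b y| * |a x - a y| := by rw [abs_mul, abs_mul]
    _ ≤ Ma * (Kb * dist x y) + Mb * (Ka * dist x y) := by
        gcongr
        · exact hMa x
        · exact hMb y
    _ = (Ma * Kb + Mb * Ka) * dist x y := by ring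

private theorem log_lip_inv {a : En n → ℝ} {K : NNReal} {c : ℝ} (ha : LipschitzWith K a)
    (hc : 0 < c) (hca : ∀ x, c ≤ a x) :
    LipschitzWith ⟨K / c ^ 2, by positivity⟩ (fun x => (a x)⁻¹) ∧ ∀ x, |(a x)⁻¹| ≤ c⁻¹ := by
  have hpos : ∀ x, 0 < a x := fun x => hc.trans_le (hca x)
  refine ⟨LipschitzWith.of_dist_le_mul fun x y => ?_, fun x => ?_⟩
  · have h1 : |a x - a y| ≤ K * dist x y := by
      have := ha.dist_le_mul x y
      rwa [Real.dist_eq] at this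
    rw [Real.dist_eq]
    have hx := hpos x
    have hy := hpos y
    have h2 : (a x)⁻¹ - (a y)⁻¹ = (a y - a x) / (a x * a y) := by
      field_simp
    rw [h2, abs_div, abs_of_pos (mul_pos hx hy), abs_sub_comm]
    have h3 : c ^ 2 ≤ a x * a y := by
      nlinarith [hca x, hca y]
    calc |a x - a y| / (a x * a y) ≤ (K * dist x y) / c ^ 2 := by
          gcongr
      _ = (K / c ^ 2) * dist x y := by ring
  · rw [abs_of_pos (inv_pos.mpr (hpos x))]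
    exact inv_anti₀ hc (hca x)

private theorem log_gb (S : Setup n W) (x : En n) (η ζ : Fin n → ℝ) {θ : ℝ} (hθ : 0 < θ) (s : ℝ) :
    2 * s * gb (S.G x) η ζ ≤ θ * s ^ 2 * gq (S.G x) η + θ⁻¹ * gq (S.G x) ζ := by
  rcases eq_or_ne s 0 with hs | hs
  · subst hs
    have := gq_nonneg S x ζ
    have h2 : 0 ≤ θ⁻¹ * gq (S.G x) ζ := by positivity
    simpa using h2
  · have hs' : 0 < |s| := abs_pos.mpr hs
    have h := gb_le S x η ζ (t := θ * |s|) (by positivity)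
    have h1 : 2 * s * gb (S.G x) η ζ ≤ |s| * (2 * |gb (S.G x) η ζ|) := by
      have : s * gb (S.G x) η ζ ≤ |s * gb (S.G x) η ζ| := le_abs_self _
      rw [abs_mul] at this
      linarith
    refine h1.trans ((mul_le_mul_of_nonneg_left h hs'.le).trans (le_of_eq ?_))
    have h3 : |s| * |s| = s ^ 2 := by rw [abs_mul_abs_self]; ring
    field_simp
    rw [← h3]
    ring

private theorem log_gq2 (S : Setup n W) (x : En n) (η ζ : Fin n → ℝ) :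
    gq (S.G x) (fun i => η i + ζ i) ≤ 2 * gq (S.G x) η + 2 * gq (S.G x) ζ := by
  have h1 := gq_add_smul S x η ζ 1
  have h2 := gq_add_smul S x η ζ (-1)
  have h3 := gq_nonneg S x (fun i => η i + (-1 : ℝ) • ζ i)
  simp only [one_smul] at h1
  rw [h1]
  rw [h2] at h3
  linarith

private theorem log_gq3 (S : Setup n W) (x : En n) (η ζ ξ : Fin n → ℝ) (a b d : ℝ) :
    gq (S.G x) (fun i => a * η i + b * ζ i + d * ξ i) ≤
      4 * (a ^ 2 * gq (S.G x) η + b ^ 2 * gq (S.G x) ζ + d ^ 2 * gq (S.G x) ξ) := by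
  have h1 := log_gq2 S x (fun i => a * η i + b * ζ i) (fun i => d * ξ i)
  have h2 := log_gq2 S x (fun i => a * η i) (fun i => b * ζ i)
  have e1 : gq (S.G x) (fun i => a * η i) = a ^ 2 * gq (S.G x) η := gq_smul (S.G x) η a
  have e2 : gq (S.G x) (fun i => b * ζ i) = b ^ 2 * gq (S.G x) ζ := gq_smul (S.G x) ζ b
  have e3 : gq (S.G x) (fun i => d * ξ i) = d ^ 2 * gq (S.G x) ξ := gq_smul (S.G x) ξ d
  have h3 : 0 ≤ gq (S.G x) (fun i => d * ξ i) := gq_nonneg S x _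
  rw [e3] at h3
  rw [e1, e2] at h2
  rw [e3] at h1
  linarith

private theorem log_gb3 (S : Setup n W) (x : En n) (τ η ζ ξ : Fin n → ℝ) (a b d : ℝ) :
    gb (S.G x) τ (fun i => a * η i + b * ζ i + d * ξ i) =
      a * gb (S.G x) τ η + b * gb (S.G x) τ ζ + d * gb (S.G x) τ ξ := by
  unfold gb
  simp only [Finset.mul_sum, ← Finset.sum_add_distrib]
  refine Finset.sum_congr rfl fun i _ => Finset.sum_congr rfl fun j _ => ?_
  simp only [RCLike.inner_apply]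
  simp
  ring

private theorem log_gb_self (S : Setup n W) (x : En n) (τ : Fin n → ℝ) :
    gb (S.G x) τ τ = gq (S.G x) τ := rfl

private theorem log_pd {w χ κ : En n → ℝ} {δ : ℝ} {x : En n} (hw : DifferentiableAt ℝ w x)
    (hχ : DifferentiableAt ℝ χ x) (hκ : DifferentiableAt ℝ κ x) (hpos : w x + δ ≠ 0) (i : Fin n) :
    pd (fun y => χ y * χ y * ((w y + δ)⁻¹ - κ y)) i x =
      2 * χ x * ((w x + δ)⁻¹ - κ x) * pd χ i x + (-(χ x ^ 2 * (w x + δ)⁻¹ ^ 2)) * pd w i x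
        + (-(χ x ^ 2)) * pd κ i x := by
  have h1 : HasFDerivAt (fun y => w y + δ) (fderiv ℝ w x) x := hw.hasFDerivAt.add_const δ
  have h2 : HasFDerivAt (fun y => (w y + δ)⁻¹) (-((w x + δ) ^ 2)⁻¹ • fderiv ℝ w x) x :=
    (hasDerivAt_inv hpos).comp_hasFDerivAt x h1
  have h3 := (hχ.hasFDerivAt.mul hχ.hasFDerivAt).mul (h2.sub hκ.hasFDerivAt)
  have h4 : fderiv ℝ (fun y => χ y * χ y * ((w y + δ)⁻¹ - κ y)) x = _ := h3.fderiv
  unfold pd
  rw [h4]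
  simp
  ring

private theorem log_ek (S : Setup n W) {κ : En n → ℝ} {K : NNReal} (hκ : LipschitzWith K κ) :
    S.er κ ≤ |S.Lam| * (n * (K : ℝ) ^ 2) * volume.real (ball (0 : En n) 1) := by
  unfold Setup.er
  have h1 : ∀ x, gq (S.G x) (fun i => pd κ i x) ≤ |S.Lam| * (n * (K : ℝ) ^ 2) := by
    intro x
    refine (gq_up S x _).trans ?_
    have h2 : ∑ i : Fin n, ‖pd κ i x‖ ^ 2 ≤ n * (K : ℝ) ^ 2 := by
      calc ∑ i : Fin n, ‖pd κ i x‖ ^ 2 ≤ ∑ _i : Fin n, (K : ℝ) ^ 2 := by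
            refine Finset.sum_le_sum fun i _ => ?_
            have := pd_bdd hκ i x
            gcongr
        _ = n * (K : ℝ) ^ 2 := by simp
    have h3 : 0 ≤ ∑ i : Fin n, ‖pd κ i x‖ ^ 2 := by positivity
    calc S.Lam * ∑ i : Fin n, ‖pd κ i x‖ ^ 2 ≤ |S.Lam| * ∑ i : Fin n, ‖pd κ i x‖ ^ 2 := by
          gcongr
          exact le_abs_self _
      _ ≤ _ := by gcongr
  calc ∫ x in ball (0 : En n) 1, gq (S.G x) (fun i => pd κ i x)
      ≤ ∫ _x in ball (0 : En n) 1, |S.Lam| * (n * (K : ℝ) ^ 2) := by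
        refine setIntegral_mono (int_er S ⟨K, hκ⟩) ?_ h1
        exact integrableOn_const measure_ball_lt_top.ne
    _ = _ := by
        rw [setIntegral_const, smul_eq_mul, mul_comm]

private theorem log_lip_c {w : En n → ℝ} {K : NNReal} (hw : LipschitzWith K w) (δ : ℝ) :
    LipschitzWith K (fun x => w x + δ) := by
  have := hw.add (LipschitzWith.const (α := En n) δ)
  simpa using this

private theorem log_lip_m {f : En n → ℝ} {K : NNReal} (hf : LipschitzWith K f) (c0 δ : ℝ) :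
    LipschitzWith K (fun x => max (f x) c0 + δ) :=
  log_lip_c (hf.max_const c0) δ

private theorem log_real {χ r κ A B K g1 g2 M c : ℝ} (hA : 0 ≤ A)
    (h3M : χ ^ 2 ≤ M ^ 2) (hκ : κ ^ 2 ≤ c ^ 2)
    (k1 : 2 * (χ * r) * g1 ≤ 1 / 2 * (χ * r) ^ 2 * A + (1 / 2)⁻¹ * B)
    (k2 : 2 * (-(χ * κ)) * g1 ≤ 1 * (-(χ * κ)) ^ 2 * A + 1⁻¹ * B)
    (k3 : 2 * (-(χ ^ 2 / 2)) * g2 ≤ 1 * (-(χ ^ 2 / 2)) ^ 2 * A + 1⁻¹ * K) :
    χ ^ 2 * r ^ 2 * A ≤ (-2) * ((2 * χ * (r - κ)) * g1 + (-(χ ^ 2 * r ^ 2)) * A +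
      (-(χ ^ 2)) * g2) + 6 * B + (2 * (M ^ 2 * c ^ 2 + M ^ 4 / 4)) * A + 2 * K := by
  have m1 : χ ^ 2 * κ ^ 2 ≤ M ^ 2 * c ^ 2 := by gcongr
  have m2 : χ ^ 4 ≤ M ^ 4 := by
    calc χ ^ 4 = (χ ^ 2) ^ 2 := by ring
      _ ≤ (M ^ 2) ^ 2 := by gcongr
      _ = _ := by ring
  have m3 := mul_le_mul_of_nonneg_right m1 hA
  have m4 := mul_le_mul_of_nonneg_right m2 hA
  norm_num at k1 k2 k3
  linarith

/-- the pointwise upper bound of the energy density of `ψ` -/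
private theorem log_psi_pt (S : Setup n W) (x : En n) (η ζ ξ : Fin n → ℝ) {χ r κ M a b : ℝ}
    (h3M : χ ^ 2 ≤ M ^ 2) (hr : |r| ≤ a) (hκ : |κ| ≤ b) :
    gq (S.G x) (fun i => (2 * χ * (r - κ)) * η i + (-(χ ^ 2 * r ^ 2)) * ζ i +
      (-(χ ^ 2)) * ξ i) ≤
      4 * (4 * M ^ 2 * (a + b) ^ 2) * gq (S.G x) η + 4 * (M ^ 4 * a ^ 4) * gq (S.G x) ζ +
        4 * M ^ 4 * gq (S.G x) ξ := by
  refine (log_gq3 S x _ _ _ _ _ _).trans ?_
  have hA := gq_nonneg S x ζ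
  have hB := gq_nonneg S x η
  have hK := gq_nonneg S x ξ
  have e1 : (2 * χ * (r - κ)) ^ 2 ≤ 4 * M ^ 2 * (a + b) ^ 2 := by
    have h4 : (r - κ) ^ 2 ≤ (a + b) ^ 2 := by
      rw [← sq_abs]
      have h5 := (abs_sub r κ).trans (add_le_add hr hκ)
      gcongr
    calc (2 * χ * (r - κ)) ^ 2 = 4 * χ ^ 2 * (r - κ) ^ 2 := by ring
      _ ≤ _ := by gcongr
  have e2 : (-(χ ^ 2 * r ^ 2)) ^ 2 ≤ M ^ 4 * a ^ 4 := by
    have h4 : r ^ 2 ≤ a ^ 2 := by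
      rw [← sq_abs]
      gcongr
    calc (-(χ ^ 2 * r ^ 2)) ^ 2 = (χ ^ 2) ^ 2 * (r ^ 2) ^ 2 := by ring
      _ ≤ (M ^ 2) ^ 2 * (a ^ 2) ^ 2 := by gcongr
      _ = _ := by ring
  have e3 : (-(χ ^ 2)) ^ 2 ≤ M ^ 4 := by
    calc (-(χ ^ 2)) ^ 2 = (χ ^ 2) ^ 2 := by ring
      _ ≤ (M ^ 2) ^ 2 := by gcongr
      _ = _ := by ring
  have f1 := mul_le_mul_of_nonneg_right e1 hB
  have f2 := mul_le_mul_of_nonneg_right e2 hA
  have f3 := mul_le_mul_of_nonneg_right e3 hK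
  linarith

/-- the pointwise lower bound -/
private theorem log_main_pt (S : Setup n W) (x : En n) (η ζ ξ : Fin n → ℝ) {χ r κ M c : ℝ}
    (h3M : χ ^ 2 ≤ M ^ 2) (hκ : |κ| ≤ c) :
    χ ^ 2 * ∑ i, (ζ i * r) ^ 2 ≤
      S.lam⁻¹ * (-2) * gb (S.G x) ζ (fun i => (2 * χ * (r - κ)) * η i +
        (-(χ ^ 2 * r ^ 2)) * ζ i + (-(χ ^ 2)) * ξ i) +
      S.lam⁻¹ * 6 * gq (S.G x) η + S.lam⁻¹ * (2 * (M ^ 2 * c ^ 2 + M ^ 4 / 4)) * gq (S.G x) ζ +
        S.lam⁻¹ * 2 * gq (S.G x) ξ := by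
  have hlam := S.lam_pos
  have hA := gq_nonneg S x ζ
  have k1 := log_gb S x ζ η (θ := 1 / 2) (by norm_num) (χ * r)
  have k2 := log_gb S x ζ η (θ := 1) (by norm_num) (-(χ * κ))
  have k3 := log_gb S x ζ ξ (θ := 1) (by norm_num) (-(χ ^ 2 / 2))
  have hlo := gq_lo S x ζ
  have hκ2 : κ ^ 2 ≤ c ^ 2 := by
    rw [← sq_abs]
    gcongr
  have hreal := log_real hA h3M hκ2 k1 k2 k3
  rw [log_gb3 S x, log_gb_self]
  have l2 : ∑ i, (ζ i * r) ^ 2 = r ^ 2 * ∑ i, ‖ζ i‖ ^ 2 := by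
    rw [Finset.mul_sum]
    refine Finset.sum_congr rfl fun i _ => ?_
    rw [Real.norm_eq_abs, sq_abs]
    ring
  have l3 : ∑ i, ‖ζ i‖ ^ 2 ≤ S.lam⁻¹ * gq (S.G x) ζ := by
    rw [inv_mul_eq_div, le_div_iff₀ hlam]
    linarith
  rw [l2]
  have h1 : χ ^ 2 * (r ^ 2 * ∑ i, ‖ζ i‖ ^ 2) ≤ S.lam⁻¹ * (χ ^ 2 * r ^ 2 * gq (S.G x) ζ) := by
    calc χ ^ 2 * (r ^ 2 * ∑ i, ‖ζ i‖ ^ 2)
        ≤ χ ^ 2 * (r ^ 2 * (S.lam⁻¹ * gq (S.G x) ζ)) := by gcongr
      _ = _ := by ring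
  have h2 := mul_le_mul_of_nonneg_left hreal (inv_nonneg.mpr hlam.le)
  linarith

private theorem log_core (S : Setup n W) {f : En n → ℝ} {Kf : NNReal} (hf : LipschitzWith Kf f)
    {c : ℝ} (hc : S.LB f c) {χ : En n → ℝ} {Kχ : NNReal} (hχ : LipschitzWith Kχ χ) {M : ℝ}
    (hM : ∀ x, |χ x| ≤ M) {c0 : ℝ} (hc0 : 0 < c0)
    (hχf : ∀ x ∈ sphere (0 : En n) 1, χ x ≠ 0 → c0 ≤ f x) :
    ∃ C : ℝ, 0 ≤ C ∧ ∀ (w : En n → ℝ) (δ ε : ℝ), IsLip w → (∀ x, 0 ≤ w x) →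
      (∀ x ∈ sphere (0 : En n) 1, w x = f x) → 0 < δ → δ ≤ 1 → 0 ≤ ε → ε ≤ δ ^ 4 →
      S.er w ≤ c + ε →
      ∫ x in ball (0 : En n) 1, χ x ^ 2 * ∑ i, (pd w i x / (w x + δ)) ^ 2 ≤ C := by
  have hM0 : 0 ≤ M := (abs_nonneg _).trans (hM 0)
  have hlam := S.lam_pos
  obtain ⟨Ek, hEk0, hEk⟩ : ∃ Ek : ℝ, 0 ≤ Ek ∧ ∀ δ : ℝ, 0 < δ →
      S.er (fun x => (max (f x) c0 + δ)⁻¹) ≤ Ek := by
    refine ⟨|S.Lam| * (n * ((⟨Kf / c0 ^ 2, by positivity⟩ : NNReal) : ℝ) ^ 2) *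
      volume.real (ball (0 : En n) 1), by positivity, fun δ hδ => ?_⟩
    have h1 := log_lip_m hf c0 δ
    exact log_ek S (log_lip_inv h1 hc0 (fun x => by
      have := le_max_right (f x) c0
      linarith)).1
  have hX0 : 0 ≤ S.er χ := er_nonneg S χ
  set X := S.er χ with hX
  set D : ℝ := 4 * (4 * M ^ 2 * (1 + c0⁻¹) ^ 2 * X + M ^ 4 * (|c| + 1) + M ^ 4 * Ek) with hD
  set c1 : ℝ := 2 * (M ^ 2 * c0⁻¹ ^ 2 + M ^ 4 / 4) with hc1
  have hD0 : 0 ≤ D := by positivity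
  have hc10 : 0 ≤ c1 := by positivity
  refine ⟨S.lam⁻¹ * (1 + D + 6 * X + c1 * (|c| + 1) + 2 * Ek), by positivity, ?_⟩
  intro w δ ε hw hw0 hwf hδ hδ1 hε hεδ hE
  obtain ⟨Kw, hwL⟩ := hw
  set κ : En n → ℝ := fun x => (max (f x) c0 + δ)⁻¹ with hκ
  have hmL := log_lip_m hf c0 δ
  have hwδL := log_lip_c hwL δ
  obtain ⟨hκL, hκb⟩ := log_lip_inv hmL hc0 (fun x => by
      have := le_max_right (f x) c0
      linarith)
  obtain ⟨hrL, hrb⟩ := log_lip_inv hwδL hδ (fun x => by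
      have := hw0 x
      linarith)
  set ψ : En n → ℝ := fun x => χ x * χ x * ((w x + δ)⁻¹ - κ x) with hψ
  have hψL : IsLip ψ := by
    obtain ⟨K2, hK2⟩ := log_lip_mul hχ hχ hM hM
    refine log_lip_mul (Ma := M * M) (Mb := δ⁻¹ + c0⁻¹) hK2 (hrL.sub hκL) ?_ ?_
    · intro x
      rw [abs_mul]
      have := hM x
      gcongr
    · intro x
      exact (abs_sub _ _).trans (add_le_add (hrb x) (hκb x))
  have hψ0 : ∀ x ∈ sphere (0 : En n) 1, ψ x = 0 := by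
    intro x hx
    by_cases h0 : χ x = 0
    · simp [hψ, h0]
    · have h1 := hχf x hx h0
      simp only [hψ, hκ, max_eq_left h1, hwf x hx, sub_self, mul_zero]
  have hwlip : IsLip w := ⟨Kw, hwL⟩
  have hχlip : IsLip χ := ⟨Kχ, hχ⟩
  have hκlip : IsLip κ := ⟨_, hκL⟩
  have hEk' : S.er κ ≤ Ek := hEk δ hδ
  have hκ0 : 0 ≤ S.er κ := er_nonneg S κ
  have hw0' : 0 ≤ S.er w := er_nonneg S w
  have hw1 : S.er w ≤ |c| + 1 := by
    have h1 : ε ≤ 1 := hεδ.trans (pow_le_one₀ hδ.le hδ1)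
    have h2 := le_abs_self c
    linarith
  have hae : ∀ᵐ x ∂(volume.restrict (ball (0 : En n) 1)),
      (fun i => pd ψ i x) = fun i => (2 * χ x * ((w x + δ)⁻¹ - κ x)) * pd χ i x +
        (-(χ x ^ 2 * (w x + δ)⁻¹ ^ 2)) * pd w i x + (-(χ x ^ 2)) * pd κ i x := by
    refine ae_restrict_of_ae ?_
    filter_upwards [hwL.ae_differentiableAt (μ := volume), hχ.ae_differentiableAt (μ := volume),
      hκL.ae_differentiableAt (μ := volume)] with x h1 h2 h3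
    funext i
    refine log_pd h1 h2 h3 ?_ i
    have := hw0 x
    positivity
  have h3M : ∀ x, χ x ^ 2 ≤ M ^ 2 := fun x => by
    have := hM x
    rw [← sq_abs (χ x)]
    gcongr
  -- energy of ψ
  have hPs : δ ^ 4 * S.er ψ ≤ D := by
    have h1 : S.er ψ ≤ ∫ x in ball (0 : En n) 1,
        (4 * (4 * M ^ 2 * (δ⁻¹ + c0⁻¹) ^ 2) * gq (S.G x) (fun i => pd χ i x) +
          4 * (M ^ 4 * δ⁻¹ ^ 4) * gq (S.G x) (fun i => pd w i x) +
          4 * M ^ 4 * gq (S.G x) (fun i => pd κ i x)) := by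
      unfold Setup.er
      refine integral_mono_ae (int_er S hψL) ?_ ?_
      · exact (((int_er S hχlip).const_mul _).add ((int_er S hwlip).const_mul _)).add
          ((int_er S hκlip).const_mul _)
      · filter_upwards [hae] with x hx
        rw [hx]
        exact log_psi_pt S x _ _ _ (h3M x) (hrb x) (hκb x)
    have h2 : (∫ x in ball (0 : En n) 1,
        (4 * (4 * M ^ 2 * (δ⁻¹ + c0⁻¹) ^ 2) * gq (S.G x) (fun i => pd χ i x) +
          4 * (M ^ 4 * δ⁻¹ ^ 4) * gq (S.G x) (fun i => pd w i x) +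
          4 * M ^ 4 * gq (S.G x) (fun i => pd κ i x))) =
        4 * (4 * M ^ 2 * (δ⁻¹ + c0⁻¹) ^ 2) * X + 4 * (M ^ 4 * δ⁻¹ ^ 4) * S.er w +
          4 * M ^ 4 * S.er κ := by
      rw [integral_add, integral_add, integral_const_mul, integral_const_mul, integral_const_mul]
      · rfl
      · exact (int_er S hχlip).const_mul _
      · exact (int_er S hwlip).const_mul _
      · exact ((int_er S hχlip).const_mul _).add ((int_er S hwlip).const_mul _)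
      · exact (int_er S hκlip).const_mul _
    rw [h2] at h1
    have h4 : δ ^ 4 * (δ⁻¹ + c0⁻¹) ^ 2 ≤ (1 + c0⁻¹) ^ 2 := by
      have h5 : δ ^ 4 * (δ⁻¹ + c0⁻¹) ^ 2 = (δ * (1 + δ * c0⁻¹)) ^ 2 := by
        field_simp
      rw [h5]
      have h6 : 0 ≤ c0⁻¹ := by positivity
      have h7 : δ * (1 + δ * c0⁻¹) ≤ 1 + c0⁻¹ := by
        have h8 : δ * c0⁻¹ ≤ c0⁻¹ := by nlinarith
        calc δ * (1 + δ * c0⁻¹) ≤ 1 * (1 + δ * c0⁻¹) := by
              have : 0 ≤ 1 + δ * c0⁻¹ := by positivity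
              nlinarith
          _ ≤ _ := by linarith
      have h9 : 0 ≤ δ * (1 + δ * c0⁻¹) := by positivity
      gcongr
    have h5 : δ ^ 4 * δ⁻¹ ^ 4 = 1 := by
      field_simp
    have h6 : δ ^ 4 ≤ 1 := pow_le_one₀ hδ.le hδ1
    calc δ ^ 4 * S.er ψ ≤ δ ^ 4 * (4 * (4 * M ^ 2 * (δ⁻¹ + c0⁻¹) ^ 2) * X +
          4 * (M ^ 4 * δ⁻¹ ^ 4) * S.er w + 4 * M ^ 4 * S.er κ) := by gcongr
      _ = 4 * (4 * M ^ 2 * (δ ^ 4 * (δ⁻¹ + c0⁻¹) ^ 2) * X + M ^ 4 * (δ ^ 4 * δ⁻¹ ^ 4) * S.er w +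
          M ^ 4 * (δ ^ 4 * S.er κ)) := by ring
      _ ≤ 4 * (4 * M ^ 2 * (1 + c0⁻¹) ^ 2 * X + M ^ 4 * 1 * (|c| + 1) +
          M ^ 4 * (1 * Ek)) := by
          rw [h5]
          gcongr
      _ = D := by rw [hD]; ring
  have htest := test_ineq S (ψ := ψ) (t := δ ^ 4) hc hwlip hwf hE hψL hψ0 (by positivity)
  have htest2 : -(S.eb w ψ) ≤ 1 / 2 + D / 2 := by
    have h1 : ε / (2 * δ ^ 4) ≤ 1 / 2 := by
      rw [div_le_iff₀ (by positivity)]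
      linarith
    have h2 : δ ^ 4 / 2 * S.er ψ ≤ D / 2 := by linarith
    linarith
  -- main inequality
  have hmain : ∫ x in ball (0 : En n) 1, χ x ^ 2 * ∑ i, (pd w i x / (w x + δ)) ^ 2 ≤
      ∫ x in ball (0 : En n) 1, (S.lam⁻¹ * (-2) *
        gb (S.G x) (fun i => pd w i x) (fun i => pd ψ i x) +
        S.lam⁻¹ * 6 * gq (S.G x) (fun i => pd χ i x) +
        S.lam⁻¹ * c1 * gq (S.G x) (fun i => pd w i x) +
        S.lam⁻¹ * 2 * gq (S.G x) (fun i => pd κ i x)) := by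
    refine integral_mono_of_nonneg ?_ ?_ ?_
    · refine Eventually.of_forall fun x => ?_
      simp only [Pi.zero_apply]
      positivity
    · exact ((((int_eb S hwlip hψL).const_mul _).add ((int_er S hχlip).const_mul _)).add
        ((int_er S hwlip).const_mul _)).add ((int_er S hκlip).const_mul _)
    · filter_upwards [hae] with x hx
      rw [hx]
      have h := log_main_pt S x (fun i => pd χ i x) (fun i => pd w i x) (fun i => pd κ i x)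
        (h3M x) (r := (w x + δ)⁻¹) (hκb x)
      simp only [div_eq_mul_inv (pd w _ x)]
      exact h
  refine hmain.trans ?_
  rw [integral_add, integral_add, integral_add, integral_const_mul, integral_const_mul,
    integral_const_mul, integral_const_mul]
  · change S.lam⁻¹ * (-2) * S.eb w ψ + S.lam⁻¹ * 6 * X + S.lam⁻¹ * c1 * S.er w +
      S.lam⁻¹ * 2 * S.er κ ≤ _
    have h9 : c1 * S.er w ≤ c1 * (|c| + 1) := by gcongr
    calc S.lam⁻¹ * (-2) * S.eb w ψ + S.lam⁻¹ * 6 * X + S.lam⁻¹ * c1 * S.er w +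
        S.lam⁻¹ * 2 * S.er κ
        = S.lam⁻¹ * (2 * (-(S.eb w ψ)) + 6 * X + c1 * S.er w + 2 * S.er κ) := by ring
      _ ≤ _ := by
        refine mul_le_mul_of_nonneg_left ?_ (by positivity)
        linarith
  · exact (int_eb S hwlip hψL).const_mul _
  · exact (int_er S hχlip).const_mul _
  · exact ((int_eb S hwlip hψL).const_mul _).add ((int_er S hχlip).const_mul _)
  · exact (int_er S hwlip).const_mul _
  · exact (((int_eb S hwlip hψL).const_mul _).add ((int_er S hχlip).const_mul _)).add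
      ((int_er S hwlip).const_mul _)
  · exact (int_er S hκlip).const_mul _

theorem log_est (S : Setup n W) {f : En n → ℝ} (hf : IsLip f) {c : ℝ} (hc : S.LB f c)
    {χ : En n → ℝ} (hχ : IsLip χ) {c0 : ℝ} (hc0 : 0 < c0)
    (hχf : ∀ x ∈ sphere (0 : En n) 1, χ x ≠ 0 → c0 ≤ f x) :
    ∃ C : ℝ, 0 ≤ C ∧ ∀ (w : En n → ℝ) (δ ε : ℝ), IsLip w → (∀ x, 0 ≤ w x) →
      (∀ x ∈ sphere (0 : En n) 1, w x = f x) → 0 < δ → δ ≤ 1 → 0 ≤ ε → ε ≤ δ ^ 4 →
      S.er w ≤ c + ε →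
      ∫ x in ball (0 : En n) 1, χ x ^ 2 * ∑ i, (pd w i x / (w x + δ)) ^ 2 ≤ C := by
  obtain ⟨Kf, hf⟩ := hf
  obtain ⟨Kχ, hχL⟩ := hχ
  set M : ℝ := |χ 0| + Kχ with hMdef
  have hM0 : 0 ≤ M := by positivity
  have hM : ∀ x ∈ closedBall (0 : En n) 1, |χ x| ≤ M := by
    intro x hx
    have h1 := hχL.dist_le_mul x 0
    rw [Real.dist_eq] at h1
    have h2 : dist x 0 ≤ 1 := hx
    have h3 : (Kχ : ℝ) * dist x 0 ≤ Kχ := by
      have : (0 : ℝ) ≤ Kχ := Kχ.2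
      nlinarith
    have h4 : |χ x| ≤ |χ x - χ 0| + |χ 0| := by
      have := abs_add_le (χ x - χ 0) (χ 0)
      simpa using this
    rw [hMdef]
    linarith
  set χ' : En n → ℝ := fun x => max (min (χ x) M) (-M) with hχ'
  have hχ'L : LipschitzWith Kχ χ' := (hχL.min_const M).max_const (-M)
  have hχ'M : ∀ x, |χ' x| ≤ M := by
    intro x
    rw [abs_le]
    refine ⟨le_max_right _ _, max_le (min_le_right _ _) (by linarith)⟩
  have hχ'eq : ∀ x ∈ closedBall (0 : En n) 1, χ' x = χ x := by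
    intro x hx
    have h1 := abs_le.mp (hM x hx)
    simp only [hχ']
    rw [min_eq_left h1.2, max_eq_left h1.1]
  obtain ⟨C, hC0, hC⟩ := log_core S hf hc hχ'L hχ'M hc0 (fun x hx h0 => by
    refine hχf x hx ?_
    rwa [hχ'eq x (sphere_subset_closedBall hx)] at h0)
  refine ⟨C, hC0, fun w δ ε h1 h2 h3 h4 h5 h6 h7 h8 => ?_⟩
  have h9 := hC w δ ε h1 h2 h3 h4 h5 h6 h7 h8
  have h10 : ∫ x in ball (0 : En n) 1, χ' x ^ 2 * ∑ i, (pd w i x / (w x + δ)) ^ 2 =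
      ∫ x in ball (0 : En n) 1, χ x ^ 2 * ∑ i, (pd w i x / (w x + δ)) ^ 2 := by
    refine setIntegral_congr_fun measurableSet_ball fun x hx => ?_
    simp only [hχ'eq x (ball_subset_closedBall hx)]
  rw [← h10]
  exact h9

end P088
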