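import Vale.Agent.P088.Int

/-! Module IBP (S-M): integration by parts for Lipschitz maps.  Mathlib: `LipschitzWith.integral_lineDeriv_mul_eq`
(Mathlib.Analysis.Calculus.Rademacher), coordinates in an orthonormal basis of `X`. -/

open MeasureTheory Metric Set Filter Topology
open scoped ContDiff InnerProductSpace

namespace P088

variable {n : ℕ} {X : Type*} [NormedAddCommGroup X] [InnerProductSpace ℝ X]
  [FiniteDimensional ℝ X]

omit [InnerProductSpace ℝ X] [FiniteDimensional ℝ X] in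
theorem IBP_int {φ : En n → X} (hφ : StronglyMeasurable φ) {K : Set (En n)} (hK : IsCompact K)
    (h0 : ∀ x, x ∉ K → φ x = 0) {C : ℝ} (hC : ∀ x ∈ K, ‖φ x‖ ≤ C) : Integrable φ := by
  have hs : Function.support φ ⊆ K := by
    intro x hx
    by_contra hxK
    exact hx (h0 x hxK)
  rw [← integrableOn_iff_integrable_of_support_subset hs]
  refine Measure.integrableOn_of_bounded (M := C) hK.measure_lt_top.ne
    hφ.aestronglyMeasurable ?_
  rw [ae_restrict_iff' hK.measurableSet]
  exact Eventually.of_forall hC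

theorem ibp {σ : En n → X} (hσ : IsLip σ) {χ : En n → ℝ} (hχ : IsLip χ)
    (hc : HasCompactSupport χ) (i : Fin n) :
    ∫ x, pd χ i x • σ x = - ∫ x, χ x • pd σ i x := by
  obtain ⟨Cσ, hσ⟩ := hσ
  obtain ⟨Cχ, hχ⟩ := hχ
  have hKc : IsCompact (tsupport χ) := hc
  have h0 : ∀ x, x ∉ tsupport χ → pd χ i x = 0 := by
    intro x hx
    unfold pd
    rw [fderiv_of_notMem_tsupport ℝ hx]
    rfl
  have h0' : ∀ x, x ∉ tsupport χ → χ x = 0 := fun x hx => image_eq_zero_of_notMem_tsupport hx
  obtain ⟨M, hM⟩ := hKc.exists_bound_of_continuousOn hσ.continuous.continuousOn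
  obtain ⟨M', hM'⟩ := hKc.exists_bound_of_continuousOn hχ.continuous.continuousOn
  have hi1 : Integrable fun x => pd χ i x • σ x := by
    refine IBP_int ((pd_meas χ i).smul hσ.continuous.stronglyMeasurable) hKc
      (fun x hx => by rw [h0 x hx, zero_smul]) (C := Cχ * M) fun x hx => ?_
    rw [norm_smul]
    exact mul_le_mul (pd_bdd hχ i x) (hM x hx) (norm_nonneg _) Cχ.2
  have hi2 : Integrable fun x => χ x • pd σ i x := by
    refine IBP_int (hχ.continuous.stronglyMeasurable.smul (pd_meas σ i)) hKc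
      (fun x hx => by rw [h0' x hx, zero_smul]) (C := M' * Cσ) fun x hx => ?_
    rw [norm_smul]
    exact mul_le_mul (hM' x hx) (pd_bdd hσ i x) (norm_nonneg _)
      ((norm_nonneg _).trans (hM' x hx))
  refine ext_inner_left ℝ fun y => ?_
  rw [inner_neg_right, ← integral_inner hi1, ← integral_inner hi2]
  have hh : LipschitzWith (‖innerSL ℝ y‖₊ * Cσ) (fun x => ⟪y, σ x⟫_ℝ) :=
    (innerSL ℝ y).lipschitz.comp hσ
  have key := LipschitzWith.integral_lineDeriv_mul_eq (μ := (volume : Measure (En n))) hh hχ hc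
    (EuclideanSpace.single i (1 : ℝ))
  have d1 := hσ.ae_differentiableAt (μ := (volume : Measure (En n)))
  have d2 := hχ.ae_differentiableAt (μ := (volume : Measure (En n)))
  have e1 : ∫ x, lineDeriv ℝ (fun x => ⟪y, σ x⟫_ℝ) x (EuclideanSpace.single i (1 : ℝ)) * χ x =
      ∫ x, ⟪y, χ x • pd σ i x⟫_ℝ := by
    refine integral_congr_ae ?_
    filter_upwards [d1] with x hx
    have hd : HasFDerivAt (fun x => ⟪y, σ x⟫_ℝ) ((innerSL ℝ y).comp (fderiv ℝ σ x)) x :=
      (innerSL ℝ y).hasFDerivAt.comp x hx.hasFDerivAt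
    rw [hd.differentiableAt.lineDeriv_eq_fderiv, hd.fderiv, inner_smul_right, mul_comm]
    rfl
  have e2 : ∫ x, lineDeriv ℝ χ x (-(EuclideanSpace.single i (1 : ℝ))) * ⟪y, σ x⟫_ℝ =
      -∫ x, ⟪y, pd χ i x • σ x⟫_ℝ := by
    rw [← integral_neg]
    refine integral_congr_ae ?_
    filter_upwards [d2] with x hx
    rw [hx.lineDeriv_eq_fderiv, map_neg, inner_smul_right, neg_mul]
    rfl
  rw [e1, e2] at key
  linarith

end P088
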