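import Vale.Agent.P088.Conv
import Vale.Agent.P088.Log
import Vale.Agent.P088.Ibp

/-! Module WP1: the weak form of `d_A σ` for `σ = sg δ (u_m)` is small. -/

open MeasureTheory Metric Set Filter Topology
open scoped ContDiff InnerProductSpace

namespace P088

variable {n : ℕ} {W : Type*} [NormedAddCommGroup W] [InnerProductSpace ℝ W] [FiniteDimensional ℝ W]

/-- outside the closed ball -/
theorem WP1_out {S : Setup n W} (M : MinSeq S) {Kf : NNReal} (hKf : LipschitzWith Kf M.f)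
    {p : En n} {ρ c0 : ℝ} (hc0 : 0 < c0)
    (hadm : ∀ x ∈ ball p ρ, x ∉ ball (0 : En n) 1 → c0 ≤ M.f x) (i : Fin n) (m : ℕ) {x : En n}
    (hx : x ∉ closedBall (0 : En n) 1) (hxp : x ∈ ball p ρ) (hd : DifferentiableAt ℝ M.f x)
    {δ : ℝ} (hδ : 0 < δ) :
    ‖S.cd (sg δ (M.u m)) i x‖ ≤ Kf * δ / c0 ^ 2 := by
  have hxb : x ∉ ball (0 : En n) 1 := fun h => hx (ball_subset_closedBall h)
  have hev : ∀ᶠ y in 𝓝 x, y ∉ ball (0 : En n) 1 := by
    filter_upwards [isClosed_closedBall.isOpen_compl.mem_nhds hx] with y hy hyb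
    exact hy (ball_subset_closedBall hyb)
  have e1 : M.u m =ᶠ[𝓝 x] fun y => M.f y • M.v := by
    filter_upwards [hev] with y hy
    exact M.u_out m y hy
  have e2 : (fun y => ‖M.u m y‖) =ᶠ[𝓝 x] M.f := by
    filter_upwards [hev] with y hy
    rw [M.u_out m y hy, norm_smul, M.v_norm, mul_one, Real.norm_eq_abs,
      abs_of_nonneg (M.f_nonneg y)]
  have hv : HasFDerivAt (fun y => M.f y • M.v) ((fderiv ℝ M.f x).smulRight M.v) x :=
    hd.hasFDerivAt.smul_const M.v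
  have d1 : HasFDerivAt (M.u m) ((fderiv ℝ M.f x).smulRight M.v) x := hv.congr_of_eventuallyEq e1
  have d2 : HasFDerivAt (fun y => ‖M.u m y‖) (fderiv ℝ M.f x) x :=
    hd.hasFDerivAt.congr_of_eventuallyEq e2
  have hux : M.u m x = M.f x • M.v := M.u_out m x hxb
  have hnx : ‖M.u m x‖ = M.f x := e2.self_of_nhds
  have p1 : pd (fun y => ‖M.u m y‖) i x = pd M.f i x := by
    unfold pd
    rw [d2.fderiv]
  have p2 : S.cd (M.u m) i x = pd M.f i x • M.v := by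
    unfold Setup.cd pd
    rw [d1.fderiv, S.A_out x hxb i]
    simp
  have hfx : c0 ≤ M.f x := hadm x hxp hxb
  have hpos : 0 < M.f x + δ := by linarith
  rw [KATO_sg S d1.differentiableAt d2.differentiableAt hδ i, p1, p2, hnx, hux, smul_smul,
    smul_smul, ← sub_smul, norm_smul, M.v_norm, mul_one]
  have e3 : (M.f x + δ)⁻¹ * pd M.f i x - ((M.f x + δ) ^ 2)⁻¹ * pd M.f i x * M.f x =
      pd M.f i x * (δ / (M.f x + δ) ^ 2) := by
    field_simp
    ring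
  rw [e3, norm_mul, Real.norm_of_nonneg (by positivity : (0 : ℝ) ≤ δ / (M.f x + δ) ^ 2),
    mul_div_assoc]
  refine mul_le_mul (pd_bdd hKf i x) ?_ (by positivity) Kf.2
  refine div_le_div_of_nonneg_left hδ.le (by positivity) ?_
  exact pow_le_pow_left₀ hc0.le (by linarith) 2

/-- pointwise estimate inside the ball -/
theorem WP1_in {χ a d w lam δ η e : ℝ} {K : ℝ} (hχ : |χ| ≤ K) (hd : 0 ≤ d) (hlam : 0 < lam)
    (hδ : 0 < δ) (hη : 0 < η) (he : 0 < e) (hw : 0 ≤ w) {T : ℝ} (hT : (a / (w + δ)) ^ 2 ≤ T) {Y : ℝ}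
    (hY : Y ≤ Real.sqrt (d / lam) / δ + |a| * (δ / (w + δ) ^ 2)) :
    |χ| * Y ≤ K * Real.sqrt lam⁻¹ / (2 * δ) * (d / Real.sqrt e + Real.sqrt e) +
      η / 2 * (χ ^ 2 * T) + (2 * η)⁻¹ * (δ / (w + δ)) ^ 2 := by
  have hK : 0 ≤ K := (abs_nonneg _).trans hχ
  have hse : 0 < Real.sqrt e := Real.sqrt_pos.2 he
  have hwd : 0 < w + δ := by linarith
  have h1 : Real.sqrt (d / lam) = Real.sqrt d * Real.sqrt lam⁻¹ := by
    rw [div_eq_mul_inv, Real.sqrt_mul hd]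
  have h2 : Real.sqrt d ≤ (d / Real.sqrt e + Real.sqrt e) / 2 := by
    have h3 : d / Real.sqrt e = Real.sqrt d ^ 2 / Real.sqrt e := by rw [Real.sq_sqrt hd]
    rw [h3]
    have h4 : 0 ≤ (Real.sqrt d - Real.sqrt e) ^ 2 / Real.sqrt e := by positivity
    have h5 : (Real.sqrt d - Real.sqrt e) ^ 2 / Real.sqrt e =
        Real.sqrt d ^ 2 / Real.sqrt e + Real.sqrt e - 2 * Real.sqrt d := by
      field_simp
      ring
    linarith
  have h6 : |χ| * (Real.sqrt (d / lam) / δ) ≤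
      K * Real.sqrt lam⁻¹ / (2 * δ) * (d / Real.sqrt e + Real.sqrt e) := by
    rw [h1]
    calc |χ| * (Real.sqrt d * Real.sqrt lam⁻¹ / δ)
        ≤ K * ((d / Real.sqrt e + Real.sqrt e) / 2 * Real.sqrt lam⁻¹ / δ) := by
          gcongr
      _ = _ := by
          field_simp
  have h7 : |χ| * (|a| * (δ / (w + δ) ^ 2)) ≤
      η / 2 * (χ ^ 2 * (a / (w + δ)) ^ 2) + (2 * η)⁻¹ * (δ / (w + δ)) ^ 2 := by
    have h8 : |χ| * (|a| * (δ / (w + δ) ^ 2)) = (|χ| * (|a| / (w + δ))) * (δ / (w + δ)) := by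
      field_simp
    have h9 : χ ^ 2 * (a / (w + δ)) ^ 2 = (|χ| * (|a| / (w + δ))) ^ 2 := by
      rw [mul_pow, div_pow, div_pow, sq_abs, sq_abs]
    rw [h8, h9]
    generalize |χ| * (|a| / (w + δ)) = A
    generalize δ / (w + δ) = B
    have h10 : 0 ≤ (η * A - B) ^ 2 / (2 * η) := by positivity
    have h11 : (η * A - B) ^ 2 / (2 * η) = η / 2 * A ^ 2 + (2 * η)⁻¹ * B ^ 2 - A * B := by
      field_simp
      ring
    linarith
  have h12 : η / 2 * (χ ^ 2 * (a / (w + δ)) ^ 2) ≤ η / 2 * (χ ^ 2 * T) := by gcongr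
  calc |χ| * Y ≤ |χ| * (Real.sqrt (d / lam) / δ + |a| * (δ / (w + δ) ^ 2)) :=
        mul_le_mul_of_nonneg_left hY (abs_nonneg _)
    _ = |χ| * (Real.sqrt (d / lam) / δ) + |χ| * (|a| * (δ / (w + δ) ^ 2)) := by ring
    _ ≤ _ := by linarith

theorem WP1_intT {w χ : En n → ℝ} (hw : IsLip w) (hw0 : ∀ x, 0 ≤ w x) (hχ : Continuous χ) {Kχ : ℝ}
    (hK : ∀ x, |χ x| ≤ Kχ) {δ : ℝ} (hδ : 0 < δ) :
    IntegrableOn (fun x => χ x ^ 2 * ∑ i, (pd w i x / (w x + δ)) ^ 2) (ball (0 : En n) 1) := by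
  obtain ⟨Kw, hKw⟩ := hw
  have hc : Continuous w := hKw.continuous
  refine Measure.integrableOn_of_bounded (M := Kχ ^ 2 * ∑ _i : Fin n, ((Kw : ℝ) / δ) ^ 2)
    measure_ball_lt_top.ne ?_ ?_
  · have h1 : Measurable fun x => ∑ i, (pd w i x / (w x + δ)) ^ 2 := by
      refine Finset.measurable_fun_sum _ fun i _ => ?_
      exact ((pd_meas w i).measurable.div (hc.add continuous_const).measurable).pow_const 2
    exact ((hχ.pow 2).stronglyMeasurable.mul h1.stronglyMeasurable).aestronglyMeasurable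
  · refine Eventually.of_forall fun x => ?_
    have h2 : 0 ≤ ∑ i, (pd w i x / (w x + δ)) ^ 2 := Finset.sum_nonneg fun i _ => sq_nonneg _
    have h3 : 0 < w x + δ := by linarith [hw0 x]
    rw [Real.norm_of_nonneg (mul_nonneg (sq_nonneg _) h2)]
    refine mul_le_mul ?_ ?_ h2 (sq_nonneg _)
    · rw [← sq_abs]
      exact pow_le_pow_left₀ (abs_nonneg _) (hK x) 2
    · refine Finset.sum_le_sum fun i _ => ?_
      rw [← sq_abs, abs_div, abs_of_pos h3]
      refine pow_le_pow_left₀ (by positivity) ?_ 2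
      exact div_le_div₀ Kw.2 (pd_bdd hKw i x) hδ (by linarith [hw0 x])

theorem WP1_intJ {w : En n → ℝ} (hw : IsLip w) (hw0 : ∀ x, 0 ≤ w x) {δ : ℝ} (hδ : 0 < δ) :
    IntegrableOn (fun x => (δ / (w x + δ)) ^ 2) (ball (0 : En n) 1) := by
  obtain ⟨Kw, hKw⟩ := hw
  have hc : Continuous w := hKw.continuous
  have h1 : Continuous fun x => (δ / (w x + δ)) ^ 2 := by
    refine (continuous_const.div (hc.add continuous_const) fun x => ?_).pow 2
    exact (by linarith [hw0 x] : 0 < w x + δ).ne'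
  exact (h1.continuousOn.integrableOn_compact (isCompact_closedBall 0 1)).mono_set
    ball_subset_closedBall

theorem WP1_maj {S : Setup n W} (M : MinSeq S) (m : ℕ) {χ : En n → ℝ} (hχ : Continuous χ) {Kχ : ℝ}
    (hK : ∀ x, |χ x| ≤ Kχ) {δ η a : ℝ} (hδ : 0 < δ) (hη : 0 < η) (ha : 0 ≤ a) {Cl : ℝ}
    (hCl : ∫ x in ball (0 : En n) 1, χ x ^ 2 *
      ∑ i, (pd (fun y => ‖M.u m y‖) i x / (‖M.u m x‖ + δ)) ^ 2 ≤ Cl) :
    IntegrableOn (fun x => a * (df S (M.u m) x / Real.sqrt (ep m) + Real.sqrt (ep m)) +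
      η / 2 * (χ x ^ 2 * ∑ i, (pd (fun y => ‖M.u m y‖) i x / (‖M.u m x‖ + δ)) ^ 2) +
      (2 * η)⁻¹ * (δ / (‖M.u m x‖ + δ)) ^ 2) (ball (0 : En n) 1) ∧
    ∫ x in ball (0 : En n) 1, (a * (df S (M.u m) x / Real.sqrt (ep m) + Real.sqrt (ep m)) +
      η / 2 * (χ x ^ 2 * ∑ i, (pd (fun y => ‖M.u m y‖) i x / (‖M.u m x‖ + δ)) ^ 2) +
      (2 * η)⁻¹ * (δ / (‖M.u m x‖ + δ)) ^ 2) ≤
      a * (Real.sqrt (ep m) * (1 + (volume (ball (0 : En n) 1)).toReal)) + η / 2 * Cl +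
      (2 * η)⁻¹ * ∫ x in ball (0 : En n) 1, (δ / (‖M.u m x‖ + δ)) ^ 2 := by
  obtain ⟨h1, h2, h3, h4, h5, h6⟩ := ms_norm M m
  have hw0 : ∀ x, 0 ≤ ‖M.u m x‖ := fun x => norm_nonneg _
  have hep : 0 < ep m := by
    unfold ep
    positivity
  have hse : 0 < Real.sqrt (ep m) := Real.sqrt_pos.2 hep
  have iD : IntegrableOn (fun x => df S (M.u m) x) (ball (0 : En n) 1) :=
    (int_en S (M.u_lip m)).sub (int_er S h1)
  have iC : IntegrableOn (fun _ => Real.sqrt (ep m)) (ball (0 : En n) 1) :=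
    integrableOn_const measure_ball_lt_top.ne
  have i0 : IntegrableOn (fun x => df S (M.u m) x / Real.sqrt (ep m) + Real.sqrt (ep m))
      (ball (0 : En n) 1) := (iD.div_const (Real.sqrt (ep m))).add iC
  have i1 : IntegrableOn (fun x => a * (df S (M.u m) x / Real.sqrt (ep m) + Real.sqrt (ep m)))
      (ball (0 : En n) 1) := i0.const_mul a
  have i2 := (WP1_intT h1 hw0 hχ hK hδ).const_mul (η / 2)
  have i12 : IntegrableOn (fun x => a * (df S (M.u m) x / Real.sqrt (ep m) + Real.sqrt (ep m)) +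
      η / 2 * (χ x ^ 2 * ∑ i, (pd (fun y => ‖M.u m y‖) i x / (‖M.u m x‖ + δ)) ^ 2))
      (ball (0 : En n) 1) := i1.add i2
  have i3 := (WP1_intJ h1 hw0 hδ).const_mul (2 * η)⁻¹
  refine ⟨i12.add i3, ?_⟩
  have e1 : ∫ x in ball (0 : En n) 1, (a * (df S (M.u m) x / Real.sqrt (ep m) +
      Real.sqrt (ep m)) +
      η / 2 * (χ x ^ 2 * ∑ i, (pd (fun y => ‖M.u m y‖) i x / (‖M.u m x‖ + δ)) ^ 2) +
      (2 * η)⁻¹ * (δ / (‖M.u m x‖ + δ)) ^ 2) =
      a * ((∫ x in ball (0 : En n) 1, df S (M.u m) x) / Real.sqrt (ep m) +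
        Real.sqrt (ep m) * (volume (ball (0 : En n) 1)).toReal) +
      η / 2 * (∫ x in ball (0 : En n) 1, χ x ^ 2 *
        ∑ i, (pd (fun y => ‖M.u m y‖) i x / (‖M.u m x‖ + δ)) ^ 2) +
      (2 * η)⁻¹ * ∫ x in ball (0 : En n) 1, (δ / (‖M.u m x‖ + δ)) ^ 2 := by
    have e4 : ∫ x in ball (0 : En n) 1, (df S (M.u m) x / Real.sqrt (ep m) +
        Real.sqrt (ep m)) = (∫ x in ball (0 : En n) 1, df S (M.u m) x) / Real.sqrt (ep m) +
        Real.sqrt (ep m) * (volume (ball (0 : En n) 1)).toReal := by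
      rw [integral_add (iD.div_const (Real.sqrt (ep m))) iC, integral_div, setIntegral_const,
        smul_eq_mul, mul_comm (Real.sqrt (ep m))]
      rfl
    rw [integral_add i12 i3, integral_add i1 i2, integral_const_mul, integral_const_mul,
      integral_const_mul, e4]
  rw [e1]
  have hV : 0 ≤ (volume (ball (0 : En n) 1)).toReal := ENNReal.toReal_nonneg
  have h7 : (∫ x in ball (0 : En n) 1, df S (M.u m) x) / Real.sqrt (ep m) ≤ Real.sqrt (ep m) := by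
    rw [div_le_iff₀ hse, Real.mul_self_sqrt hep.le]
    exact h6
  have h8 : a * ((∫ x in ball (0 : En n) 1, df S (M.u m) x) / Real.sqrt (ep m) +
        Real.sqrt (ep m) * (volume (ball (0 : En n) 1)).toReal) ≤
      a * (Real.sqrt (ep m) * (1 + (volume (ball (0 : En n) 1)).toReal)) := by
    refine mul_le_mul_of_nonneg_left ?_ ha
    linarith
  have h9 : η / 2 * (∫ x in ball (0 : En n) 1, χ x ^ 2 *
        ∑ i, (pd (fun y => ‖M.u m y‖) i x / (‖M.u m x‖ + δ)) ^ 2) ≤ η / 2 * Cl :=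
    mul_le_mul_of_nonneg_left hCl (by positivity)
  linarith

theorem wp_bound {S : Setup n W} (M : MinSeq S) {p : En n} {ρ : ℝ} (hadm : Adm M.f p ρ)
    {χ : En n → ℝ} (hχ : IsTest p ρ χ) (i : Fin n) :
    ∃ C : ℝ, 0 ≤ C ∧ ∀ δ η : ℝ, 0 < δ → δ ≤ 1 → 0 < η → η ≤ 1 → ∀ m, ep m ≤ δ ^ 4 →
      ‖(∫ x, pd χ i x • sg δ (M.u m) x) - ∫ x, χ x • S.A x i (sg δ (M.u m) x)‖ ≤
        C * (Real.sqrt (ep m) / δ + η + δ +
          η⁻¹ * ∫ x in ball (0 : En n) 1, (δ / (‖M.u m x‖ + δ)) ^ 2) := by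
  obtain ⟨hχ1, hχ2, hχ3⟩ := hχ
  obtain ⟨c0, hc0, hadm⟩ := hadm
  obtain ⟨Kf, hKf⟩ := M.f_lip
  have hχc : Continuous χ := hχ1.continuous
  have hχlip : IsLip χ := by
    obtain ⟨K, hK⟩ := ContDiff.lipschitzWith_of_hasCompactSupport hχ2 hχ1 (by simp)
    exact ⟨K, hK⟩
  obtain ⟨Kχ, hKχ0⟩ := hχc.bounded_above_of_compact_support hχ2
  have hKχ : ∀ x, |χ x| ≤ Kχ := hKχ0
  have hK0 : 0 ≤ Kχ := (abs_nonneg _).trans (hKχ 0)
  have hχf : ∀ x ∈ sphere (0 : En n) 1, χ x ≠ 0 → c0 ≤ M.f x := by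
    intro x hx h
    refine hadm x (hχ3 (subset_tsupport _ h)) ?_
    intro hb
    rw [mem_sphere_zero_iff_norm] at hx
    rw [mem_ball_zero_iff] at hb
    linarith
  obtain ⟨Cl, hCl0, hCl⟩ := log_est S M.f_lip M.c_le hχlip hc0 hχf
  have hlam := S.lam_pos
  have hV : 0 ≤ (volume (ball (0 : En n) 1)).toReal := ENNReal.toReal_nonneg
  have hIχ : 0 ≤ ∫ x, |χ x| := integral_nonneg fun x => abs_nonneg _
  have iχ : Integrable fun x => |χ x| := (hχc.integrable_of_hasCompactSupport hχ2).abs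
  refine ⟨Kχ * Real.sqrt S.lam⁻¹ / 2 * (1 + (volume (ball (0 : En n) 1)).toReal) + Cl / 2 +
    Kf / c0 ^ 2 * (∫ x, |χ x|) + 1 / 2, by positivity, ?_⟩
  intro δ η hδ hδ1 hη hη1 m hm
  obtain ⟨h1, h2, h3, h4, h5, h6⟩ := ms_norm M m
  have hw0 : ∀ x, 0 ≤ ‖M.u m x‖ := fun x => norm_nonneg _
  have hep : 0 < ep m := by
    unfold ep
    positivity
  have hCl1 := hCl (fun x => ‖M.u m x‖) δ (ep m) h1 hw0 (fun x hx => h2 x (by
    intro hb
    rw [mem_sphere_zero_iff_norm] at hx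
    rw [mem_ball_zero_iff] at hb
    linarith)) hδ hδ1 h5 hm h3
  obtain ⟨iM, hM⟩ := WP1_maj M m hχc hKχ (a := Kχ * Real.sqrt S.lam⁻¹ / (2 * δ)) hδ hη
    (by positivity) hCl1
  have hlσ : IsLip (sg δ (M.u m)) := lip_sg (M.u_lip m) hδ
  obtain ⟨Kσ, hKσ⟩ := hlσ
  have hσc : Continuous (sg δ (M.u m)) := hKσ.continuous
  have hσ1 : ∀ x, ‖sg δ (M.u m) x‖ ≤ 1 := by
    intro x
    unfold sg
    have hp : 0 < ‖M.u m x‖ + δ := by linarith [hw0 x]
    rw [norm_smul, norm_inv, Real.norm_of_nonneg hp.le, inv_mul_le_iff₀ hp]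
    linarith
  have h0' : ∀ x, x ∉ tsupport χ → χ x = 0 := fun x hx => image_eq_zero_of_notMem_tsupport hx
  have iA : Integrable fun x => χ x • pd (sg δ (M.u m)) i x := by
    refine IBP_int (hχc.stronglyMeasurable.smul (pd_meas _ i)) hχ2
      (fun x hx => by rw [h0' x hx, zero_smul]) (C := Kχ * Kσ) fun x hx => ?_
    rw [norm_smul]
    exact mul_le_mul (hKχ x) (pd_bdd hKσ i x) (norm_nonneg _) hK0
  have hAm : StronglyMeasurable fun x => (S.A x i) (sg δ (M.u m) x) :=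
    isBoundedBilinearMap_apply.continuous.comp_stronglyMeasurable
      ((S.A_meas i).prodMk hσc.stronglyMeasurable)
  have iB : Integrable fun x => χ x • S.A x i (sg δ (M.u m) x) := by
    refine IBP_int (hχc.stronglyMeasurable.smul hAm) hχ2
      (fun x hx => by rw [h0' x hx, zero_smul]) (C := Kχ * (|S.CA| * 1)) fun x hx => ?_
    rw [norm_smul]
    refine mul_le_mul (hKχ x) ?_ (norm_nonneg _) hK0
    refine ((S.A x i).le_opNorm _).trans ?_
    exact mul_le_mul ((S.A_bdd x i).trans (le_abs_self _)) (hσ1 x) (norm_nonneg _) (abs_nonneg _)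
  have e1 : (∫ x, pd χ i x • sg δ (M.u m) x) - ∫ x, χ x • S.A x i (sg δ (M.u m) x) =
      - ∫ x, χ x • S.cd (sg δ (M.u m)) i x := by
    rw [ibp (lip_sg (M.u_lip m) hδ) hχlip hχ2 i]
    have e2 : ∫ x, χ x • S.cd (sg δ (M.u m)) i x =
        (∫ x, χ x • pd (sg δ (M.u m)) i x) + ∫ x, χ x • S.A x i (sg δ (M.u m) x) := by
      rw [← integral_add iA iB]
      refine integral_congr_ae (Eventually.of_forall fun x => ?_)
      show χ x • S.cd (sg δ (M.u m)) i x = _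
      unfold Setup.cd
      rw [smul_add]
    rw [e2]
    abel
  rw [e1, norm_neg]
  have iM2 := (integrable_indicator_iff measurableSet_ball).2 iM
  have iX : Integrable fun x => (Kf * δ / c0 ^ 2) * |χ x| := iχ.const_mul _
  have hsph : ∀ᵐ x : En n, x ∉ sphere (0 : En n) 1 :=
    measure_eq_zero_iff_ae_notMem.1 (Measure.addHaar_sphere_of_ne_zero _ _ one_ne_zero)
  have hae : ∀ᵐ x, ‖χ x • S.cd (sg δ (M.u m)) i x‖ ≤
      (ball (0 : En n) 1).indicator (fun x => Kχ * Real.sqrt S.lam⁻¹ / (2 * δ) *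
        (df S (M.u m) x / Real.sqrt (ep m) + Real.sqrt (ep m)) +
      η / 2 * (χ x ^ 2 * ∑ i, (pd (fun y => ‖M.u m y‖) i x / (‖M.u m x‖ + δ)) ^ 2) +
      (2 * η)⁻¹ * (δ / (‖M.u m x‖ + δ)) ^ 2) x + (Kf * δ / c0 ^ 2) * |χ x| := by
    filter_upwards [kato S (M.u_lip m), hKf.ae_differentiableAt, hsph] with x hx hd hs
    rw [norm_smul, Real.norm_eq_abs]
    by_cases hxb : x ∈ ball (0 : En n) 1
    · rw [indicator_of_mem hxb]
      have hT : (pd (fun y => ‖M.u m y‖) i x / (‖M.u m x‖ + δ)) ^ 2 ≤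
          ∑ i, (pd (fun y => ‖M.u m y‖) i x / (‖M.u m x‖ + δ)) ^ 2 :=
        Finset.single_le_sum (f := fun i => (pd (fun y => ‖M.u m y‖) i x /
          (‖M.u m x‖ + δ)) ^ 2) (fun j _ => sq_nonneg _) (Finset.mem_univ i)
      have h7 := WP1_in (hKχ x) hx.1 hlam hδ hη hep (hw0 x) hT (hx.2 δ hδ i)
      have h8 : 0 ≤ (Kf * δ / c0 ^ 2) * |χ x| := by positivity
      linarith
    · rw [indicator_of_notMem hxb, zero_add]
      by_cases hχx : χ x = 0
      · rw [hχx, abs_zero, zero_mul, mul_zero]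
      · have hxc : x ∉ closedBall (0 : En n) 1 := by
          intro hc
          rw [mem_closedBall_zero_iff] at hc
          rw [mem_ball_zero_iff, not_lt] at hxb
          exact hs (mem_sphere_zero_iff_norm.2 (le_antisymm hc hxb))
        have h7 := WP1_out M hKf hc0 hadm i m hxc (hχ3 (subset_tsupport _ hχx)) hd hδ
        rw [mul_comm]
        exact mul_le_mul_of_nonneg_right h7 (abs_nonneg _)
  refine (norm_integral_le_of_norm_le (iM2.add iX) hae).trans ?_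
  rw [integral_add' iM2 iX, integral_indicator measurableSet_ball, integral_const_mul]
  generalize hJ : (∫ x in ball (0 : En n) 1, (δ / (‖M.u m x‖ + δ)) ^ 2) = J at hM ⊢
  have hJ0 : 0 ≤ J := by
    rw [← hJ]
    exact integral_nonneg fun x => sq_nonneg _
  refine (add_le_add hM le_rfl).trans ?_
  generalize (∫ x, |χ x|) = I at hIχ ⊢
  generalize (volume (ball (0 : En n) 1)).toReal = V at hV ⊢
  have hsq : 0 ≤ Real.sqrt S.lam⁻¹ := Real.sqrt_nonneg _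
  generalize Real.sqrt S.lam⁻¹ = L at hsq ⊢
  have hse : 0 ≤ Real.sqrt (ep m) := Real.sqrt_nonneg _
  generalize Real.sqrt (ep m) = e at hse ⊢
  have t1 : Kχ * L / (2 * δ) * (e * (1 + V)) = Kχ * L / 2 * (1 + V) * (e / δ) := by
    field_simp
  have t2 : η / 2 * Cl = Cl / 2 * η := by ring
  have t3 : (2 * η)⁻¹ * J = 1 / 2 * (η⁻¹ * J) := by
    field_simp
  have t4 : (Kf : ℝ) * δ / c0 ^ 2 * I = Kf / c0 ^ 2 * I * δ := by ring
  rw [t1, t2, t3, t4]
  have hKf0 : (0 : ℝ) ≤ Kf := Kf.2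
  have a1 : 0 ≤ Kχ * L / 2 * (1 + V) := by positivity
  have a2 : 0 ≤ Cl / 2 := by positivity
  have a3 : 0 ≤ (Kf : ℝ) / c0 ^ 2 * I := by positivity
  have b1 : 0 ≤ e / δ := by positivity
  have b2 : 0 ≤ η⁻¹ * J := by positivity
  generalize Kχ * L / 2 * (1 + V) = A1 at a1 ⊢
  generalize Cl / 2 = A2 at a2 ⊢
  generalize (Kf : ℝ) / c0 ^ 2 * I = A3 at a3 ⊢
  generalize e / δ = B1 at b1 ⊢
  generalize η⁻¹ * J = B2 at b2 ⊢
  nlinarith [mul_nonneg a1 hη.le, mul_nonneg a1 hδ.le, mul_nonneg a1 b2, mul_nonneg a2 b1,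
    mul_nonneg a2 hδ.le, mul_nonneg a2 b2, mul_nonneg a3 b1, mul_nonneg a3 hη.le,
    mul_nonneg a3 b2, b1, hη.le, hδ.le, b2]

end P088
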