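import Vale.Agent.P088.Conv
import Vale.Agent.P088.Log
import Vale.Agent.P088.WP1

/-! Modules WP1, WP2: the limit section is weakly parallel.
WP1: `∫ ∂ᵢχ σ - ∫ χ A σ = - ∫ χ (d_A σ)ᵢ` (`ibp`), `σ = sg δ (u_m)`.  On the ball by `kato`
`‖(d_Aσ)ᵢ‖ ≤ √(df/lam)/δ + |∂ᵢw| δ/(w+δ)²`; `∫_B √df ≤ (vol B)^(1/2) (∫ df)^(1/2)`, `∫ df ≤ ep m` (`ms_norm`);
`|χ| |∂ᵢw| δ/(w+δ)² ≤ (η/2) χ² (∂ᵢw)²/(w+δ)² + (1/(2η)) (δ/(w+δ))²` and `log_est` (`ε = ep m ≤ δ⁴`).
Outside the closed ball `A = 0`, `u_m = f v`, `f ≥ c0` on the support of `χ`: `‖(dσ)ᵢ‖ ≤ δ |∂ᵢf|/(f+δ)² ≤ C δ`.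
WP2: `m → ∞` (dominated convergence, `‖σ‖ ≤ 1`), then `δ → 0`, then `η → 0`; `ū ≠ 0` a.e. on the ball and
`ū = f v ≠ 0` on `ball p ρ` outside the ball. -/

open MeasureTheory Metric Set Filter Topology
open scoped ContDiff InnerProductSpace

namespace P088

variable {n : ℕ} {W : Type*} [NormedAddCommGroup W] [InnerProductSpace ℝ W] [FiniteDimensional ℝ W]

private lemma WP2_sg_norm {δ : ℝ} (hδ : 0 < δ) (y : W) : ‖(‖y‖ + δ)⁻¹ • y‖ ≤ 1 := by
  have h : 0 < ‖y‖ + δ := by positivity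
  rw [norm_smul, norm_inv, Real.norm_of_nonneg h.le, inv_mul_le_iff₀ h]
  linarith

private lemma WP2_pd_cont {χ : En n → ℝ} (hχ : ContDiff ℝ ∞ χ) (i : Fin n) :
    Continuous (pd χ i) :=
  (hχ.continuous_fderiv (by simp)).clm_apply continuous_const

private lemma WP2_pd_int {χ : En n → ℝ} (hχ : ContDiff ℝ ∞ χ) (hc : HasCompactSupport χ)
    (i : Fin n) : Integrable (pd χ i) :=
  (WP2_pd_cont hχ i).integrable_of_hasCompactSupport (hc.fderiv_apply (𝕜 := ℝ) _)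

private lemma WP2_L (S : Setup n W) {χ : En n → ℝ} (hχ : ContDiff ℝ ∞ χ)
    (hc : HasCompactSupport χ) (i : Fin n) {σ : ℕ → En n → W} {σ' : En n → W}
    (hm : ∀ k, AEStronglyMeasurable (σ k) volume) (hb : ∀ k x, ‖σ k x‖ ≤ 1)
    (hlim : ∀ᵐ x, Tendsto (fun k => σ k x) atTop (𝓝 (σ' x))) :
    Tendsto (fun k => (∫ x, pd χ i x • σ k x) - ∫ x, χ x • S.A x i (σ k x)) atTop
      (𝓝 ((∫ x, pd χ i x • σ' x) - ∫ x, χ x • S.A x i (σ' x))) := by
  refine Tendsto.sub ?_ ?_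
  · refine tendsto_integral_of_dominated_convergence (fun x => ‖pd χ i x‖) (fun k => ?_)
      (WP2_pd_int hχ hc i).norm (fun k => Filter.Eventually.of_forall fun x => ?_) ?_
    · exact (WP2_pd_cont hχ i).aestronglyMeasurable.smul (hm k)
    · rw [norm_smul]
      exact mul_le_of_le_one_right (norm_nonneg _) (hb k x)
    · filter_upwards [hlim] with x hx
      exact hx.const_smul _
  · refine tendsto_integral_of_dominated_convergence (fun x => ‖χ x‖ * S.CA) (fun k => ?_)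
      ((hχ.continuous.integrable_of_hasCompactSupport hc).norm.mul_const _)
      (fun k => Filter.Eventually.of_forall fun x => ?_) ?_
    · refine hχ.continuous.aestronglyMeasurable.smul ?_
      exact (ContinuousLinearMap.id ℝ (W →L[ℝ] W)).aestronglyMeasurable_comp₂
        (S.A_meas i).aestronglyMeasurable (hm k)
    · rw [norm_smul]
      refine mul_le_mul_of_nonneg_left ?_ (norm_nonneg _)
      refine (ContinuousLinearMap.le_opNorm _ _).trans ?_
      calc ‖S.A x i‖ * ‖σ k x‖ ≤ ‖S.A x i‖ * 1 :=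
            mul_le_mul_of_nonneg_left (hb k x) (norm_nonneg _)
        _ ≤ S.CA := by rw [mul_one]; exact S.A_bdd x i
    · filter_upwards [hlim] with x hx
      exact (((S.A x i).continuous.tendsto _).comp hx).const_smul _

private lemma WP2_frac {δ : ℝ} (hδ : 0 < δ) (y : W) :
    0 ≤ (δ / (‖y‖ + δ)) ^ 2 ∧ (δ / (‖y‖ + δ)) ^ 2 ≤ 1 := by
  have h : 0 < ‖y‖ + δ := by positivity
  have h0 : 0 ≤ δ / (‖y‖ + δ) := by positivity
  have h1 : δ / (‖y‖ + δ) ≤ 1 := by
    rw [div_le_one h]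
    linarith [norm_nonneg y]
  exact ⟨sq_nonneg _, pow_le_one₀ h0 h1⟩

private lemma WP2_Q {w : ℕ → En n → W} {d : ℕ → ℝ} {h' : En n → ℝ} (hd : ∀ k, 0 < d k)
    (hm : ∀ k, AEStronglyMeasurable (w k) volume)
    (hlim : ∀ᵐ x, x ∈ ball (0 : En n) 1 →
      Tendsto (fun k => (d k / (‖w k x‖ + d k)) ^ 2) atTop (𝓝 (h' x))) :
    Tendsto (fun k => ∫ x in ball (0 : En n) 1, (d k / (‖w k x‖ + d k)) ^ 2) atTop
      (𝓝 (∫ x in ball (0 : En n) 1, h' x)) := by
  refine tendsto_integral_of_dominated_convergence (fun _ => (1 : ℝ)) (fun k => ?_) ?_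
    (fun k => Filter.Eventually.of_forall fun x => ?_) ?_
  · have h1 : AEStronglyMeasurable (w k) (volume.restrict (ball (0 : En n) 1)) :=
      (hm k).mono_measure Measure.restrict_le_self
    have hc : Continuous fun y : W => (d k / (‖y‖ + d k)) ^ 2 := by
      exact (continuous_const.div (continuous_norm.add continuous_const) fun y =>
        (add_pos_of_nonneg_of_pos (norm_nonneg y) (hd k)).ne').pow 2
    exact hc.comp_aestronglyMeasurable h1
  · exact integrableOn_const (by exact measure_ball_lt_top.ne)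
  · rw [Real.norm_of_nonneg (WP2_frac (hd k) _).1]
    exact (WP2_frac (hd k) _).2
  · rw [ae_restrict_iff' measurableSet_ball]
    exact hlim

private lemma WP2_ep : Tendsto (fun m => ep m) atTop (𝓝 0) := by
  unfold ep
  have h : ∀ m : ℕ, (1 / 2 : ℝ) ^ (10 * m) = ((1 / 2 : ℝ) ^ 10) ^ m := fun m => pow_mul _ _ _
  simp only [h]
  exact tendsto_pow_atTop_nhds_zero_of_lt_one (by norm_num) (by norm_num)

theorem weak_par {S : Setup n W} (M : MinSeq S) {ub : En n → W}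
    (hub : ∀ᵐ x, Tendsto (fun m => M.u m x) atTop (𝓝 (ub x)))
    (hpos : ∀ᵐ x, x ∈ ball (0 : En n) 1 → ub x ≠ 0) {p : En n} {ρ : ℝ} (hadm : Adm M.f p ρ) :
    WeakD p ρ (fun x => ‖ub x‖⁻¹ • ub x) (fun i x => S.A x i (‖ub x‖⁻¹ • ub x)) := by
  intro i χ hχ
  obtain ⟨C, hC, hbd⟩ := wp_bound M hadm hχ i
  have hum : ∀ m, AEStronglyMeasurable (M.u m) volume := fun m => by
    obtain ⟨K, hK⟩ := M.u_lip m
    exact hK.continuous.aestronglyMeasurable
  have hubm : AEStronglyMeasurable ub volume := aestronglyMeasurable_of_tendsto_ae atTop hum hub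
  have hsgc : ∀ δ : ℝ, 0 < δ → Continuous fun y : W => (‖y‖ + δ)⁻¹ • y := fun δ hδ =>
    ((continuous_norm.add continuous_const).inv₀ fun y =>
      (add_pos_of_nonneg_of_pos (norm_nonneg y) hδ).ne').smul continuous_id
  have hsgm : ∀ δ : ℝ, 0 < δ → ∀ u : En n → W, AEStronglyMeasurable u volume →
      AEStronglyMeasurable (sg δ u) volume := fun δ hδ u hu =>
    (hsgc δ hδ).comp_aestronglyMeasurable hu
  -- step A
  have hA : ∀ δ η : ℝ, 0 < δ → δ ≤ 1 → 0 < η → η ≤ 1 →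
      ‖(∫ x, pd χ i x • sg δ ub x) - ∫ x, χ x • S.A x i (sg δ ub x)‖ ≤
        C * (0 / δ + η + δ +
          η⁻¹ * ∫ x in ball (0 : En n) 1, (δ / (‖ub x‖ + δ)) ^ 2) := by
    intro δ η hδ hδ1 hη hη1
    have hl := WP2_L S hχ.1 hχ.2.1 i (σ := fun m => sg δ (M.u m)) (σ' := sg δ ub)
      (fun m => hsgm δ hδ _ (hum m)) (fun m x => WP2_sg_norm hδ _) (by
        filter_upwards [hub] with x hx
        exact ((hsgc δ hδ).tendsto _).comp hx)
    have hq := WP2_Q (w := M.u) (d := fun _ => δ) (h' := fun x => (δ / (‖ub x‖ + δ)) ^ 2)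
      (fun _ => hδ) hum (by
        filter_upwards [hub] with x hx _
        have hc : Continuous fun y : W => (δ / (‖y‖ + δ)) ^ 2 :=
          (continuous_const.div (continuous_norm.add continuous_const)
            fun y => (add_pos_of_nonneg_of_pos (norm_nonneg y) hδ).ne').pow 2
        exact (hc.tendsto _).comp hx)
    have hr : Tendsto (fun m => C * (Real.sqrt (ep m) / δ + η + δ +
        η⁻¹ * ∫ x in ball (0 : En n) 1, (δ / (‖M.u m x‖ + δ)) ^ 2)) atTop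
        (𝓝 (C * (0 / δ + η + δ +
          η⁻¹ * ∫ x in ball (0 : En n) 1, (δ / (‖ub x‖ + δ)) ^ 2))) := by
      have hs : Tendsto (fun m => Real.sqrt (ep m)) atTop (𝓝 0) := by
        have := (Real.continuous_sqrt.tendsto 0).comp WP2_ep
        rw [Real.sqrt_zero] at this
        exact this
      exact ((((hs.div_const δ).add_const η).add_const δ).add (hq.const_mul η⁻¹)).const_mul C
    have hev : ∀ᶠ m in atTop, ep m ≤ δ ^ 4 :=
      (WP2_ep.eventually_lt_const (by positivity : (0 : ℝ) < δ ^ 4)).mono fun m h => h.le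
    exact le_of_tendsto_of_tendsto hl.norm hr (hev.mono fun m hm => hbd δ η hδ hδ1 hη hη1 m hm)
  -- step B
  have hdk : Tendsto (fun k : ℕ => 1 / ((k : ℝ) + 1)) atTop (𝓝 0) :=
    tendsto_one_div_add_atTop_nhds_zero_nat
  have hdk0 : ∀ k : ℕ, 0 < 1 / ((k : ℝ) + 1) := fun k => by positivity
  have hdk1 : ∀ k : ℕ, 1 / ((k : ℝ) + 1) ≤ 1 := fun k => by
    rw [div_le_one (by positivity)]
    have : (0 : ℝ) ≤ k := Nat.cast_nonneg k
    linarith
  have hL := WP2_L S hχ.1 hχ.2.1 i (σ := fun k : ℕ => sg (1 / ((k : ℝ) + 1)) ub)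
    (σ' := fun x => ‖ub x‖⁻¹ • ub x)
    (fun k => hsgm _ (hdk0 k) _ hubm) (fun k x => WP2_sg_norm (hdk0 k) _) (by
      refine Filter.Eventually.of_forall fun x => ?_
      by_cases hx : ub x = 0
      · have h1 : ∀ k : ℕ, sg (1 / ((k : ℝ) + 1)) ub x = 0 := fun k => by
          unfold sg
          rw [hx, smul_zero]
        simp only [h1, hx, smul_zero]
        exact tendsto_const_nhds
      · have h1 : Tendsto (fun k : ℕ => ‖ub x‖ + 1 / ((k : ℝ) + 1)) atTop (𝓝 (‖ub x‖ + 0)) :=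
          hdk.const_add _
        rw [add_zero] at h1
        exact (h1.inv₀ (norm_ne_zero_iff.2 hx)).smul_const _)
  have hQ := WP2_Q (w := fun _ => ub) (d := fun k : ℕ => 1 / ((k : ℝ) + 1)) (h' := fun _ => 0)
    hdk0 (fun _ => hubm) (by
      filter_upwards [hpos] with x hx hxB
      have hx' := norm_pos_iff.2 (hx hxB)
      have h1 : Tendsto (fun k : ℕ => ‖ub x‖ + 1 / ((k : ℝ) + 1)) atTop (𝓝 (‖ub x‖ + 0)) :=
        hdk.const_add _
      rw [add_zero] at h1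
      have h2 := (hdk.div h1 hx'.ne').pow 2
      rw [zero_div, zero_pow (by norm_num)] at h2
      exact h2)
  rw [integral_zero] at hQ
  have hB : ∀ η : ℝ, 0 < η → η ≤ 1 →
      ‖(∫ x, pd χ i x • (‖ub x‖⁻¹ • ub x)) - ∫ x, χ x • S.A x i (‖ub x‖⁻¹ • ub x)‖ ≤ C * η := by
    intro η hη hη1
    have hr : Tendsto (fun k : ℕ => C * (0 / (1 / ((k : ℝ) + 1)) + η + 1 / ((k : ℝ) + 1) +
        η⁻¹ * ∫ x in ball (0 : En n) 1,
          (1 / ((k : ℝ) + 1) / (‖ub x‖ + 1 / ((k : ℝ) + 1))) ^ 2)) atTop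
        (𝓝 (C * (0 + η + 0 + η⁻¹ * 0))) := by
      simp only [zero_div]
      exact (((hdk.const_add (0 + η))).add (hQ.const_mul η⁻¹)).const_mul C
    have h1 := le_of_tendsto_of_tendsto' hL.norm hr
      (fun k => hA _ η (hdk0 k) (hdk1 k) hη hη1)
    refine h1.trans (le_of_eq ?_)
    ring
  -- step C
  have hC0 : ‖(∫ x, pd χ i x • (‖ub x‖⁻¹ • ub x))
      - ∫ x, χ x • S.A x i (‖ub x‖⁻¹ • ub x)‖ ≤ C * 0 :=
    ge_of_tendsto' (hdk.const_mul C) fun k => hB _ (hdk0 k) (hdk1 k)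
  rw [mul_zero] at hC0
  exact sub_eq_zero.1 (norm_le_zero_iff.1 hC0)

end P088
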