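import Vale.Agent.P088.Pos
import Vale.Agent.P088.WPar
import Vale.Agent.P088.RegC1

/-! Module CORE (M).  `conv`, `pos_all`, `weak_par` on `ball 0 1` (admissible), `reg_lip`, then `reg_c1` with
`F i = S.A · i (t ·)` (continuous on the ball).  `‖t‖ = 1` a.e., hence everywhere, on the ball.
Boundary: `f p > 0` gives an admissible `ball p ρ`; `weak_par`, `reg_lip` there: `t'` Lipschitz, `t' = v` a.e. outside
the closed unit ball in `ball p ρ`, so `t' p = v`; and `t' = t` a.e., hence everywhere, on `ball p ρ ∩ ball 0 1`. -/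

open MeasureTheory Metric Set Filter Topology
open scoped ContDiff InnerProductSpace

namespace P088

variable {n : ℕ} {W : Type*} [NormedAddCommGroup W] [InnerProductSpace ℝ W] [FiniteDimensional ℝ W]

/-- parallel sections -/
def IsPar (S : Setup n W) (s : En n → W) : Prop :=
  ∀ x ∈ ball (0 : En n) 1, DifferentiableAt ℝ s x ∧ ∀ i, pd s i x = - S.A x i (s x)

theorem corea_pd_zero {p : En n} {ρ : ℝ} {χ : En n → ℝ} (hχ : IsTest p ρ χ) (i : Fin n) {x : En n}
    (hx : x ∉ ball p ρ) : pd χ i x = 0 := by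
  have h1 : x ∉ tsupport χ := fun h => hx (hχ.2.2 h)
  unfold pd
  have h2 : χ =ᶠ[𝓝 x] fun _ => (0 : ℝ) := notMem_tsupport_iff_eventuallyEq.mp h1
  rw [h2.fderiv_eq]
  simp

theorem corea_zero {p : En n} {ρ : ℝ} {χ : En n → ℝ} (hχ : IsTest p ρ χ) {x : En n}
    (hx : x ∉ ball p ρ) : χ x = 0 := by
  by_contra h
  exact hx (hχ.2.2 (subset_tsupport χ h))

/-- weak derivatives only depend on the function up to null sets -/
theorem corea_weak {S : Setup n W} {p : En n} {ρ : ℝ} {s t : En n → W}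
    (hw : WeakD p ρ s (fun i x => S.A x i (s x)))
    (hts : ∀ᵐ x, x ∈ ball p ρ → t x = s x) :
    WeakD p ρ t (fun i x => S.A x i (t x)) := by
  intro i χ hχ
  have h := hw i χ hχ
  have e1 : ∫ x, pd χ i x • t x = ∫ x, pd χ i x • s x := by
    refine integral_congr_ae ?_
    filter_upwards [hts] with x hx
    by_cases hxb : x ∈ ball p ρ
    · rw [hx hxb]
    · rw [corea_pd_zero hχ i hxb, zero_smul, zero_smul]
  have e2 : ∫ x, χ x • S.A x i (t x) = ∫ x, χ x • S.A x i (s x) := by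
    refine integral_congr_ae ?_
    filter_upwards [hts] with x hx
    by_cases hxb : x ∈ ball p ρ
    · rw [hx hxb]
    · rw [corea_zero hχ hxb, zero_smul, zero_smul]
  rw [e1, e2]
  exact h

theorem corea_meas {S : Setup n W} (M : MinSeq S) {ub : En n → W}
    (hub : ∀ᵐ x, Tendsto (fun m => M.u m x) atTop (𝓝 (ub x))) :
    AEStronglyMeasurable (fun x => ‖ub x‖⁻¹ • ub x) volume := by
  have h1 : AEStronglyMeasurable ub volume := by
    refine aestronglyMeasurable_of_tendsto_ae atTop (fun m => ?_) hub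
    obtain ⟨K, hK⟩ := M.u_lip m
    exact hK.continuous.aestronglyMeasurable
  exact (h1.norm.aemeasurable.inv.aestronglyMeasurable).smul h1

theorem corea_measF {S : Setup n W} (i : Fin n) {s : En n → W}
    (hs : AEStronglyMeasurable s volume) :
    AEStronglyMeasurable (fun x => S.A x i (s x)) volume := by
  have h1 : AEStronglyMeasurable (fun x => (S.A x i, s x)) volume :=
    (S.A_meas i).aestronglyMeasurable.prodMk hs
  have h2 : Continuous fun q : (W →L[ℝ] W) × W => q.1 q.2 :=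
    isBoundedBilinearMap_apply.continuous
  exact h2.comp_aestronglyMeasurable h1

theorem corea_norm_le (y : W) : ‖‖y‖⁻¹ • y‖ ≤ 1 := by
  rw [norm_smul, norm_inv, norm_norm]
  exact inv_mul_le_one

theorem corea_norm_eq {y : W} (hy : y ≠ 0) : ‖‖y‖⁻¹ • y‖ = 1 := by
  rw [norm_smul, norm_inv, norm_norm]
  exact inv_mul_cancel₀ (norm_ne_zero_iff.mpr hy)

/-- Lipschitz representative on an admissible ball -/
theorem corea_rep {S : Setup n W} (M : MinSeq S) {ub : En n → W}
    (hub : ∀ᵐ x, Tendsto (fun m => M.u m x) atTop (𝓝 (ub x)))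
    (hpos : ∀ᵐ x, x ∈ ball (0 : En n) 1 → ub x ≠ 0) {p : En n} {ρ : ℝ} (hρ : 0 < ρ)
    (hadm : Adm M.f p ρ) :
    ∃ t : En n → W, Continuous t ∧ WeakD p ρ t (fun i x => S.A x i (t x)) ∧
      ∀ᵐ x, x ∈ ball p ρ → t x = ‖ub x‖⁻¹ • ub x := by
  have hw := weak_par M hub hpos hadm
  have hs := corea_meas M hub
  obtain ⟨t, ht, hts⟩ := reg_lip (C := Real.toNNReal S.CA) hs (fun x => corea_norm_le (ub x))
    (fun i => corea_measF (S := S) i hs) (fun i x => by
      refine ((S.A x i).le_opNorm _).trans ?_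
      have h1 := S.A_bdd x i
      have h2 := corea_norm_le (ub x)
      have h3 : 0 ≤ S.CA := (norm_nonneg _).trans h1
      calc ‖S.A x i‖ * ‖‖ub x‖⁻¹ • ub x‖ ≤ S.CA * 1 :=
            mul_le_mul h1 h2 (norm_nonneg _) h3
        _ = S.CA := mul_one _
        _ ≤ _ := Real.le_coe_toNNReal _) hρ hw
  exact ⟨t, ht.continuous, corea_weak hw hts, hts⟩

/-- COREA: the section in the ball -/
theorem core_ball {S : Setup n W} (M : MinSeq S) {ub : En n → W}
    (hub : ∀ᵐ x, Tendsto (fun m => M.u m x) atTop (𝓝 (ub x)))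
    (hpos : ∀ᵐ x, x ∈ ball (0 : En n) 1 → ub x ≠ 0) :
    ∃ s : En n → W, Continuous s ∧ IsPar S s ∧ (∀ x ∈ ball (0 : En n) 1, ‖s x‖ = 1) ∧
      ∀ᵐ x, x ∈ ball (0 : En n) 1 → s x = ‖ub x‖⁻¹ • ub x := by
  have hadm : Adm M.f 0 1 := ⟨1, one_pos, fun x hx hx' => absurd hx hx'⟩
  obtain ⟨t, ht, hw, hts⟩ := corea_rep M hub hpos one_pos hadm
  refine ⟨t, ht, ?_, ?_, hts⟩
  · exact reg_c1 ht (fun i => (S.A_cont i).clm_apply ht.continuousOn) hw
  · have hopen : IsOpen (ball (0 : En n) 1 ∩ {x | ‖t x‖ ≠ 1}) :=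
      isOpen_ball.inter (isOpen_ne_fun ht.norm continuous_const)
    have hnull : volume (ball (0 : En n) 1 ∩ {x | ‖t x‖ ≠ 1}) = 0 := by
      rw [← nonpos_iff_eq_zero]
      have h0 : ∀ᵐ x, x ∈ ball (0 : En n) 1 → ‖t x‖ = 1 := by
        filter_upwards [hts, hpos] with x h1 h2 hx
        rw [h1 hx]
        exact corea_norm_eq (h2 hx)
      rw [ae_iff] at h0
      refine (measure_mono fun x hx => ?_).trans h0.le
      simp only [mem_setOf_eq, Classical.not_imp]
      exact ⟨hx.1, hx.2⟩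
    have hempty := hopen.measure_eq_zero_iff volume |>.mp hnull
    intro x hx
    by_contra hne
    have : x ∈ (∅ : Set (En n)) := hempty ▸ (⟨hx, hne⟩ : x ∈ ball (0 : En n) 1 ∩ {x | ‖t x‖ ≠ 1})
    exact this

/-- COREB: the boundary values -/
theorem core_bdry {S : Setup n W} (M : MinSeq S) {ub : En n → W}
    (hub : ∀ᵐ x, Tendsto (fun m => M.u m x) atTop (𝓝 (ub x)))
    (hout : ∀ᵐ x, x ∉ ball (0 : En n) 1 → ub x = M.f x • M.v)
    (hpos : ∀ᵐ x, x ∈ ball (0 : En n) 1 → ub x ≠ 0) {s : En n → W} (hs : Continuous s)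
    (hsu : ∀ᵐ x, x ∈ ball (0 : En n) 1 → s x = ‖ub x‖⁻¹ • ub x) {p : En n}
    (hp : p ∈ sphere (0 : En n) 1) (hfp : 0 < M.f p) :
    Tendsto s (𝓝[ball (0 : En n) 1] p) (𝓝 M.v) := by
  obtain ⟨Kf, hKf⟩ := M.f_lip
  have hfc : Continuous M.f := hKf.continuous
  -- an admissible ball
  obtain ⟨ρ, hρ, hball⟩ : ∃ ρ > 0, ∀ x ∈ ball p ρ, M.f p / 2 < M.f x := by
    have h1 : ∀ᶠ x in 𝓝 p, M.f p / 2 < M.f x :=
      hfc.continuousAt.eventually (lt_mem_nhds (by linarith))
    obtain ⟨ρ, hρ, h2⟩ := Metric.eventually_nhds_iff_ball.1 h1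
    exact ⟨ρ, hρ, h2⟩
  have hadm : Adm M.f p ρ := ⟨M.f p / 2, by linarith, fun x hx _ => (hball x hx).le⟩
  -- the normalized limit
  set t₀ : En n → W := fun x => ‖ub x‖⁻¹ • ub x with ht₀
  have hum : AEStronglyMeasurable ub volume := by
    refine aestronglyMeasurable_of_tendsto_ae atTop (f := fun m x => M.u m x) (fun m => ?_) hub
    obtain ⟨K, hK⟩ := M.u_lip m
    exact hK.continuous.aestronglyMeasurable
  have ht₀m : AEStronglyMeasurable t₀ volume :=
    (hum.norm.aemeasurable.inv.aestronglyMeasurable).smul hum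
  have ht₀n : ∀ x, ‖t₀ x‖ ≤ 1 := by
    intro x
    simp only [ht₀, norm_smul, norm_inv, norm_norm]
    exact inv_mul_le_one
  have hFm : ∀ i, AEStronglyMeasurable (fun x => S.A x i (t₀ x)) volume := by
    intro i
    exact (ContinuousLinearMap.apply ℝ W).aestronglyMeasurable_comp₂ ht₀m
      (S.A_meas i).aestronglyMeasurable
  have hFn : ∀ i x, ‖S.A x i (t₀ x)‖ ≤ (Real.toNNReal S.CA : ℝ) := by
    intro i x
    have h1 := (S.A x i).le_opNorm (t₀ x)
    have h2 := S.A_bdd x i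
    have h3 := ht₀n x
    have h4 : ‖S.A x i‖ * ‖t₀ x‖ ≤ ‖S.A x i‖ * 1 :=
      mul_le_mul_of_nonneg_left h3 (norm_nonneg _)
    exact h1.trans (h4.trans (by rw [mul_one]; exact h2.trans (Real.le_coe_toNNReal _)))
  have hw := weak_par M hub hpos hadm
  obtain ⟨t, ht, hts⟩ := reg_lip (s := t₀) (F := fun i x => S.A x i (t₀ x)) ht₀m ht₀n hFm
    (C := Real.toNNReal S.CA) hFn hρ hw
  have htc : Continuous t := ht.continuous
  -- comparison with `s` in the ball
  have h1 : EqOn t s (ball p ρ ∩ ball (0 : En n) 1) := by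
    refine Measure.eqOn_open_of_ae_eq (μ := volume) ?_ (isOpen_ball.inter isOpen_ball)
      htc.continuousOn hs.continuousOn
    rw [Filter.EventuallyEq, ae_restrict_iff' (measurableSet_ball.inter measurableSet_ball)]
    filter_upwards [hts, hsu] with x hx1 hx2 hx
    rw [hx1 hx.1, hx2 hx.2]
  -- comparison with `v` outside
  have h2 : EqOn t (fun _ => M.v) (ball p ρ ∩ (closedBall (0 : En n) 1)ᶜ) := by
    refine Measure.eqOn_open_of_ae_eq (μ := volume) ?_
      (isOpen_ball.inter isClosed_closedBall.isOpen_compl)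
      htc.continuousOn continuousOn_const
    rw [Filter.EventuallyEq,
      ae_restrict_iff' (measurableSet_ball.inter measurableSet_closedBall.compl)]
    filter_upwards [hts, hout] with x hx1 hx2 hx
    have hx3 : x ∉ ball (0 : En n) 1 := fun h => hx.2 (ball_subset_closedBall h)
    have hfx : 0 < M.f x := by linarith [hball x hx.1]
    rw [hx1 hx.1]
    simp only [ht₀]
    rw [hx2 hx3, norm_smul, M.v_norm, mul_one, Real.norm_eq_abs, abs_of_pos hfx, smul_smul,
      inv_mul_cancel₀ hfx.ne', one_smul]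
  have hpn : p ∉ ball (0 : En n) 1 := by
    intro h
    rw [mem_ball] at h
    rw [mem_sphere] at hp
    linarith
  have hc1 : p ∈ closure (ball p ρ ∩ ball (0 : En n) 1) := by
    refine isOpen_ball.inter_closure ⟨mem_ball_self hρ, ?_⟩
    rw [closure_ball _ one_ne_zero]
    exact sphere_subset_closedBall hp
  have hc2 : p ∈ closure (ball p ρ ∩ (closedBall (0 : En n) 1)ᶜ) := by
    refine isOpen_ball.inter_closure ⟨mem_ball_self hρ, ?_⟩
    rw [closure_compl, interior_closedBall _ one_ne_zero]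
    exact hpn
  have e1 : t p = s p := (h1.closure htc hs) hc1
  have e2 : t p = M.v := (h2.closure htc continuous_const) hc2
  have h3 : Tendsto s (𝓝 p) (𝓝 (s p)) := hs.continuousAt
  rw [← e1, e2] at h3
  exact h3.mono_left nhdsWithin_le_nhds

theorem core {S : Setup n W} (M : MinSeq S) (hq : ∃ q ∈ sphere (0 : En n) 1, 0 < M.f q) :
    ∃ s : En n → W, IsPar S s ∧ (∀ x ∈ ball (0 : En n) 1, ‖s x‖ = 1) ∧
      ∀ p ∈ sphere (0 : En n) 1, 0 < M.f p → Tendsto s (𝓝[ball (0 : En n) 1] p) (𝓝 M.v) := by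
  have hn : 0 < n := by
    obtain ⟨q, hq, -⟩ := hq
    rcases Nat.eq_zero_or_pos n with h | h
    · subst h
      rw [mem_sphere_zero_iff_norm, Subsingleton.elim q 0, norm_zero] at hq
      exact absurd hq zero_ne_one
    · exact h
  let i : Fin n := ⟨0, hn⟩
  obtain ⟨ub, -, hub, hout⟩ := conv M i
  have hpos := pos_all M hub hq
  obtain ⟨s, hs, hsp, hs1, hsu⟩ := core_ball M hub hpos
  exact ⟨s, hsp, hs1, fun p hp hfp => core_bdry M hub hout hpos hs hsu hp hfp⟩

end P088
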