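import Mathlib

/-!
# P088: diamagnetic rigidity, definitions (helper88)

THEOREM.  `B` the unit ball of `ℝⁿ`, `g` a smooth metric on the closed ball, `A` a smooth unitary
connection on `B × ℂᴺ`, `Γ` a relatively open nonempty subset of the sphere.  If
`⟨Λ_{g,A} f, f⟩ = ⟨Λ_{g,0} f, f⟩` for all `f ∈ C_c^∞(Γ; ℂᴺ)` then `A = U⁻¹ dU` with `U` smooth, unitary,
`U = 1` on `Γ`.

PROOF.  `Q_A(f) = ⟨Λ f, f⟩ = inf {E_A(u) : u Lipschitz, u = f on the sphere}` (Dirichlet principle).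
Take `f = f v`, `f ≥ 0` scalar, `v` a unit vector; `c` = scalar infimum.  `Q_A(f v) = Q_0(f v) ≤ c`, so there
are Lipschitz `u_m` with boundary values `f v` (extended by `f v` outside the ball) and
`E_A(u_m) ≤ c + ep m`.  Kato: with `w_m = |u_m|`: `|d_A u|² = |dw|² + |ζ|²`, `∫ |ζ_m|² ≤ ep m` and `w_m`
is nearly minimal for the scalar problem.  Friedrichs + parallelogram: `u_m → ū` a.e.  Moser: testing with
`χ² (1/(w+δ) - 1/(max f c0 + δ))` gives `∫ χ² |dw_m|²/(w_m+δ)² ≤ C`.  Hence `1_{ū = 0}` is weakly constant, so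
`ū ≠ 0` a.e.; and `s = ū/|ū|` satisfies `ds = - A s` weakly (also across `Γ` with `A := 0` outside the ball).
Mollification: `s` is `C¹` in the ball, parallel, and tends to `v` at the points of `Γ` where `f > 0`.
The parallel frames give `U`.
-/

open MeasureTheory Metric Set Filter Topology
open scoped ContDiff InnerProductSpace

namespace P088

/-- `ℝⁿ` -/
abbrev En (n : ℕ) := EuclideanSpace ℝ (Fin n)

/-- `ℂᴺ` -/
abbrev Wn (N : ℕ) := EuclideanSpace ℂ (Fin N)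

/-- the partial derivative `∂ᵢ u (x)` -/
noncomputable def pd {n : ℕ} {W : Type*} [NormedAddCommGroup W] [NormedSpace ℝ W] (u : En n → W)
    (i : Fin n) (x : En n) : W := fderiv ℝ u x (EuclideanSpace.single i (1 : ℝ))

/-- Lipschitz maps -/
def IsLip {n : ℕ} {W : Type*} [NormedAddCommGroup W] (u : En n → W) : Prop :=
  ∃ K : NNReal, LipschitzWith K u

/-- the energy `∫_B |d_A u|²_g dV_g` of `u`, where `d_A u = du + A u` -/
noncomputable def energy {n N : ℕ} (g : En n → Matrix (Fin n) (Fin n) ℝ)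
    (A : En n → Fin n → (Wn N →L[ℂ] Wn N)) (u : En n → Wn N) : ℝ :=
  ∫ x in ball (0 : En n) 1, Real.sqrt (g x).det * ∑ i, ∑ j, (g x)⁻¹ i j *
    (inner ℂ (pd u i x + A x i (u x)) (pd u j x + A x j (u x)) : ℂ).re

/-- the quadratic form `⟨Λ_{g,A} f, f⟩`, by the Dirichlet principle -/
noncomputable def Q {n N : ℕ} (g : En n → Matrix (Fin n) (Fin n) ℝ)
    (A : En n → Fin n → (Wn N →L[ℂ] Wn N)) (f : En n → Wn N) : ℝ :=
  sInf {e | ∃ u : En n → Wn N, IsLip u ∧ (∀ x ∈ sphere (0 : En n) 1, u x = f x) ∧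
    e = energy g A u}

/-- `f` restricts to an element of `C_c^∞(Γ; ℂᴺ)` -/
def BD {n N : ℕ} (Γ : Set (En n)) (f : En n → Wn N) : Prop :=
  ContDiff ℝ ∞ f ∧ closure {x | x ∈ sphere (0 : En n) 1 ∧ f x ≠ 0} ⊆ Γ

/-! ### internal -/

section

variable {n : ℕ} {W : Type*} [NormedAddCommGroup W] [InnerProductSpace ℝ W]

noncomputable def gq (G : Fin n → Fin n → ℝ) (η : Fin n → W) : ℝ :=
  ∑ i, ∑ j, G i j * ⟪η i, η j⟫_ℝ

noncomputable def gb (G : Fin n → Fin n → ℝ) (η ζ : Fin n → W) : ℝ :=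
  ∑ i, ∑ j, G i j * ⟪η i, ζ j⟫_ℝ

end

/-- measurable elliptic coefficients and a bounded skew connection, zero outside the ball -/
structure Setup (n : ℕ) (W : Type*) [NormedAddCommGroup W] [InnerProductSpace ℝ W] where
  G : En n → Fin n → Fin n → ℝ
  lam : ℝ
  Lam : ℝ
  A : En n → Fin n → (W →L[ℝ] W)
  CA : ℝ
  lam_pos : 0 < lam
  G_meas : ∀ i j, Measurable fun x => G x i j
  G_symm : ∀ x i j, G x i j = G x j i
  G_lo : ∀ x (ξ : Fin n → ℝ), lam * ∑ i, ξ i ^ 2 ≤ ∑ i, ∑ j, G x i j * (ξ i * ξ j)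
  G_up : ∀ x (ξ : Fin n → ℝ), ∑ i, ∑ j, G x i j * (ξ i * ξ j) ≤ Lam * ∑ i, ξ i ^ 2
  A_meas : ∀ i, StronglyMeasurable fun x => A x i
  A_bdd : ∀ x i, ‖A x i‖ ≤ CA
  A_skew : ∀ x i (y : W), ⟪y, A x i y⟫_ℝ = 0
  A_out : ∀ x, x ∉ ball (0 : En n) 1 → ∀ i, A x i = 0
  A_cont : ∀ i, ContinuousOn (fun x => A x i) (ball (0 : En n) 1)

namespace Setup

variable {n : ℕ} {W : Type*} [NormedAddCommGroup W] [InnerProductSpace ℝ W] (S : Setup n W)

/-- `(d_A u)_i` -/
noncomputable def cd (u : En n → W) (i : Fin n) (x : En n) : W := pd u i x + S.A x i (u x)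

/-- energy of a `W`-valued function -/
noncomputable def en (u : En n → W) : ℝ :=
  ∫ x in ball (0 : En n) 1, gq (S.G x) (fun i => S.cd u i x)

/-- energy of a real function -/
noncomputable def er (w : En n → ℝ) : ℝ :=
  ∫ x in ball (0 : En n) 1, gq (S.G x) (fun i => pd w i x)

/-- bilinear energy of real functions -/
noncomputable def eb (w ψ : En n → ℝ) : ℝ :=
  ∫ x in ball (0 : En n) 1, gb (S.G x) (fun i => pd w i x) (fun i => pd ψ i x)

/-- `c` is a lower bound of the scalar energies with boundary values `f` -/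
def LB (f : En n → ℝ) (c : ℝ) : Prop :=
  ∀ w : En n → ℝ, IsLip w → (∀ x ∈ sphere (0 : En n) 1, w x = f x) → c ≤ S.er w

end Setup

/-- errors -/
noncomputable def ep (m : ℕ) : ℝ := (1 / 2 : ℝ) ^ (10 * m)

/-- nearly minimizing sequence with boundary values `f v` -/
structure MinSeq {n : ℕ} {W : Type*} [NormedAddCommGroup W] [InnerProductSpace ℝ W]
    (S : Setup n W) where
  f : En n → ℝ
  v : W
  c : ℝ
  u : ℕ → En n → W
  f_lip : IsLip f
  f_supp : HasCompactSupport f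
  f_nonneg : ∀ x, 0 ≤ f x
  v_norm : ‖v‖ = 1
  c_le : S.LB f c
  u_lip : ∀ m, IsLip (u m)
  u_out : ∀ m x, x ∉ ball (0 : En n) 1 → u m x = f x • v
  u_en : ∀ m, S.en (u m) ≤ c + ep m

/-- the ball `ball p ρ` is admissible: `f ≥ c0 > 0` at its points outside the unit ball -/
def Adm {n : ℕ} (f : En n → ℝ) (p : En n) (ρ : ℝ) : Prop :=
  ∃ c0 > 0, ∀ x ∈ ball p ρ, x ∉ ball (0 : En n) 1 → c0 ≤ f x

/-- test functions on a ball -/
def IsTest {n : ℕ} (p : En n) (ρ : ℝ) (χ : En n → ℝ) : Prop :=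
  ContDiff ℝ ∞ χ ∧ HasCompactSupport χ ∧ tsupport χ ⊆ ball p ρ

/-- `∂ᵢ s = - F i` weakly on `ball p ρ` -/
def WeakD {n : ℕ} {W : Type*} [NormedAddCommGroup W] [NormedSpace ℝ W] (p : En n) (ρ : ℝ)
    (s : En n → W) (F : Fin n → En n → W) : Prop :=
  ∀ (i : Fin n) (χ : En n → ℝ), IsTest p ρ χ → ∫ x, pd χ i x • s x = ∫ x, χ x • F i x

end P088
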