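import Vale.Agent.P088.Par

/-! Modules FRAME, EXT.
FRAME (M): fix `p₀ ∈ Γ`; for the standard basis vectors `e_j` let `s_j` be parallel with limit `e_j` at `p₀` (by `par_unique`
it has the limit `e_j` at every `p ∈ Γ`).  `T x y = ∑ y_j s_j x`; `⟪s_j, s_k⟫_ℂ` is constant (`par_inner` for `s_j, s_k` and for
`s_j, I s_k`, `I s_k` is parallel), equal to its limit `δ_jk` at `p₀`; so `T x` is unitary.
EXT (M): `T` is Lipschitz on the ball (`‖∂ᵢT‖ ≤ ‖A‖`), extends continuously to the closed ball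
(`LipschitzOnWith.extend...` or `IsUniformInducing`), is differentiable within the closed ball
(`hasFDerivWithinAt_closure_of_tendsto_fderiv`), `fderivWithin = - A T`, so `ContDiffOn ℝ k` by induction on `k`
(`contDiffOn_succ_iff_fderivWithin` / `contDiffOn_succ_of_fderivWithin`, `uniqueDiffOn` of a convex set with interior). -/

open MeasureTheory Metric Set Filter Topology
open scoped ContDiff InnerProductSpace

namespace P088

variable {n N : ℕ}

/-- the map `z ↦ (y ↦ y_j z)` -/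
noncomputable def FRAME_L (N : ℕ) (j : Fin N) : Wn N →L[ℂ] (Wn N →L[ℂ] Wn N) :=
  ContinuousLinearMap.smulRightL ℂ (Wn N) (Wn N) (EuclideanSpace.proj j : Wn N →L[ℂ] ℂ)

theorem FRAME_L_apply (N : ℕ) (j : Fin N) (z y : Wn N) : FRAME_L N j z y = y j • z := rfl

theorem FRAME_sum (y : Wn N) : ∑ j, y j • (EuclideanSpace.single j (1 : ℂ) : Wn N) = y := by
  ext k
  simp [Pi.single_apply]

theorem exists_frame (S : Setup n (Wn N)) (A : En n → Fin n → (Wn N →L[ℂ] Wn N))
    (hSA : ∀ x ∈ ball (0 : En n) 1, ∀ i (y : Wn N), S.A x i y = A x i y) {Γ : Set (En n)}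
    (hΓ : Γ ⊆ sphere (0 : En n) 1) (hne : Γ.Nonempty)
    (h : ∀ p ∈ Γ, ∀ q ∈ Γ, ∀ v : Wn N, ‖v‖ = 1 → ∃ s : En n → Wn N,
      (∀ x ∈ ball (0 : En n) 1, DifferentiableAt ℝ s x ∧ ∀ i, pd s i x = - S.A x i (s x)) ∧
      Tendsto s (𝓝[ball (0 : En n) 1] p) (𝓝 v) ∧ Tendsto s (𝓝[ball (0 : En n) 1] q) (𝓝 v)) :
    ∃ T : En n → (Wn N →L[ℂ] Wn N), (∀ x ∈ ball (0 : En n) 1,
        T x ∈ unitary (Wn N →L[ℂ] Wn N) ∧ DifferentiableAt ℝ T x ∧
        ∀ i, pd T i x = - (A x i * T x)) ∧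
      ∀ p ∈ Γ, Tendsto T (𝓝[ball (0 : En n) 1] p) (𝓝 1) := by
  classical
  obtain ⟨p₀, hp₀⟩ := hne
  have hex : ∀ j : Fin N, ∃ s : En n → Wn N,
      (∀ x ∈ ball (0 : En n) 1, DifferentiableAt ℝ s x ∧ ∀ i, pd s i x = - S.A x i (s x)) ∧
      ∀ p ∈ Γ, Tendsto s (𝓝[ball (0 : En n) 1] p) (𝓝 (EuclideanSpace.single j (1 : ℂ))) := by
    intro j
    have hn : ‖(EuclideanSpace.single j (1 : ℂ) : Wn N)‖ = 1 := by simp
    obtain ⟨s, hs, hs1, -⟩ := h p₀ hp₀ p₀ hp₀ _ hn
    refine ⟨s, hs, fun p hp => ?_⟩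
    obtain ⟨t, ht, ht1, ht2⟩ := h p₀ hp₀ p hp _ hn
    have heq := par_unique S hs ht (hΓ hp₀) hs1 ht1
    refine ht2.congr' ?_
    filter_upwards [self_mem_nhdsWithin] with x hx
    exact (heq x hx).symm
  choose s hs hlim using hex
  have hT : ∀ x y, (∑ j, FRAME_L N j (s j x)) y = ∑ j, y j • s j x := by
    intro x y
    rw [ContinuousLinearMap.sum_apply]
    rfl
  have hTlim : ∀ p ∈ Γ, Tendsto (fun x => ∑ j, FRAME_L N j (s j x)) (𝓝[ball (0 : En n) 1] p)
      (𝓝 1) := by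
    intro p hp
    have h1 : Tendsto (fun x => ∑ j, FRAME_L N j (s j x)) (𝓝[ball (0 : En n) 1] p)
        (𝓝 (∑ j, FRAME_L N j (EuclideanSpace.single j (1 : ℂ)))) :=
      tendsto_finset_sum _ fun j _ => ((FRAME_L N j).continuous.tendsto _).comp (hlim j p hp)
    have h2 : (∑ j, FRAME_L N j (EuclideanSpace.single j (1 : ℂ))) = 1 := by
      apply ContinuousLinearMap.ext
      intro y
      rw [ContinuousLinearMap.sum_apply]
      simp only [FRAME_L_apply]
      exact FRAME_sum y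
    rwa [h2] at h1
  have hfd : ∀ x ∈ ball (0 : En n) 1, HasFDerivAt (fun x => ∑ j, FRAME_L N j (s j x))
      (∑ j, ((FRAME_L N j).restrictScalars ℝ).comp (fderiv ℝ (s j) x)) x := by
    intro x hx
    refine HasFDerivAt.fun_sum fun j _ => ?_
    exact ((FRAME_L N j).restrictScalars ℝ).hasFDerivAt.comp x ((hs j x hx).1.hasFDerivAt)
  have hpd : ∀ x ∈ ball (0 : En n) 1, ∀ i, pd (fun x => ∑ j, FRAME_L N j (s j x)) i x =
      - (A x i * ∑ j, FRAME_L N j (s j x)) := by
    intro x hx i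
    unfold pd
    rw [(hfd x hx).fderiv]
    apply ContinuousLinearMap.ext
    intro y
    have h3 : ∀ j, fderiv ℝ (s j) x (EuclideanSpace.single i (1 : ℝ)) = - A x i (s j x) := by
      intro j
      have := (hs j x hx).2 i
      rw [hSA x hx i] at this
      exact this
    have h3b : (-(A x i * ∑ j, FRAME_L N j (s j x))) y =
        -(A x i ((∑ j, FRAME_L N j (s j x)) y)) := rfl
    rw [ContinuousLinearMap.sum_apply, ContinuousLinearMap.sum_apply, h3b, hT, map_sum,
      ← Finset.sum_neg_distrib]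
    refine Finset.sum_congr rfl fun j _ => ?_
    change FRAME_L N j (fderiv ℝ (s j) x (EuclideanSpace.single i (1 : ℝ))) y = _
    rw [h3, FRAME_L_apply, smul_neg, map_smul]
  have hnorm : ∀ x ∈ ball (0 : En n) 1, ∀ y, ‖(∑ j, FRAME_L N j (s j x)) y‖ = ‖y‖ := by
    intro x hx y
    have hpar : ∀ x ∈ ball (0 : En n) 1,
        DifferentiableAt ℝ (fun x => (∑ j, FRAME_L N j (s j x)) y) x ∧
        ∀ i, pd (fun x => (∑ j, FRAME_L N j (s j x)) y) i x =
          - S.A x i ((∑ j, FRAME_L N j (s j x)) y) := by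
      intro x hx
      have h4 : HasFDerivAt (fun x => (∑ j, FRAME_L N j (s j x)) y)
          ((((ContinuousLinearMap.apply ℂ (Wn N) y).restrictScalars ℝ :
            (Wn N →L[ℂ] Wn N) →L[ℝ] Wn N)).comp
            (∑ j, ((FRAME_L N j).restrictScalars ℝ).comp (fderiv ℝ (s j) x))) x :=
        (((ContinuousLinearMap.apply ℂ (Wn N) y).restrictScalars ℝ :
            (Wn N →L[ℂ] Wn N) →L[ℝ] Wn N)).hasFDerivAt.comp x (hfd x hx)
      refine ⟨h4.differentiableAt, fun i => ?_⟩
      have h5 := hpd x hx i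
      unfold pd at h5 ⊢
      rw [h4.fderiv]
      rw [(hfd x hx).fderiv] at h5
      rw [ContinuousLinearMap.comp_apply, h5, hSA x hx i]
      rfl
    have h6 : ∀ x' ∈ ball (0 : En n) 1, ‖(∑ j, FRAME_L N j (s j x')) y‖ =
        ‖(∑ j, FRAME_L N j (s j x)) y‖ := by
      intro x' hx'
      have h7 := par_inner S hpar hpar x' hx' x hx
      rw [real_inner_self_eq_norm_sq, real_inner_self_eq_norm_sq] at h7
      exact (sq_eq_sq₀ (norm_nonneg _) (norm_nonneg _)).1 h7
    have hcl : p₀ ∈ closure (ball (0 : En n) 1) := by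
      rw [closure_ball _ one_ne_zero]
      exact sphere_subset_closedBall (hΓ hp₀)
    have : (𝓝[ball (0 : En n) 1] p₀).NeBot := mem_closure_iff_nhdsWithin_neBot.1 hcl
    have h8 : Tendsto (fun x => ‖(∑ j, FRAME_L N j (s j x)) y‖) (𝓝[ball (0 : En n) 1] p₀)
        (𝓝 ‖(1 : Wn N →L[ℂ] Wn N) y‖) :=
      ((((ContinuousLinearMap.apply ℂ (Wn N) y).continuous.tendsto _).comp
        (hTlim p₀ hp₀))).norm
    have h9 : Tendsto (fun x => ‖(∑ j, FRAME_L N j (s j x)) y‖) (𝓝[ball (0 : En n) 1] p₀)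
        (𝓝 ‖(∑ j, FRAME_L N j (s j x)) y‖) := by
      refine tendsto_const_nhds.congr' ?_
      filter_upwards [self_mem_nhdsWithin] with x' hx'
      exact (h6 x' hx').symm
    exact (tendsto_nhds_unique h9 h8).trans rfl
  refine ⟨fun x => ∑ j, FRAME_L N j (s j x), fun x hx => ⟨?_, (hfd x hx).differentiableAt,
    hpd x hx⟩, hTlim⟩
  have h10 : star (∑ j, FRAME_L N j (s j x)) * (∑ j, FRAME_L N j (s j x)) = 1 := by
    rw [ContinuousLinearMap.star_eq_adjoint]
    exact (ContinuousLinearMap.norm_map_iff_adjoint_comp_self _).1 (hnorm x hx)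
  refine Unitary.mem_iff.2 ⟨h10, ?_⟩
  have h11 : ((star (∑ j, FRAME_L N j (s j x)) : Wn N →L[ℂ] Wn N) : Wn N →ₗ[ℂ] Wn N) *
      ((∑ j, FRAME_L N j (s j x) : Wn N →L[ℂ] Wn N) : Wn N →ₗ[ℂ] Wn N) = 1 := by
    apply LinearMap.ext
    intro y
    exact congrArg (fun (B : Wn N →L[ℂ] Wn N) => B y) h10
  have h12 := mul_eq_one_comm.1 h11
  apply ContinuousLinearMap.ext
  intro y
  exact congrArg (fun (B : Wn N →ₗ[ℂ] Wn N) => B y) h12

theorem EXTA_decomp {W' : Type*} [NormedAddCommGroup W'] [NormedSpace ℝ W'] (L : En n →L[ℝ] W') :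
    L = ∑ i, (EuclideanSpace.proj i : En n →L[ℝ] ℝ).smulRight
      (L (EuclideanSpace.single i (1 : ℝ))) := by
  ext v
  have hv : v = ∑ i, v i • EuclideanSpace.single i (1 : ℝ) := by
    ext j
    simp [Pi.single_apply]
  conv_lhs => rw [hv]
  rw [map_sum]
  simp

theorem EXTA_norm {W' : Type*} [NormedAddCommGroup W'] [NormedSpace ℝ W'] (w : Fin n → W') :
    ‖∑ i, (EuclideanSpace.proj i : En n →L[ℝ] ℝ).smulRight (w i)‖ ≤
      ∑ i, ‖(EuclideanSpace.proj i : En n →L[ℝ] ℝ)‖ * ‖w i‖ := by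
  refine (norm_sum_le _ _).trans (Finset.sum_le_sum fun i _ => ?_)
  rw [ContinuousLinearMap.norm_smulRight_apply]

theorem EXTA_tends {W' α : Type*} [NormedAddCommGroup W'] [NormedSpace ℝ W'] {l : Filter α}
    {F : Fin n → α → W'} {w : Fin n → W'} (h : ∀ i, Tendsto (F i) l (𝓝 (w i))) :
    Tendsto (fun y => ∑ i, (EuclideanSpace.proj i : En n →L[ℝ] ℝ).smulRight (F i y)) l
      (𝓝 (∑ i, (EuclideanSpace.proj i : En n →L[ℝ] ℝ).smulRight (w i))) := by
  refine tendsto_finsetSum _ fun i _ => ?_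
  have h7 : Continuous fun w : W' => (EuclideanSpace.proj i : En n →L[ℝ] ℝ).smulRight w :=
    (ContinuousLinearMap.smulRightL ℝ (En n) W' (EuclideanSpace.proj i : En n →L[ℝ] ℝ)).continuous
  exact (h7.tendsto _).comp (h i)

theorem EXTA_le_one {U : Wn N →L[ℂ] Wn N} (hU : U ∈ unitary (Wn N →L[ℂ] Wn N)) : ‖U‖ ≤ 1 := by
  have h1 : ContinuousLinearMap.adjoint U ∘L U = ContinuousLinearMap.id ℂ (Wn N) :=
    (Unitary.mem_iff.1 hU).1
  refine ContinuousLinearMap.opNorm_le_bound U zero_le_one fun v => ?_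
  have h3 : inner ℂ (U v) (U v) = inner ℂ v v := by
    rw [← ContinuousLinearMap.adjoint_inner_right U v (U v)]
    have h4 : ContinuousLinearMap.adjoint U (U v) = v := by
      have := congrArg (fun L : Wn N →L[ℂ] Wn N => L v) h1
      simpa using this
    rw [h4]
  have h5 : ‖U v‖ ^ 2 = ‖v‖ ^ 2 := by
    have h6 := congrArg Complex.re h3
    rw [inner_self_eq_norm_sq_to_K, inner_self_eq_norm_sq_to_K] at h6
    have h7 : ∀ r : ℝ, ((r : ℂ) ^ 2).re = r ^ 2 := fun r => by
      rw [← Complex.ofReal_pow, Complex.ofReal_re]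
    simpa [h7] using h6
  have h8 : ‖U v‖ = ‖v‖ := by
    have := (sq_eq_sq₀ (norm_nonneg (U v)) (norm_nonneg v)).1 h5
    exact this
  rw [h8, one_mul]

theorem EXTA_closed {g : En n → (Wn N →L[ℂ] Wn N)} (hg : Continuous g) :
    IsClosed {y : En n | g y ∈ unitary (Wn N →L[ℂ] Wn N)} := by
  have hs : Continuous fun y => star (g y) :=
    (ContinuousLinearMap.adjoint (𝕜 := ℂ) (E := Wn N) (F := Wn N)).continuous.comp hg
  have : {y : En n | g y ∈ unitary (Wn N →L[ℂ] Wn N)} =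
      {y | star (g y) * g y = 1} ∩ {y | g y * star (g y) = 1} := by
    ext y
    exact Unitary.mem_iff
  rw [this]
  exact (isClosed_eq (hs.mul hg) continuous_const).inter
    (isClosed_eq (hg.mul hs) continuous_const)

/-- EXTA: continuous extension, unitary, differentiable within the closed ball -/
theorem ext_cont {A : En n → Fin n → (Wn N →L[ℂ] Wn N)}
    (hA : ∀ i, ContDiffOn ℝ ∞ (fun x => A x i) (closedBall (0 : En n) 1))
    {T : En n → (Wn N →L[ℂ] Wn N)} (hT : ∀ x ∈ ball (0 : En n) 1,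
        T x ∈ unitary (Wn N →L[ℂ] Wn N) ∧ DifferentiableAt ℝ T x ∧
        ∀ i, pd T i x = - (A x i * T x)) :
    ∃ T' : En n → (Wn N →L[ℂ] Wn N), (∀ x ∈ ball (0 : En n) 1, T' x = T x) ∧
      ContinuousOn T' (closedBall (0 : En n) 1) ∧
      (∀ x ∈ closedBall (0 : En n) 1, T' x ∈ unitary (Wn N →L[ℂ] Wn N)) ∧
      ∀ x ∈ closedBall (0 : En n) 1, HasFDerivWithinAt T'
        (∑ i, (EuclideanSpace.proj i : En n →L[ℝ] ℝ).smulRight (-(A x i * T' x)))
        (closedBall (0 : En n) 1) x := by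
  have hclos : closure (ball (0 : En n) 1) = closedBall (0 : En n) 1 :=
    closure_ball (0 : En n) one_ne_zero
  have hfd : ∀ x ∈ ball (0 : En n) 1, fderiv ℝ T x =
      ∑ i, (EuclideanSpace.proj i : En n →L[ℝ] ℝ).smulRight (-(A x i * T x)) := by
    intro x hx
    rw [EXTA_decomp (fderiv ℝ T x)]
    refine Finset.sum_congr rfl fun i _ => ?_
    rw [← (hT x hx).2.2 i]
    rfl
  have hAc : ∀ i, ContinuousOn (fun x => A x i) (closedBall (0 : En n) 1) :=
    fun i => (hA i).continuousOn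
  have hAb : ∀ i, ∃ C, ∀ x ∈ closedBall (0 : En n) 1, ‖A x i‖ ≤ C := fun i =>
    (isCompact_closedBall (0 : En n) 1).exists_bound_of_continuousOn (hAc i)
  choose C hC using hAb
  have hTn : ∀ x ∈ ball (0 : En n) 1, ‖T x‖ ≤ 1 := by
    intro x hx
    exact EXTA_le_one (hT x hx).1
  set K : ℝ := ∑ i, ‖(EuclideanSpace.proj i : En n →L[ℝ] ℝ)‖ * |C i| with hK
  have hK0 : 0 ≤ K := Finset.sum_nonneg fun i _ => by positivity
  have hfb : ∀ x ∈ ball (0 : En n) 1, ‖fderiv ℝ T x‖ ≤ K := by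
    intro x hx
    rw [hfd x hx]
    refine (EXTA_norm fun i => -(A x i * T x)).trans (Finset.sum_le_sum fun i _ => ?_)
    rw [norm_neg]
    refine mul_le_mul_of_nonneg_left ?_ (norm_nonneg _)
    calc ‖A x i * T x‖ ≤ ‖A x i‖ * ‖T x‖ := norm_mul_le _ _
      _ ≤ |C i| * 1 := by
          refine mul_le_mul ?_ (hTn x hx) (norm_nonneg _) (abs_nonneg _)
          exact (hC i x (ball_subset_closedBall hx)).trans (le_abs_self _)
      _ = |C i| := mul_one _
  have hlip : LipschitzOnWith K.toNNReal T (ball (0 : En n) 1) := by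
    refine Convex.lipschitzOnWith_of_nnnorm_fderiv_le (𝕜 := ℝ) (fun x hx => (hT x hx).2.1) ?_
      (convex_ball _ _)
    intro x hx
    rw [← NNReal.coe_le_coe, coe_nnnorm, Real.coe_toNNReal _ hK0]
    exact hfb x hx
  obtain ⟨g, hg, hgT⟩ := hlip.extend_finite_dimension
  have hgc : Continuous g := hg.continuous
  have hgeq : ∀ x ∈ ball (0 : En n) 1, g x = T x := fun x hx => (hgT hx).symm
  refine ⟨g, hgeq, hgc.continuousOn, ?_, ?_⟩
  · intro x hx
    rw [← hclos] at hx
    have hsub : ball (0 : En n) 1 ⊆ {y : En n | g y ∈ unitary (Wn N →L[ℂ] Wn N)} := by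
      intro y hy
      change g y ∈ unitary (Wn N →L[ℂ] Wn N)
      rw [hgeq y hy]
      exact (hT y hy).1
    exact closure_minimal hsub (EXTA_closed hgc) hx
  · intro x hx
    rw [← hclos]
    have hfg : ∀ y ∈ ball (0 : En n) 1, fderiv ℝ g y = fderiv ℝ T y := by
      intro y hy
      refine Filter.EventuallyEq.fderiv_eq ?_
      filter_upwards [isOpen_ball.mem_nhds hy] with z hz
      exact hgeq z hz
    refine hasFDerivWithinAt_closure_of_tendsto_fderiv ?_ (convex_ball _ _) isOpen_ball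
      (fun y _ => hgc.continuousWithinAt) ?_
    · intro y hy
      have h1 : DifferentiableAt ℝ T y := (hT y hy).2.1
      have h2 : g =ᶠ[𝓝 y] T := by
        filter_upwards [isOpen_ball.mem_nhds hy] with z hz
        exact hgeq z hz
      exact (h2.differentiableAt_iff.2 h1).differentiableWithinAt
    · have h3 := EXTA_tends (l := 𝓝[ball (0 : En n) 1] x)
        (F := fun i y => -(A y i * g y)) (w := fun i => -(A x i * g x)) fun i => by
          have h5 : Tendsto (fun y => A y i) (𝓝[ball (0 : En n) 1] x) (𝓝 (A x i)) :=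
            ((hAc i) x hx).mono_left (nhdsWithin_mono _ ball_subset_closedBall)
          have h6 : Tendsto g (𝓝[ball (0 : En n) 1] x) (𝓝 (g x)) :=
            hgc.continuousWithinAt
          exact (h5.mul h6).neg
      refine h3.congr' ?_
      filter_upwards [self_mem_nhdsWithin] with y hy
      rw [hfg y hy, hfd y hy, hgeq y hy]

/-- EXTB: smoothness by induction -/
theorem ext_smooth {A : En n → Fin n → (Wn N →L[ℂ] Wn N)}
    (hA : ∀ i, ContDiffOn ℝ ∞ (fun x => A x i) (closedBall (0 : En n) 1))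
    {T' : En n → (Wn N →L[ℂ] Wn N)} (hc : ContinuousOn T' (closedBall (0 : En n) 1))
    (hT : ∀ x ∈ closedBall (0 : En n) 1, HasFDerivWithinAt T'
        (∑ i, (EuclideanSpace.proj i : En n →L[ℝ] ℝ).smulRight (-(A x i * T' x)))
        (closedBall (0 : En n) 1) x) :
    ContDiffOn ℝ ∞ T' (closedBall (0 : En n) 1) := by
  have hU : UniqueDiffOn ℝ (closedBall (0 : En n) 1) := by
    refine uniqueDiffOn_convex (convex_closedBall _ _) ?_
    exact (nonempty_ball.2 one_pos).mono ball_subset_interior_closedBall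
  rw [contDiffOn_infty]
  intro k
  induction k with
  | zero => exact contDiffOn_zero.2 hc
  | succ k ih =>
    have hcast : ((k + 1 : ℕ) : WithTop ℕ∞) = (k : WithTop ℕ∞) + 1 := by push_cast; rfl
    rw [hcast, contDiffOn_succ_iff_fderivWithin hU]
    refine ⟨fun x hx => (hT x hx).differentiableWithinAt, ?_, ?_⟩
    · intro h
      exact absurd h (by simp)
    · have hform : ContDiffOn ℝ k (fun x => ∑ i, (EuclideanSpace.proj i : En n →L[ℝ] ℝ).smulRight
          (-(A x i * T' x))) (closedBall (0 : En n) 1) := by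
        refine ContDiffOn.sum fun i _ => ?_
        have h1 : ContDiffOn ℝ k (fun x => -(A x i * T' x)) (closedBall (0 : En n) 1) :=
          (((hA i).of_le (by exact_mod_cast le_top)).mul ih).neg
        have h2 : ContDiff ℝ k (fun y : Wn N →L[ℂ] Wn N =>
            (EuclideanSpace.proj i : En n →L[ℝ] ℝ).smulRight y) :=
          contDiff_const.smulRight contDiff_id
        exact h2.comp_contDiffOn h1
      exact hform.congr fun x hx => (hT x hx).fderivWithin (hU x hx)

end P088
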