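import Vale.Agent.P088.Glue

/-! Module BUMP (S): two `ContDiffBump`s.  Module MIN (S-M): `c = sInf` of the scalar energies (bounded below by `0`, nonempty:
`f` is a competitor); every scalar competitor `w` gives the competitor `w v` for `Q g 0`, so
`Q g A (f v) = Q g 0 (f v) ≤ c`; near-minimizers (`exists_lt_of_csInf_lt`), glued with `f v` outside the ball
(`lip_glue`, `en_congr`); `f` is Lipschitz (`ContDiff.lipschitzWith_of_hasCompactSupport`). -/

open MeasureTheory Metric Set Filter Topology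
open scoped ContDiff InnerProductSpace

namespace P088

variable {n N : ℕ}

theorem exists_bump {O : Set (En n)} (hO : IsOpen O) {p q : En n} (hp : p ∈ O) (hq : q ∈ O) :
    ∃ f : En n → ℝ, ContDiff ℝ ∞ f ∧ HasCompactSupport f ∧ tsupport f ⊆ O ∧ (∀ x, 0 ≤ f x) ∧
      0 < f p ∧ 0 < f q := by
  obtain ⟨f, hf1, hf2, hf3, hf4, hf5⟩ :=
    exists_contDiff_tsupport_subset (n := ⊤) (hO.mem_nhds hp)
  obtain ⟨g, hg1, hg2, hg3, hg4, hg5⟩ :=
    exists_contDiff_tsupport_subset (n := ⊤) (hO.mem_nhds hq)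
  have hf0 : ∀ x, 0 ≤ f x := fun x => (hf4 ⟨x, rfl⟩).1
  have hg0 : ∀ x, 0 ≤ g x := fun x => (hg4 ⟨x, rfl⟩).1
  refine ⟨fun x => f x + g x, hf3.add hg3, hf2.add hg2, ?_, fun x => add_nonneg (hf0 x) (hg0 x),
    ?_, ?_⟩
  · exact (tsupport_add f g).trans (union_subset hf1 hg1)
  · have := hg0 p
    simp only [hf5]
    linarith
  · have := hf0 q
    simp only [hg5]
    linarith

theorem MIN_smul_lip {w : En n → ℝ} (hw : IsLip w) (v : Wn N) (hv : ‖v‖ = 1) :
    IsLip (fun x => w x • v) := by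
  obtain ⟨K, hK⟩ := hw
  refine ⟨K, LipschitzWith.of_dist_le_mul fun x y => ?_⟩
  rw [dist_eq_norm, ← sub_smul, norm_smul, hv, mul_one]
  exact hK.dist_le_mul x y

theorem MIN_er_nonneg (S : Setup n (Wn N)) (w : En n → ℝ) : 0 ≤ S.er w := by
  unfold Setup.er
  exact integral_nonneg fun x => gq_nonneg S x _

theorem exists_minseq {g : En n → Matrix (Fin n) (Fin n) ℝ}
    {A : En n → Fin n → (Wn N →L[ℂ] Wn N)} {S : Setup n (Wn N)}
    (hS : ∀ u : En n → Wn N, S.en u = energy g A u)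
    (hS0 : ∀ (w : En n → ℝ) (v : Wn N), IsLip w → ‖v‖ = 1 →
        energy g (fun _ _ => 0) (fun x => w x • v) = S.er w)
    {f : En n → ℝ} (hf : ContDiff ℝ ∞ f) (hfc : HasCompactSupport f) (hf0 : ∀ x, 0 ≤ f x)
    {v : Wn N} (hv : ‖v‖ = 1)
    (hQ : Q g A (fun x => f x • v) = Q g (fun _ _ => 0) (fun x => f x • v)) :
    ∃ M : MinSeq S, M.f = f ∧ M.v = v := by
  classical
  have hfl : IsLip f := ContDiff.lipschitzWith_of_hasCompactSupport hfc hf (by simp)
  set Sc : Set ℝ := {e | ∃ w : En n → ℝ, IsLip w ∧ (∀ x ∈ sphere (0 : En n) 1, w x = f x) ∧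
    e = S.er w} with hSc
  have hne : Sc.Nonempty := ⟨S.er f, f, hfl, fun _ _ => rfl, rfl⟩
  have hbd : BddBelow Sc := by
    refine ⟨0, ?_⟩
    rintro e ⟨w, -, -, rfl⟩
    exact MIN_er_nonneg S w
  have hc0 : 0 ≤ sInf Sc := le_csInf hne (by
    rintro e ⟨w, -, -, rfl⟩
    exact MIN_er_nonneg S w)
  have hQ0 : Q g (fun _ _ => 0) (fun x => f x • v) ≤ sInf Sc := by
    unfold Q
    by_cases hb : BddBelow {e | ∃ u : En n → Wn N, IsLip u ∧
        (∀ x ∈ sphere (0 : En n) 1, u x = f x • v) ∧ e = energy g (fun _ _ => 0) u}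
    · refine le_csInf hne ?_
      rintro e ⟨w, hw, hwf, rfl⟩
      refine csInf_le hb ⟨fun x => w x • v, MIN_smul_lip hw v hv, fun x hx => ?_, ?_⟩
      · show w x • v = f x • v
        rw [hwf x hx]
      · exact (hS0 w v hw hv).symm
    · rw [Real.sInf_of_not_bddBelow hb]
      exact hc0
  have hex : ∀ m : ℕ, ∃ u : En n → Wn N, IsLip u ∧
      (∀ x ∈ sphere (0 : En n) 1, u x = f x • v) ∧ S.en u ≤ sInf Sc + ep m := by
    intro m
    have hep : 0 < ep m := by
      unfold ep
      positivity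
    obtain ⟨e, ⟨u, hu, huf, rfl⟩, hlt⟩ := Real.lt_sInf_add_pos
      (s := {e | ∃ u : En n → Wn N, IsLip u ∧ (∀ x ∈ sphere (0 : En n) 1, u x = f x • v) ∧
        e = energy g A u})
      ⟨_, fun x => f x • v, MIN_smul_lip hfl v hv, fun _ _ => rfl, rfl⟩ hep
    refine ⟨u, hu, huf, ?_⟩
    rw [hS u]
    have h1 : Q g A (fun x => f x • v) ≤ sInf Sc := hQ.trans_le hQ0
    unfold Q at h1
    linarith
  choose u hu huf hen using hex
  refine ⟨{ f := f
            v := v
            c := sInf Sc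
            u := fun m x => if x ∈ ball (0 : En n) 1 then u m x else f x • v
            f_lip := hfl
            f_supp := hfc
            f_nonneg := hf0
            v_norm := hv
            c_le := fun w hw hwf => csInf_le hbd ⟨w, hw, hwf, rfl⟩
            u_lip := fun m => ?_
            u_out := fun m x hx => if_neg hx
            u_en := fun m => ?_ }, rfl, rfl⟩
  · have h := lip_glue (u := u m) (h := fun x => f x • v) (hu m) (MIN_smul_lip hfl v hv) (huf m)
    exact h
  · rw [en_congr S (u' := u m) fun x hx => if_pos hx]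
    exact hen m

end P088
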