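import Vale.Agent.P088.Kato

/-! Module SETUP (M): `G x = √det g · g⁻¹` on the ball, identity outside; `A` as a real linear map on the ball, `0` outside.
Ellipticity: `g⁻¹` is continuous and positive definite on the compact closed ball (minimum over the unit sphere), or bounds for
`g` give bounds for `g⁻¹`.  `⟪a, b⟫_ℝ = re ⟪a, b⟫_ℂ`. -/

open MeasureTheory Metric Set Filter Topology
open scoped ContDiff InnerProductSpace

namespace P088

variable {n N : ℕ}

theorem inner_re (a b : Wn N) : ⟪a, b⟫_ℝ = (inner ℂ a b : ℂ).re := by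
  rw [PiLp.inner_apply, PiLp.inner_apply, Complex.re_sum]
  refine Finset.sum_congr rfl fun i _ => ?_
  rw [Complex.inner]
  simp [mul_comm]

theorem SETA_scale (M : Fin n → Fin n → ℝ) {a b : ℝ}
    (h : ∀ e : En n, ‖e‖ = 1 → a ≤ ∑ i, ∑ j, M i j * (e i * e j) ∧
      ∑ i, ∑ j, M i j * (e i * e j) ≤ b) (ξ : Fin n → ℝ) :
    a * ∑ i, ξ i ^ 2 ≤ ∑ i, ∑ j, M i j * (ξ i * ξ j) ∧
      ∑ i, ∑ j, M i j * (ξ i * ξ j) ≤ b * ∑ i, ξ i ^ 2 := by
  set x : En n := WithLp.toLp 2 ξ with hx
  have hxi : ∀ i, x i = ξ i := fun i => rfl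
  have hn : ∑ i, ξ i ^ 2 = ‖x‖ ^ 2 := by
    rw [EuclideanSpace.real_norm_sq_eq]
  rcases eq_or_ne x 0 with h0 | h0
  · have h1 : ∀ i, ξ i = 0 := fun i => by rw [← hxi, h0]; rfl
    simp [h1]
  · have hr : ‖x‖ ≠ 0 := norm_ne_zero_iff.2 h0
    have h1 := h (‖x‖⁻¹ • x) (by rw [norm_smul, norm_inv, norm_norm, inv_mul_cancel₀ hr])
    have h2 : ∑ i, ∑ j, M i j * (ξ i * ξ j) =
        ‖x‖ ^ 2 * ∑ i, ∑ j, M i j * ((‖x‖⁻¹ • x) i * (‖x‖⁻¹ • x) j) := by
      rw [Finset.mul_sum]
      refine Finset.sum_congr rfl fun i _ => ?_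
      rw [Finset.mul_sum]
      refine Finset.sum_congr rfl fun j _ => ?_
      simp only [PiLp.smul_apply, smul_eq_mul, hxi]
      field_simp
    rw [hn, h2]
    have h3 := sq_nonneg ‖x‖
    constructor
    · rw [mul_comm]
      exact mul_le_mul_of_nonneg_left h1.1 h3
    · rw [mul_comm b]
      exact mul_le_mul_of_nonneg_left h1.2 h3

theorem SETA_glue (H : En n → Fin n → Fin n → ℝ)
    (hc : ∀ i j, ContinuousOn (fun x => H x i j) (closedBall (0 : En n) 1))
    (hs : ∀ x ∈ closedBall (0 : En n) 1, ∀ i j, H x i j = H x j i)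
    (hp : ∀ x ∈ closedBall (0 : En n) 1, ∀ e : En n, ‖e‖ = 1 →
      0 < ∑ i, ∑ j, H x i j * (e i * e j)) :
    ∃ (G : En n → Fin n → Fin n → ℝ) (lam Lam : ℝ), 0 < lam ∧
      (∀ i j, Measurable fun x => G x i j) ∧ (∀ x i j, G x i j = G x j i) ∧
      (∀ x (ξ : Fin n → ℝ), lam * ∑ i, ξ i ^ 2 ≤ ∑ i, ∑ j, G x i j * (ξ i * ξ j)) ∧
      (∀ x (ξ : Fin n → ℝ), ∑ i, ∑ j, G x i j * (ξ i * ξ j) ≤ Lam * ∑ i, ξ i ^ 2) ∧
      ∀ x ∈ ball (0 : En n) 1, ∀ i j, G x i j = H x i j := by
  classical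
  have hK : IsCompact (closedBall (0 : En n) 1 ×ˢ sphere (0 : En n) 1) :=
    (isCompact_closedBall _ _).prod (isCompact_sphere _ _)
  have hF : ContinuousOn (fun p : En n × En n => ∑ i, ∑ j, H p.1 i j * (p.2 i * p.2 j))
      (closedBall (0 : En n) 1 ×ˢ sphere (0 : En n) 1) := by
    refine continuousOn_finsetSum _ fun i _ => continuousOn_finsetSum _ fun j _ => ?_
    refine ContinuousOn.mul ?_ ?_
    · exact (hc i j).comp continuousOn_fst fun p hp => hp.1
    · exact Continuous.continuousOn (by fun_prop)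
  have hFpos : ∀ p ∈ closedBall (0 : En n) 1 ×ˢ sphere (0 : En n) 1,
      (0 : ℝ) < ∑ i, ∑ j, H p.1 i j * (p.2 i * p.2 j) := by
    rintro ⟨x, e⟩ ⟨hx, he⟩
    exact hp x hx e (mem_sphere_zero_iff_norm.1 he)
  obtain ⟨m, hm0, hm⟩ := hK.exists_forall_le' hF hFpos
  obtain ⟨C, hC⟩ := hK.exists_bound_of_continuousOn hF
  have hin : ∀ x ∈ ball (0 : En n) 1, ∀ e : En n, ‖e‖ = 1 →
      min m 1 ≤ ∑ i, ∑ j, H x i j * (e i * e j) ∧ ∑ i, ∑ j, H x i j * (e i * e j) ≤ max C 1 := by
    intro x hx e he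
    have hp : ((x, e) : En n × En n) ∈ closedBall (0 : En n) 1 ×ˢ sphere (0 : En n) 1 :=
      ⟨ball_subset_closedBall hx, mem_sphere_zero_iff_norm.2 he⟩
    exact ⟨(min_le_left _ _).trans (hm _ hp),
      ((le_abs_self _).trans (hC _ hp)).trans (le_max_left _ _)⟩
  have hone : ∀ ξ : Fin n → ℝ, ∑ i, ∑ j, (if i = j then (1 : ℝ) else 0) * (ξ i * ξ j) =
      ∑ i, ξ i ^ 2 := by
    intro ξ
    refine Finset.sum_congr rfl fun i _ => ?_
    simp [sq]
  refine ⟨fun x i j => if x ∈ ball (0 : En n) 1 then H x i j else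
    (if i = j then 1 else 0), min m 1, max C 1, lt_min hm0 one_pos, ?_, ?_, ?_, ?_, ?_⟩
  · intro i j
    exact ContinuousOn.measurable_piecewise (s := ball (0 : En n) 1)
      (f := fun x => H x i j) (g := fun _ => if i = j then (1 : ℝ) else 0)
      ((hc i j).mono ball_subset_closedBall) continuousOn_const measurableSet_ball
  · intro x i j
    by_cases hx : x ∈ ball (0 : En n) 1
    · simp only [if_pos hx]
      exact hs x (ball_subset_closedBall hx) i j
    · simp only [if_neg hx]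
      simp only [eq_comm]
  · intro x ξ
    by_cases hx : x ∈ ball (0 : En n) 1
    · simp only [if_pos hx]
      exact (SETA_scale _ (hin x hx) ξ).1
    · simp only [if_neg hx]
      rw [hone ξ]
      exact mul_le_of_le_one_left (Finset.sum_nonneg fun i _ => sq_nonneg _) (min_le_right _ _)
  · intro x ξ
    by_cases hx : x ∈ ball (0 : En n) 1
    · simp only [if_pos hx]
      exact (SETA_scale _ (hin x hx) ξ).2
    · simp only [if_neg hx]
      rw [hone ξ]
      exact le_mul_of_one_le_left (Finset.sum_nonneg fun i _ => sq_nonneg _) (le_max_right _ _)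
  · intro x hx i j
    exact if_pos hx

theorem SETA_cont (g : En n → Matrix (Fin n) (Fin n) ℝ)
    (hg : ∀ i j, ContDiffOn ℝ ∞ (fun x => g x i j) (closedBall (0 : En n) 1))
    (hpos : ∀ x ∈ closedBall (0 : En n) 1, (g x).PosDef) (i j : Fin n) :
    ContinuousOn (fun x => Real.sqrt (g x).det * (g x)⁻¹ i j) (closedBall (0 : En n) 1) := by
  have hgc : ContinuousOn g (closedBall (0 : En n) 1) := by
    refine continuousOn_pi.2 fun i => continuousOn_pi.2 fun j => ?_
    exact (hg i j).continuousOn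
  have hdet : ContinuousOn (fun x => (g x).det) (closedBall (0 : En n) 1) :=
    (Continuous.matrix_det continuous_id).comp_continuousOn hgc
  have hadj : ContinuousOn (fun x => (g x).adjugate) (closedBall (0 : En n) 1) :=
    (Continuous.matrix_adjugate continuous_id).comp_continuousOn hgc
  have hdpos : ∀ x ∈ closedBall (0 : En n) 1, 0 < (g x).det := fun x hx => (hpos x hx).det_pos
  have h1 : ContinuousOn (fun x => (g x).adjugate i j) (closedBall (0 : En n) 1) :=
    continuousOn_pi.1 (continuousOn_pi.1 hadj i) j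
  have h2 : ContinuousOn (fun x => Real.sqrt (g x).det * ((g x).det⁻¹ * (g x).adjugate i j))
      (closedBall (0 : En n) 1) :=
    hdet.sqrt.mul ((hdet.inv₀ fun x hx => (hdpos x hx).ne').mul h1)
  refine h2.congr fun x hx => ?_
  simp only [Matrix.inv_def, Ring.inverse_eq_inv', Matrix.smul_apply, smul_eq_mul]

theorem SETA_pos {M : Matrix (Fin n) (Fin n) ℝ} (hM : M.PosDef) (e : En n) (he : ‖e‖ = 1) :
    0 < ∑ i, ∑ j, (Real.sqrt M.det * M⁻¹ i j) * (e i * e j) := by
  have h1 := hM.inv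
  have he0 : (fun i => e i) ≠ 0 := by
    intro h0
    have : e = 0 := by ext i; exact congrFun h0 i
    rw [this, norm_zero] at he
    exact zero_ne_one he
  have h2 := h1.dotProduct_mulVec_pos he0
  have h3 : ∑ i, ∑ j, (Real.sqrt M.det * M⁻¹ i j) * (e i * e j) =
      Real.sqrt M.det * (star (fun i => e i) ⬝ᵥ M⁻¹.mulVec (fun i => e i)) := by
    simp only [dotProduct, Matrix.mulVec, Pi.star_apply, star_trivial, Finset.mul_sum]
    refine Finset.sum_congr rfl fun i _ => Finset.sum_congr rfl fun j _ => ?_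
    ring
  rw [h3]
  exact mul_pos (Real.sqrt_pos.2 hM.det_pos) h2

/-- SETA: the coefficients -/
theorem exists_coef (g : En n → Matrix (Fin n) (Fin n) ℝ)
    (hg : ∀ i j, ContDiffOn ℝ ∞ (fun x => g x i j) (closedBall (0 : En n) 1))
    (hpos : ∀ x ∈ closedBall (0 : En n) 1, (g x).PosDef) :
    ∃ (G : En n → Fin n → Fin n → ℝ) (lam Lam : ℝ), 0 < lam ∧
      (∀ i j, Measurable fun x => G x i j) ∧ (∀ x i j, G x i j = G x j i) ∧
      (∀ x (ξ : Fin n → ℝ), lam * ∑ i, ξ i ^ 2 ≤ ∑ i, ∑ j, G x i j * (ξ i * ξ j)) ∧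
      (∀ x (ξ : Fin n → ℝ), ∑ i, ∑ j, G x i j * (ξ i * ξ j) ≤ Lam * ∑ i, ξ i ^ 2) ∧
      ∀ x ∈ ball (0 : En n) 1, ∀ i j, G x i j = Real.sqrt (g x).det * (g x)⁻¹ i j := by
  refine SETA_glue (fun x i j => Real.sqrt (g x).det * (g x)⁻¹ i j) (SETA_cont g hg hpos)
    (fun x hx i j => ?_) fun x hx e he => SETA_pos (hpos x hx) e he
  have h1 := (hpos x hx).inv.isHermitian.apply i j
  rw [star_trivial] at h1
  simp only [h1]

theorem SETB_skew {T : Wn N →L[ℂ] Wn N} (h : star T = -T) (y : Wn N) : ⟪y, T y⟫_ℝ = 0 := by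
  rw [inner_re]
  have e : (inner ℂ y (T y) : ℂ) = - (starRingEnd ℂ) (inner ℂ y (T y)) := by
    have h1 : (inner ℂ y (T y) : ℂ) = inner ℂ (star T y) y := by
      rw [ContinuousLinearMap.star_eq_adjoint, ContinuousLinearMap.adjoint_inner_left]
    rw [inner_conj_symm]
    conv_lhs => rw [h1, h]
    show inner ℂ (-(T y)) y = _
    rw [inner_neg_left]
  have := congrArg Complex.re e
  rw [Complex.neg_re, Complex.conj_re] at this
  linarith

/-- SETB: the connection -/
theorem exists_conn (A : En n → Fin n → (Wn N →L[ℂ] Wn N))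
    (hA : ∀ i, ContDiffOn ℝ ∞ (fun x => A x i) (closedBall (0 : En n) 1))
    (hskew : ∀ x ∈ closedBall (0 : En n) 1, ∀ i, star (A x i) = - A x i) :
    ∃ (B : En n → Fin n → (Wn N →L[ℝ] Wn N)) (CA : ℝ), (∀ i, StronglyMeasurable fun x => B x i) ∧
      (∀ x i, ‖B x i‖ ≤ CA) ∧ (∀ x i (y : Wn N), ⟪y, B x i y⟫_ℝ = 0) ∧
      (∀ x, x ∉ ball (0 : En n) 1 → ∀ i, B x i = 0) ∧
      (∀ i, ContinuousOn (fun x => B x i) (ball (0 : En n) 1)) ∧
      ∀ x ∈ ball (0 : En n) 1, ∀ i (y : Wn N), B x i y = A x i y := by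
  classical
  let R : En n → Fin n → (Wn N →L[ℝ] Wn N) := fun x i => (A x i).restrictScalars ℝ
  have hRc : ∀ i, ContinuousOn (fun x => R x i) (closedBall (0 : En n) 1) := by
    intro i
    have h1 : Continuous fun T : Wn N →L[ℂ] Wn N => T.restrictScalars ℝ :=
      (ContinuousLinearMap.restrictScalarsL ℂ (Wn N) (Wn N) ℝ ℝ).continuous
    exact h1.comp_continuousOn (hA i).continuousOn
  have hRb : ∀ i, ContinuousOn (fun x => R x i) (ball (0 : En n) 1) := fun i =>
    (hRc i).mono ball_subset_closedBall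
  have hbd : ∀ i, ∃ C, ∀ x ∈ closedBall (0 : En n) 1, ‖R x i‖ ≤ C := fun i =>
    (isCompact_closedBall _ _).exists_bound_of_continuousOn (hRc i)
  choose C hC using hbd
  refine ⟨fun x i => if x ∈ ball (0 : En n) 1 then R x i else 0, ∑ i, |C i|, ?_, ?_, ?_, ?_, ?_, ?_⟩
  · intro i
    have h := ContinuousOn.measurable_piecewise (f := fun x => R x i)
      (g := fun _ => (0 : Wn N →L[ℝ] Wn N)) (s := ball (0 : En n) 1) (hRb i) continuousOn_const
      measurableSet_ball
    exact h.stronglyMeasurable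
  · intro x i
    have h0 : |C i| ≤ ∑ i, |C i| := Finset.single_le_sum (f := fun i => |C i|)
      (fun _ _ => abs_nonneg _) (Finset.mem_univ i)
    beta_reduce
    split_ifs with hx
    · exact (hC i x (ball_subset_closedBall hx)).trans ((le_abs_self _).trans h0)
    · rw [norm_zero]; exact (abs_nonneg _).trans h0
  · intro x i y
    beta_reduce
    split_ifs with hx
    · exact SETB_skew (hskew x (ball_subset_closedBall hx) i) y
    · simp
  · intro x hx i
    beta_reduce
    rw [if_neg hx]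
  · intro i
    refine (hRb i).congr fun x hx => ?_
    beta_reduce
    rw [if_pos hx]
  · intro x hx i y
    beta_reduce
    rw [if_pos hx]
    rfl

/-- SETC -/
theorem exists_setup (g : En n → Matrix (Fin n) (Fin n) ℝ)
    (hg : ∀ i j, ContDiffOn ℝ ∞ (fun x => g x i j) (closedBall (0 : En n) 1))
    (hpos : ∀ x ∈ closedBall (0 : En n) 1, (g x).PosDef)
    (A : En n → Fin n → (Wn N →L[ℂ] Wn N))
    (hA : ∀ i, ContDiffOn ℝ ∞ (fun x => A x i) (closedBall (0 : En n) 1))
    (hskew : ∀ x ∈ closedBall (0 : En n) 1, ∀ i, star (A x i) = - A x i) :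
    ∃ S : Setup n (Wn N), (∀ x ∈ ball (0 : En n) 1, ∀ i (y : Wn N), S.A x i y = A x i y) ∧
      (∀ u : En n → Wn N, S.en u = energy g A u) ∧
      ∀ (w : En n → ℝ) (v : Wn N), IsLip w → ‖v‖ = 1 →
        energy g (fun _ _ => 0) (fun x => w x • v) = S.er w := by
  obtain ⟨G, lam, Lam, hlam, hGm, hGs, hGlo, hGup, hGb⟩ := exists_coef g hg hpos
  obtain ⟨B, CA, hBm, hBb, hBs, hBo, hBc, hBA⟩ := exists_conn A hA hskew
  refine ⟨⟨G, lam, Lam, B, CA, hlam, hGm, hGs, hGlo, hGup, hBm, hBb, hBs, hBo, hBc⟩, hBA, ?_, ?_⟩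
  · intro u
    unfold Setup.en energy
    refine setIntegral_congr_fun measurableSet_ball fun x hx => ?_
    simp only [gq, Setup.cd]
    rw [Finset.mul_sum]
    refine Finset.sum_congr rfl fun i _ => ?_
    rw [Finset.mul_sum]
    refine Finset.sum_congr rfl fun j _ => ?_
    rw [hGb x hx i j, inner_re, hBA x hx i, hBA x hx j, mul_assoc]
  · intro w v hw hv
    obtain ⟨K, hK⟩ := hw
    unfold Setup.er energy
    refine integral_congr_ae ?_
    have hae := ae_restrict_of_ae (s := ball (0 : En n) 1) (hK.ae_differentiableAt (μ := volume))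
    filter_upwards [hae, ae_restrict_mem measurableSet_ball] with x hd hx
    have hpd : ∀ i, pd (fun x => w x • v) i x = pd w i x • v := by
      intro i
      unfold pd
      rw [fderiv_smul_const hd]
      rfl
    simp only [gq, ContinuousLinearMap.zero_apply, add_zero, hpd]
    rw [Finset.mul_sum]
    refine Finset.sum_congr rfl fun i _ => ?_
    rw [Finset.mul_sum]
    refine Finset.sum_congr rfl fun j _ => ?_
    rw [hGb x hx i j, mul_assoc, ← inner_re, real_inner_smul_left, real_inner_smul_right,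
      real_inner_self_eq_norm_sq, hv]
    simp only [RCLike.inner_apply, conj_trivial]
    ring

end P088
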