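import Vale.Agent.P088.Core
import Vale.Agent.P088.Gauge
import Vale.Agent.P088.MkMin
import Vale.Agent.P088.MkSetup

/-! Final assembly (helper88). -/

open MeasureTheory Metric Set Filter Topology
open scoped ContDiff InnerProductSpace

namespace P088

variable {n N : ℕ}

theorem fin_bd {O : Set (En n)} {f : En n → ℝ} (hf : ContDiff ℝ ∞ f) (hfO : tsupport f ⊆ O)
    (v : Wn N) : BD (O ∩ sphere (0 : En n) 1) (fun x => f x • v) := by
  refine ⟨hf.smul contDiff_const, ?_⟩
  have h1 : {x | x ∈ sphere (0 : En n) 1 ∧ f x • v ≠ 0} ⊆ tsupport f ∩ sphere (0 : En n) 1 := by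
    rintro x ⟨hx, hx0⟩
    refine ⟨subset_tsupport f ?_, hx⟩
    intro h
    exact hx0 (by rw [h, zero_smul])
  refine (closure_minimal h1 ((isClosed_tsupport f).inter isClosed_sphere)).trans ?_
  exact inter_subset_inter_left _ hfO

/-- parallel sections with prescribed boundary values at two points of `Γ` -/
theorem fin_sec (g : En n → Matrix (Fin n) (Fin n) ℝ)
    (A : En n → Fin n → (Wn N →L[ℂ] Wn N)) (S : Setup n (Wn N))
    (hS : ∀ u : En n → Wn N, S.en u = energy g A u)
    (hS0 : ∀ (w : En n → ℝ) (v : Wn N), IsLip w → ‖v‖ = 1 →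
        energy g (fun _ _ => 0) (fun x => w x • v) = S.er w)
    {O : Set (En n)} (hO : IsOpen O)
    (h : ∀ f : En n → Wn N, BD (O ∩ sphere (0 : En n) 1) f → Q g A f = Q g (fun _ _ => 0) f)
    (p : En n) (hp : p ∈ O ∩ sphere (0 : En n) 1) (q : En n) (hq : q ∈ O ∩ sphere (0 : En n) 1)
    (v : Wn N) (hv : ‖v‖ = 1) : ∃ s : En n → Wn N,
      (∀ x ∈ ball (0 : En n) 1, DifferentiableAt ℝ s x ∧ ∀ i, pd s i x = - S.A x i (s x)) ∧
      Tendsto s (𝓝[ball (0 : En n) 1] p) (𝓝 v) ∧ Tendsto s (𝓝[ball (0 : En n) 1] q) (𝓝 v) := by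
  obtain ⟨f, hf, hfc, hfO, hf0, hfp, hfq⟩ := exists_bump hO hp.1 hq.1
  obtain ⟨M, hMf, hMv⟩ := exists_minseq hS hS0 hf hfc hf0 hv (h _ (fin_bd hf hfO v))
  obtain ⟨s, hs, -, hb⟩ := core M ⟨p, hp.2, by rw [hMf]; exact hfp⟩
  refine ⟨s, hs, ?_, ?_⟩
  · rw [← hMv]
    exact hb p hp.2 (by rw [hMf]; exact hfp)
  · rw [← hMv]
    exact hb q hq.2 (by rw [hMf]; exact hfq)

theorem fin_star_real (N : ℕ) : ∃ L : (Wn N →L[ℂ] Wn N) →L[ℝ] (Wn N →L[ℂ] Wn N),
    ∀ T, L T = star T := by
  refine ⟨LinearMap.mkContinuous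
    { toFun := fun T => star T
      map_add' := fun a b => star_add a b
      map_smul' := fun c a => ?_ } 1 fun T => ?_, fun T => rfl⟩
  · have h1 : c • a = (c : ℂ) • a := by
      ext x
      simp
    have h2 : c • star a = (c : ℂ) • star a := by
      ext x
      simp
    rw [h1, star_smul]
    simp only [RingHom.id_apply]
    rw [h2]
    congr 1
    simp
  · show ‖ContinuousLinearMap.adjoint T‖ ≤ 1 * ‖T‖
    rw [LinearIsometryEquiv.norm_map, one_mul]

theorem diamagnetic_rigidity (g : En n → Matrix (Fin n) (Fin n) ℝ)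
    (hg : ∀ i j, ContDiffOn ℝ ∞ (fun x => g x i j) (closedBall (0 : En n) 1))
    (hpos : ∀ x ∈ closedBall (0 : En n) 1, (g x).PosDef)
    (A : En n → Fin n → (Wn N →L[ℂ] Wn N))
    (hA : ∀ i, ContDiffOn ℝ ∞ (fun x => A x i) (closedBall (0 : En n) 1))
    (hskew : ∀ x ∈ closedBall (0 : En n) 1, ∀ i, star (A x i) = - A x i)
    {O : Set (En n)} (hO : IsOpen O) (hne : (O ∩ sphere (0 : En n) 1).Nonempty)
    (h : ∀ f : En n → Wn N, BD (O ∩ sphere (0 : En n) 1) f → Q g A f = Q g (fun _ _ => 0) f) :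
    ∃ U : En n → (Wn N →L[ℂ] Wn N), ContDiffOn ℝ ∞ U (closedBall (0 : En n) 1) ∧
      (∀ x ∈ closedBall (0 : En n) 1, U x ∈ unitary (Wn N →L[ℂ] Wn N)) ∧
      (∀ x ∈ O ∩ sphere (0 : En n) 1, U x = 1) ∧
      ∀ x ∈ ball (0 : En n) 1, ∀ i, A x i = star (U x) * pd U i x := by
  obtain ⟨S, hSA, hS, hS0⟩ := exists_setup g hg hpos A hA hskew
  obtain ⟨T, hT, hTΓ⟩ := exists_frame S A hSA inter_subset_right hne
    (fin_sec g A S hS hS0 hO h)
  obtain ⟨T', hT', hc, hu, hd⟩ := ext_cont hA hT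
  have hsm := ext_smooth hA hc hd
  obtain ⟨L, hL⟩ := fin_star_real N
  have hone : ∀ x ∈ O ∩ sphere (0 : En n) 1, T' x = 1 := by
    intro x hx
    have hxc : x ∈ closedBall (0 : En n) 1 := sphere_subset_closedBall hx.2
    have h1 : Tendsto T' (𝓝[ball (0 : En n) 1] x) (𝓝 (T' x)) :=
      (hc x hxc).mono_left (nhdsWithin_mono x ball_subset_closedBall)
    have h2 : Tendsto T' (𝓝[ball (0 : En n) 1] x) (𝓝 1) := by
      refine (hTΓ x hx).congr' ?_
      filter_upwards [self_mem_nhdsWithin] with y hy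
      exact (hT' y hy).symm
    have h3 : (𝓝[ball (0 : En n) 1] x).NeBot := by
      rw [← mem_closure_iff_nhdsWithin_neBot, closure_ball (0 : En n) one_ne_zero]
      exact hxc
    exact tendsto_nhds_unique h1 h2
  refine ⟨fun x => L (T' x), L.contDiff.comp_contDiffOn hsm, fun x hx => ?_, fun x hx => ?_,
    fun x hx i => ?_⟩
  · show L (T' x) ∈ unitary (Wn N →L[ℂ] Wn N)
    rw [hL]
    exact Unitary.star_mem (hu x hx)
  · show L (T' x) = 1
    rw [hL, hone x hx, star_one]
  · have hxc : x ∈ closedBall (0 : En n) 1 := ball_subset_closedBall hx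
    have h1 : HasFDerivAt T'
        (∑ i, (EuclideanSpace.proj i : En n →L[ℝ] ℝ).smulRight (-(A x i * T' x))) x :=
      (hd x hxc).hasFDerivAt (closedBall_mem_nhds_of_mem hx)
    have h2 : pd (fun x => L (T' x)) i x = L (-(A x i * T' x)) := by
      have h3 := (L.hasFDerivAt (x := T' x)).comp x h1
      have h4 : pd (fun x => L (T' x)) i x =
          (L.comp (∑ i, (EuclideanSpace.proj i : En n →L[ℝ] ℝ).smulRight (-(A x i * T' x))))
            (EuclideanSpace.single i (1 : ℝ)) := by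
        unfold pd
        have h5 : fderiv ℝ (fun x => L (T' x)) x =
            L.comp (∑ i, (EuclideanSpace.proj i : En n →L[ℝ] ℝ).smulRight (-(A x i * T' x))) :=
          h3.fderiv
        rw [h5]
      rw [h4, ContinuousLinearMap.comp_apply]
      congr 1
      rw [ContinuousLinearMap.sum_apply, Finset.sum_eq_single i]
      · simp
      · intro j _ hj
        simp [hj]
      · intro hi
        exact absurd (Finset.mem_univ i) hi
    show A x i = star (L (T' x)) * pd (fun x => L (T' x)) i x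
    have h6 : star (-(A x i * T' x)) = star (T' x) * A x i := by
      refine (star_neg (A x i * T' x)).trans ?_
      rw [star_mul, hskew x hxc i]
      exact (congrArg Neg.neg (mul_neg (star (T' x)) (A x i))).trans (neg_neg _)
    rw [h2, hL, hL, h6, star_star, ← mul_assoc, Unitary.mul_star_self_of_mem (hu x hxc), one_mul]

end P088
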