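import Vale.Agent.P088.FlatDefs

/-! Modules FLA, FLB, FLC.
FLA (S-M): `A' x i = V x * A x i * star (V x) - D i x * star (V x)` with
`D i x = fderivWithin ℝ V (closedBall 0 1) x (single i 1)` (smooth on the closed ball, `= pd V i x` in the ball).  Skew on the ball:
differentiate `V * star V = 1`; on the closed ball by continuity (`closure_ball`).
FLB (S-M): a.e. `u` is differentiable, product rule, `V` preserves the inner product; the values on the ball suffice.
FLC (M): the two sets of energies are equal: `u ↦` Lipschitz extension of `V u` from the closed ball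
(`LipschitzOnWith.extend_finite_dimension`; `V` and `u` are bounded and Lipschitz on the closed ball), and back with `star V`. -/

open MeasureTheory Metric Set Filter Topology
open scoped ContDiff InnerProductSpace

namespace P088

variable {n N : ℕ}

theorem FLA_norm_star (x : Wn N →L[ℂ] Wn N) : ‖star x‖ = ‖x‖ :=
  ContinuousLinearMap.adjoint.norm_map x

theorem FLA_star_add (x y : Wn N →L[ℂ] Wn N) : star (x + y) = star x + star y :=
  map_add ContinuousLinearMap.adjoint x y

theorem FLA_star_sub (x y : Wn N →L[ℂ] Wn N) : star (x - y) = star x - star y :=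
  map_sub ContinuousLinearMap.adjoint x y

theorem FLA_star_mul (x y : Wn N →L[ℂ] Wn N) : star (x * y) = star y * star x :=
  ContinuousLinearMap.adjoint_comp x y

theorem FLA_star_star (x : Wn N →L[ℂ] Wn N) : star (star x) = x :=
  ContinuousLinearMap.adjoint_adjoint x

theorem FLA_alg (X Y Z D : Wn N →L[ℂ] Wn N) :
    X * (-Y * Z) - -(D * Z) = -(X * Y * Z - D * Z) := by
  refine ContinuousLinearMap.ext fun w => ?_
  change X (-(Y (Z w))) - -(D (Z w)) = -(X (Y (Z w)) - D (Z w))
  rw [map_neg]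
  abel

theorem FLA_star_smul (r : ℝ) (x : Wn N →L[ℂ] Wn N) : star (r • x) = r • star x := by
  have h : (r : ℝ) • x = (r : ℂ) • x := rfl
  have h2 : (r : ℝ) • star x = (r : ℂ) • star x := rfl
  rw [h, h2]
  have h3 : star ((r : ℂ) • x) = star (r : ℂ) • star x := star_smul _ _
  rw [h3]
  have h4 : star (r : ℂ) = (r : ℂ) := Complex.conj_ofReal r
  rw [h4]

/-- the adjoint as a real linear map -/
noncomputable def FLA_star : (Wn N →L[ℂ] Wn N) →L[ℝ] (Wn N →L[ℂ] Wn N) :=
  LinearMap.mkContinuous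
    { toFun := fun x => star x, map_add' := FLA_star_add, map_smul' := FLA_star_smul } 1 (fun x => by
        rw [one_mul]
        exact (FLA_norm_star x).le)

theorem FLA_star_apply (x : Wn N →L[ℂ] Wn N) : FLA_star x = star x := rfl

theorem FLA_ud : UniqueDiffOn ℝ (closedBall (0 : En n) 1) :=
  uniqueDiffOn_convex (convex_closedBall (0 : En n) 1)
    ⟨0, ball_subset_interior_closedBall (mem_ball_self one_pos)⟩

theorem FLA_star_contDiffOn {V : En n → (Wn N →L[ℂ] Wn N)} {K : Set (En n)}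
    (hV : ContDiffOn ℝ ∞ V K) : ContDiffOn ℝ ∞ (fun x => star (V x)) K :=
  FLA_star.contDiff.comp_contDiffOn hV

theorem FLA_key {V : En n → (Wn N →L[ℂ] Wn N)} (hV : ContDiffOn ℝ ∞ V (closedBall (0 : En n) 1))
    (hVu : ∀ x ∈ closedBall (0 : En n) 1, V x ∈ unitary (Wn N →L[ℂ] Wn N)) {x : En n}
    (hx : x ∈ closedBall (0 : En n) 1) (v : En n) :
    V x * star (fderivWithin ℝ V (closedBall (0 : En n) 1) x v) +
      fderivWithin ℝ V (closedBall (0 : En n) 1) x v * star (V x) = 0 := by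
  have h1 : HasFDerivWithinAt V (fderivWithin ℝ V (closedBall (0 : En n) 1) x)
      (closedBall (0 : En n) 1) x :=
    ((hV x hx).differentiableWithinAt (by simp)).hasFDerivWithinAt
  have h2 : HasFDerivWithinAt (fun y => star (V y))
      (FLA_star.comp (fderivWithin ℝ V (closedBall (0 : En n) 1) x)) (closedBall (0 : En n) 1) x :=
    FLA_star.hasFDerivAt.comp_hasFDerivWithinAt x h1
  have h3 := h1.mul' h2
  have h4 : HasFDerivWithinAt (fun y => V y * star (V y)) (0 : En n →L[ℝ] (Wn N →L[ℂ] Wn N))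
      (closedBall (0 : En n) 1) x := by
    refine (hasFDerivWithinAt_const (1 : Wn N →L[ℂ] Wn N) x _).congr (fun y hy => ?_) ?_
    · exact (Unitary.mem_iff.1 (hVu y hy)).2
    · exact (Unitary.mem_iff.1 (hVu x hx)).2
  have h5 := (FLA_ud x hx).eq h3 h4
  have h6 := congrArg (fun L => L v) h5
  exact h6

/-- FLA -/
theorem flat_conn {A : En n → Fin n → (Wn N →L[ℂ] Wn N)}
    (hA : ∀ i, ContDiffOn ℝ ∞ (fun x => A x i) (closedBall (0 : En n) 1))
    (hskew : ∀ x ∈ closedBall (0 : En n) 1, ∀ i, star (A x i) = - A x i)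
    {V : En n → (Wn N →L[ℂ] Wn N)} (hV : ContDiffOn ℝ ∞ V (closedBall (0 : En n) 1))
    (hVu : ∀ x ∈ closedBall (0 : En n) 1, V x ∈ unitary (Wn N →L[ℂ] Wn N)) :
    ∃ A' : En n → Fin n → (Wn N →L[ℂ] Wn N),
      (∀ i, ContDiffOn ℝ ∞ (fun x => A' x i) (closedBall (0 : En n) 1)) ∧
      (∀ x ∈ closedBall (0 : En n) 1, ∀ i, star (A' x i) = - A' x i) ∧
      ∀ x ∈ ball (0 : En n) 1, ∀ i, A' x i = V x * A x i * star (V x) - pd V i x * star (V x) := by
  have hD : ∀ i : Fin n, ContDiffOn ℝ ∞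
      (fun x => fderivWithin ℝ V (closedBall (0 : En n) 1) x (EuclideanSpace.single i (1 : ℝ)))
      (closedBall (0 : En n) 1) := fun i =>
    (hV.fderivWithin FLA_ud (by simp)).clm_apply contDiffOn_const
  refine ⟨fun x i => V x * A x i * star (V x) -
    fderivWithin ℝ V (closedBall (0 : En n) 1) x (EuclideanSpace.single i (1 : ℝ)) * star (V x),
    fun i => ?_, fun x hx i => ?_, fun x hx i => ?_⟩
  · exact ((hV.mul (hA i)).mul (FLA_star_contDiffOn hV)).sub ((hD i).mul (FLA_star_contDiffOn hV))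
  · have h1 := FLA_key hV hVu hx (EuclideanSpace.single i (1 : ℝ))
    have h2 := eq_neg_of_add_eq_zero_left h1
    beta_reduce
    rw [FLA_star_sub, FLA_star_mul, FLA_star_mul, FLA_star_mul, FLA_star_star, hskew x hx i, h2]
    exact FLA_alg _ _ _ _
  · have h1 : fderivWithin ℝ V (closedBall (0 : En n) 1) x = fderiv ℝ V x :=
      fderivWithin_of_mem_nhds (mem_of_superset (isOpen_ball.mem_nhds hx) ball_subset_closedBall)
    change V x * A x i * star (V x) - fderivWithin ℝ V (closedBall (0 : En n) 1) x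
      (EuclideanSpace.single i (1 : ℝ)) * star (V x) = _
    rw [h1]
    rfl

theorem FLB_pd {V : En n → (Wn N →L[ℂ] Wn N)} {u u' : En n → Wn N} {x : En n}
    (hVd : DifferentiableAt ℝ V x) (hud : DifferentiableAt ℝ u x)
    (huu : u' =ᶠ[𝓝 x] fun y => V y (u y)) (i : Fin n) :
    pd u' i x = V x (pd u i x) + (pd V i x) (u x) := by
  unfold pd
  rw [huu.fderiv_eq]
  have h1 : HasFDerivAt (fun y => (ContinuousLinearMap.restrictScalarsL ℂ (Wn N) (Wn N) ℝ ℝ) (V y))
      ((ContinuousLinearMap.restrictScalarsL ℂ (Wn N) (Wn N) ℝ ℝ).comp (fderiv ℝ V x)) x :=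
    (ContinuousLinearMap.restrictScalarsL ℂ (Wn N) (Wn N) ℝ ℝ).hasFDerivAt.comp x hVd.hasFDerivAt
  have h2 := h1.clm_apply hud.hasFDerivAt
  have h3 : fderiv ℝ (fun y => V y (u y)) x = _ := h2.fderiv
  rw [h3]
  rfl

/-- FLB -/
theorem flat_energy (g : En n → Matrix (Fin n) (Fin n) ℝ)
    {A A' : En n → Fin n → (Wn N →L[ℂ] Wn N)}
    {V : En n → (Wn N →L[ℂ] Wn N)} (hV : ContDiffOn ℝ ∞ V (closedBall (0 : En n) 1))
    (hVu : ∀ x ∈ closedBall (0 : En n) 1, V x ∈ unitary (Wn N →L[ℂ] Wn N))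
    (hA' : ∀ x ∈ ball (0 : En n) 1, ∀ i,
      A' x i = V x * A x i * star (V x) - pd V i x * star (V x))
    {u u' : En n → Wn N} (hu : IsLip u) (huu : ∀ x ∈ ball (0 : En n) 1, u' x = V x (u x)) :
    energy g A' u' = energy g A u := by
  obtain ⟨K, hK⟩ := hu
  unfold energy
  refine setIntegral_congr_ae measurableSet_ball ?_
  filter_upwards [hK.ae_differentiableAt] with x hud hx
  have hxn : closedBall (0 : En n) 1 ∈ 𝓝 x :=
    mem_of_superset (isOpen_ball.mem_nhds hx) ball_subset_closedBall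
  have hVd : DifferentiableAt ℝ V x :=
    ((hV.contDiffAt hxn).differentiableAt (by simp))
  have hev : u' =ᶠ[𝓝 x] fun y => V y (u y) := by
    filter_upwards [isOpen_ball.mem_nhds hx] with y hy
    exact huu y hy
  have hVx := hVu x (ball_subset_closedBall hx)
  have hsV : ∀ y : Wn N, (star (V x)) (V x y) = y := by
    intro y
    have h1 := (Unitary.mem_iff.1 hVx).1
    exact congrArg (fun (B : Wn N →L[ℂ] Wn N) => B y) h1
  have hin : ∀ y z : Wn N, (inner ℂ (V x y) (V x z) : ℂ) = inner ℂ y z := by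
    intro y z
    rw [← ContinuousLinearMap.adjoint_inner_right, ← ContinuousLinearMap.star_eq_adjoint, hsV]
  have hcd : ∀ i, pd u' i x + A' x i (u' x) = V x (pd u i x + A x i (u x)) := by
    intro i
    rw [FLB_pd hVd hud hev i, hA' x hx i, huu x hx]
    have h2 : (V x * A x i * star (V x) - pd V i x * star (V x)) (V x (u x)) =
        V x (A x i (u x)) - (pd V i x) (u x) := by
      rw [sub_apply]
      have e1 : (V x * A x i * star (V x)) (V x (u x)) = V x (A x i ((star (V x)) (V x (u x)))) := rfl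
      have e2 : (pd V i x * star (V x)) (V x (u x)) = (pd V i x) ((star (V x)) (V x (u x))) := rfl
      rw [e1, e2, hsV]
    rw [h2, map_add]
    abel
  simp only [hcd, hin]

private theorem FLC0_lipV {V : En n → (Wn N →L[ℂ] Wn N)}
    (hV : ContDiffOn ℝ ∞ V (closedBall (0 : En n) 1)) :
    ∃ K : NNReal, LipschitzOnWith K V (closedBall (0 : En n) 1) := by
  have hu : UniqueDiffOn ℝ (closedBall (0 : En n) 1) := by
    refine uniqueDiffOn_convex (convex_closedBall (0 : En n) 1) ⟨0, ?_⟩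
    exact ball_subset_interior_closedBall (mem_ball_self one_pos)
  have hV1 : ContDiffOn ℝ 1 V (closedBall (0 : En n) 1) := hV.of_le (by exact_mod_cast le_top)
  have hc : ContinuousOn (fun x => fderivWithin ℝ V (closedBall (0 : En n) 1) x)
      (closedBall (0 : En n) 1) := hV1.continuousOn_fderivWithin hu (by norm_num)
  obtain ⟨C, hC⟩ := (isCompact_closedBall (0 : En n) 1).exists_bound_of_continuousOn
    (E := En n →L[ℝ] (Wn N →L[ℂ] Wn N)) hc
  refine ⟨Real.toNNReal C, ?_⟩
  refine Convex.lipschitzOnWith_of_nnnorm_fderivWithin_le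
    (hV1.differentiableOn (by norm_num)) (fun x hx => ?_) (convex_closedBall (0 : En n) 1)
  rw [← NNReal.coe_le_coe, coe_nnnorm]
  exact (hC x hx).trans (Real.le_coe_toNNReal C)

/-- FLC0: Lipschitz extension of `V u` -/
theorem flat_lip {V : En n → (Wn N →L[ℂ] Wn N)}
    (hV : ContDiffOn ℝ ∞ V (closedBall (0 : En n) 1)) {u : En n → Wn N} (hu : IsLip u) :
    ∃ u' : En n → Wn N, IsLip u' ∧ ∀ x ∈ closedBall (0 : En n) 1, u' x = V x (u x) := by
  obtain ⟨K, hK⟩ := FLC0_lipV hV
  obtain ⟨Ku, hKu⟩ := hu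
  obtain ⟨MV, hMV⟩ := (isCompact_closedBall (0 : En n) 1).exists_bound_of_continuousOn
    hV.continuousOn
  obtain ⟨Mu, hMu⟩ := (isCompact_closedBall (0 : En n) 1).exists_bound_of_continuousOn
    hKu.continuous.continuousOn
  have hMV0 : 0 ≤ MV := (norm_nonneg _).trans (hMV 0 (mem_closedBall_self zero_le_one))
  have hMu0 : 0 ≤ Mu := (norm_nonneg _).trans (hMu 0 (mem_closedBall_self zero_le_one))
  have hlip : LipschitzOnWith (K * Mu.toNNReal + MV.toNNReal * Ku) (fun x => V x (u x))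
      (closedBall (0 : En n) 1) := by
    refine LipschitzOnWith.of_dist_le_mul fun x hx y hy => ?_
    have h1 : V x (u x) - V y (u y) = (V x - V y) (u x) + V y (u x - u y) := by
      rw [_root_.sub_apply, map_sub]
      abel
    rw [dist_eq_norm, h1]
    refine (norm_add_le _ _).trans ?_
    have h2 : ‖(V x - V y) (u x)‖ ≤ (K * dist x y) * Mu := by
      refine ((V x - V y).le_opNorm (u x)).trans ?_
      refine mul_le_mul ?_ (hMu x hx) (norm_nonneg _) (by positivity)
      rw [← dist_eq_norm]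
      exact hK.dist_le_mul x hx y hy
    have h3 : ‖V y (u x - u y)‖ ≤ MV * (Ku * dist x y) := by
      refine ((V y).le_opNorm _).trans ?_
      refine mul_le_mul (hMV y hy) ?_ (norm_nonneg _) hMV0
      rw [← dist_eq_norm]
      exact hKu.dist_le_mul x y
    refine (add_le_add h2 h3).trans (le_of_eq ?_)
    push_cast
    rw [Real.coe_toNNReal _ hMu0, Real.coe_toNNReal _ hMV0]
    ring
  obtain ⟨g, hg1, hg2⟩ := hlip.extend_finite_dimension
  exact ⟨g, ⟨_, hg1⟩, fun x hx => (hg2 hx).symm⟩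

/-- FLC -/
theorem flat_Q (g : En n → Matrix (Fin n) (Fin n) ℝ)
    {A A' : En n → Fin n → (Wn N →L[ℂ] Wn N)}
    {V : En n → (Wn N →L[ℂ] Wn N)} (hV : ContDiffOn ℝ ∞ V (closedBall (0 : En n) 1))
    (hVu : ∀ x ∈ closedBall (0 : En n) 1, V x ∈ unitary (Wn N →L[ℂ] Wn N))
    (hA' : ∀ x ∈ ball (0 : En n) 1, ∀ i,
      A' x i = V x * A x i * star (V x) - pd V i x * star (V x))
    {f h : En n → Wn N} (hfh : ∀ x ∈ sphere (0 : En n) 1, h x = V x (f x)) :
    Q g A' h = Q g A f := by
  have hsV : ContDiffOn ℝ ∞ (fun x => star (V x)) (closedBall (0 : En n) 1) := by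
    have h1 : ContDiff ℝ ∞ (fun T : Wn N →L[ℂ] Wn N => star T) :=
      (starL' ℝ : (Wn N →L[ℂ] Wn N) ≃L[ℝ] (Wn N →L[ℂ] Wn N)).contDiff
    exact h1.comp_contDiffOn hV
  have hsub : sphere (0 : En n) 1 ⊆ closedBall (0 : En n) 1 := sphere_subset_closedBall
  have hbs : ball (0 : En n) 1 ⊆ closedBall (0 : En n) 1 := ball_subset_closedBall
  have e1 : ∀ x ∈ closedBall (0 : En n) 1, ∀ w, V x (star (V x) w) = w := by
    intro x hx w
    have h1 : V x * star (V x) = 1 := (hVu x hx).2
    have h2 := congrArg (fun T : Wn N →L[ℂ] Wn N => T w) h1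
    exact h2
  have e2 : ∀ x ∈ closedBall (0 : En n) 1, ∀ w, star (V x) (V x w) = w := by
    intro x hx w
    have h1 : star (V x) * V x = 1 := (hVu x hx).1
    have h2 := congrArg (fun T : Wn N →L[ℂ] Wn N => T w) h1
    exact h2
  unfold Q
  refine congrArg sInf ?_
  ext e
  constructor
  · rintro ⟨u', hu', hu'h, rfl⟩
    obtain ⟨u, hu, huu⟩ := flat_lip hsV hu'
    refine ⟨u, hu, fun x hx => ?_, ?_⟩
    · rw [huu x (hsub hx), hu'h x hx, hfh x hx, e2 x (hsub hx)]
    · refine flat_energy g hV hVu hA' hu fun x hx => ?_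
      rw [huu x (hbs hx), e1 x (hbs hx)]
  · rintro ⟨u, hu, huf, rfl⟩
    obtain ⟨u', hu', huu⟩ := flat_lip hV hu
    refine ⟨u', hu', fun x hx => ?_, ?_⟩
    · rw [huu x (hsub hx), huf x hx, hfh x hx]
    · exact (flat_energy g hV hVu hA' hu fun x hx => huu x (hbs hx)).symm

end P088
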