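import Vale.Agent.P088.Defs

/-! Flat reference connections.  `A₁ = V* dV` on the ball (`V` smooth unitary on the closed ball).  For another connection `A` put
`A' = V A V* - dV V*`: `V (d_A u) = d_{A'} (V u)`, so `energy g A u = energy g A' (V u)` and `A₁' = 0` on the ball. -/

open MeasureTheory Metric Set Filter Topology
open scoped ContDiff InnerProductSpace

namespace P088

/-- `f` restricts to an element of `C_c^∞(Γ; ℂᴺ)`; `f` is smooth on the closed ball -/
def BDc {n N : ℕ} (Γ : Set (En n)) (f : En n → Wn N) : Prop :=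
  ContDiffOn ℝ ∞ f (closedBall (0 : En n) 1) ∧
    closure {x | x ∈ sphere (0 : En n) 1 ∧ f x ≠ 0} ⊆ Γ

end P088
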