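import Vale.Agent.P088.Final
import Vale.Agent.P088.FlatA

/-! Module FLD (M): from `diamagnetic_rigidity` for `A'` (hypothesis: for `h ∈ BD Γ`, `f = star V h ∈ BDc Γ`,
`Q g A' h = Q g A₂ f = Q g A₁ f = Q g 0 h`, the last by `flat_Q` with `A' = 0`), `A' = star U' * dU'`.  Put `U = star V * U' * V`. -/

open MeasureTheory Metric Set Filter Topology
open scoped ContDiff InnerProductSpace

namespace P088

variable {n N : ℕ}

theorem FLD0_line {W : Type*} [NormedAddCommGroup W] [NormedSpace ℝ W] {f : En n → W} {x : En n}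
    (hf : DifferentiableAt ℝ f x) (i : Fin n) :
    HasDerivAt (fun t : ℝ => f (x + t • EuclideanSpace.single i (1 : ℝ))) (pd f i x) 0 := by
  have h1 : HasDerivAt (fun t : ℝ => x + t • EuclideanSpace.single i (1 : ℝ))
      (EuclideanSpace.single i (1 : ℝ)) 0 := by
    have h2 := ((hasDerivAt_id (0 : ℝ)).smul_const (EuclideanSpace.single i (1 : ℝ))).const_add x
    rw [one_smul] at h2
    exact h2
  have h3 : HasFDerivAt f (fderiv ℝ f x) (x + (0 : ℝ) • EuclideanSpace.single i (1 : ℝ)) := by
    rw [zero_smul, add_zero]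
    exact hf.hasFDerivAt
  exact h3.comp_hasDerivAt 0 h1

/-- FLD0: the algebra of the gauge transformations at a point of the ball -/
theorem flat_gauge {A₁ A₂ : En n → Fin n → (Wn N →L[ℂ] Wn N)}
    {V U' : En n → (Wn N →L[ℂ] Wn N)} {x : En n} (hx : x ∈ ball (0 : En n) 1)
    (hV : ContDiffOn ℝ ∞ V (closedBall (0 : En n) 1))
    (hVu : ∀ x ∈ closedBall (0 : En n) 1, V x ∈ unitary (Wn N →L[ℂ] Wn N))
    (hU : ContDiffOn ℝ ∞ U' (closedBall (0 : En n) 1))
    (hUu : ∀ x ∈ closedBall (0 : En n) 1, U' x ∈ unitary (Wn N →L[ℂ] Wn N)) (i : Fin n)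
    (hA₁ : A₁ x i = star (V x) * pd V i x)
    (hA₂ : V x * A₂ x i * star (V x) - pd V i x * star (V x) = star (U' x) * pd U' i x) :
    A₂ x i = star (star (V x) * U' x * V x) * A₁ x i * (star (V x) * U' x * V x) +
      star (star (V x) * U' x * V x) * pd (fun x => star (V x) * U' x * V x) i x := by
  have hxn : closedBall (0 : En n) 1 ∈ 𝓝 x :=
    mem_of_superset (isOpen_ball.mem_nhds hx) ball_subset_closedBall
  have hxc : x ∈ closedBall (0 : En n) 1 := ball_subset_closedBall hx
  have hVd : DifferentiableAt ℝ V x := (hV.contDiffAt hxn).differentiableAt (by simp)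
  have hUd : DifferentiableAt ℝ U' x := (hU.contDiffAt hxn).differentiableAt (by simp)
  have hV1 : star (V x) * V x = 1 := (hVu x hxc).1
  have hV2 : V x * star (V x) = 1 := (hVu x hxc).2
  have hU1 : star (U' x) * U' x = 1 := (hUu x hxc).1
  have h1 := FLD0_line hVd i
  have h2 := FLD0_line hUd i
  have hx0 : x + (0 : ℝ) • EuclideanSpace.single i (1 : ℝ) = x := by rw [zero_smul, add_zero]
  -- derivative of `V star V = 1`
  have h3 : pd V i x * star (V x) + V x * star (pd V i x) = 0 := by
    have h4 := h1.fun_mul h1.star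
    have h5 : HasDerivAt (fun t : ℝ => V (x + t • EuclideanSpace.single i (1 : ℝ))
        * star (V (x + t • EuclideanSpace.single i (1 : ℝ)))) 0 0 := by
      refine (hasDerivAt_const (0 : ℝ) (1 : Wn N →L[ℂ] Wn N)).congr_of_eventuallyEq ?_
      have hc : ContinuousAt (fun t : ℝ => x + t • EuclideanSpace.single i (1 : ℝ)) 0 := by
        fun_prop
      have h6 : ∀ᶠ t in 𝓝 (0 : ℝ), x + t • EuclideanSpace.single i (1 : ℝ) ∈ closedBall (0 : En n) 1 := by
        refine hc.eventually_mem ?_
        rw [hx0]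
        exact hxn
      filter_upwards [h6] with t ht
      exact (hVu _ ht).2
    have h6 := h4.unique h5
    simp only [hx0] at h6
    exact h6
  -- derivative of the product
  have h4 : pd (fun x => star (V x) * U' x * V x) i x
      = (star (pd V i x) * U' x + star (V x) * pd U' i x) * V x + star (V x) * U' x * pd V i x := by
    have h5 := (h1.star.fun_mul h2).fun_mul h1
    have hVs : DifferentiableAt ℝ (fun x => star (V x)) x := hVd.star
    have h6 := FLD0_line ((hVs.fun_mul hUd).fun_mul hVd) i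
    have h7 := h6.unique h5
    simp only [hx0] at h7
    exact h7
  have h5 : A₂ x i = star (V x) * star (U' x) * pd U' i x * V x + star (V x) * pd V i x := by
    have h6 : V x * A₂ x i * star (V x) = star (U' x) * pd U' i x + pd V i x * star (V x) := by
      rw [← hA₂]
      abel
    calc A₂ x i = (star (V x) * V x) * A₂ x i * (star (V x) * V x) := by
          rw [hV1, one_mul, mul_one]
      _ = star (V x) * (V x * A₂ x i * star (V x)) * V x := by noncomm_ring
      _ = star (V x) * star (U' x) * pd U' i x * V x + star (V x) * pd V i x * (star (V x) * V x) := by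
          rw [h6]
          noncomm_ring
      _ = _ := by rw [hV1, mul_one]
  have h6 : star (star (V x) * U' x * V x) = star (V x) * star (U' x) * V x := by
    rw [star_mul, star_mul, star_star]
    noncomm_ring
  rw [h6, hA₁, h4, h5]
  symm
  calc star (V x) * star (U' x) * V x * (star (V x) * pd V i x) * (star (V x) * U' x * V x)
        + star (V x) * star (U' x) * V x
          * ((star (pd V i x) * U' x + star (V x) * pd U' i x) * V x + star (V x) * U' x * pd V i x)
      = star (V x) * star (U' x) * ((V x * star (V x)) * (pd V i x * star (V x))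
            + V x * star (pd V i x)) * U' x * V x
          + star (V x) * star (U' x) * (V x * star (V x)) * pd U' i x * V x
          + star (V x) * star (U' x) * (V x * star (V x)) * U' x * pd V i x := by noncomm_ring
    _ = star (V x) * star (U' x) * pd U' i x * V x
          + star (V x) * (star (U' x) * U' x) * pd V i x := by
        rw [hV2, one_mul, h3]
        noncomm_ring
    _ = _ := by rw [hU1, mul_one]

private theorem FLD_mul : IsBoundedBilinearMap ℝ
    (fun p : (Wn N →L[ℂ] Wn N) × (Wn N →L[ℂ] Wn N) => p.1 * p.2) where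
  add_left x y z := add_mul x y z
  smul_left c x y := by
    ext v
    simp
  add_right x y z := mul_add x y z
  smul_right c x y := by
    ext v
    simp
  bound := ⟨1, one_pos, fun x y => by
    rw [one_mul]
    exact norm_mul_le x y⟩

private theorem FLD_app : IsBoundedBilinearMap ℝ
    (fun p : (Wn N →L[ℂ] Wn N) × Wn N => p.1 p.2) where
  add_left x y z := rfl
  smul_left c x y := rfl
  add_right x y z := map_add x y z
  smul_right c x y := by
    simp
  bound := ⟨1, one_pos, fun x y => by
    rw [one_mul]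
    exact x.le_opNorm y⟩

theorem flat_rigidity (g : En n → Matrix (Fin n) (Fin n) ℝ)
    (hg : ∀ i j, ContDiffOn ℝ ∞ (fun x => g x i j) (closedBall (0 : En n) 1))
    (hpos : ∀ x ∈ closedBall (0 : En n) 1, (g x).PosDef)
    (A₁ A₂ : En n → Fin n → (Wn N →L[ℂ] Wn N))
    (hA₂ : ∀ i, ContDiffOn ℝ ∞ (fun x => A₂ x i) (closedBall (0 : En n) 1))
    (hskew₂ : ∀ x ∈ closedBall (0 : En n) 1, ∀ i, star (A₂ x i) = - A₂ x i)
    (V : En n → (Wn N →L[ℂ] Wn N)) (hV : ContDiffOn ℝ ∞ V (closedBall (0 : En n) 1))
    (hVu : ∀ x ∈ closedBall (0 : En n) 1, V x ∈ unitary (Wn N →L[ℂ] Wn N))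
    (hA₁ : ∀ x ∈ ball (0 : En n) 1, ∀ i, A₁ x i = star (V x) * pd V i x)
    {O : Set (En n)} (hO : IsOpen O) (hne : (O ∩ sphere (0 : En n) 1).Nonempty)
    (h : ∀ f : En n → Wn N, BDc (O ∩ sphere (0 : En n) 1) f → Q g A₁ f = Q g A₂ f) :
    ∃ U : En n → (Wn N →L[ℂ] Wn N), ContDiffOn ℝ ∞ U (closedBall (0 : En n) 1) ∧
      (∀ x ∈ closedBall (0 : En n) 1, U x ∈ unitary (Wn N →L[ℂ] Wn N)) ∧
      (∀ x ∈ O ∩ sphere (0 : En n) 1, U x = 1) ∧
      ∀ x ∈ ball (0 : En n) 1, ∀ i,
        A₂ x i = star (U x) * A₁ x i * U x + star (U x) * pd U i x := by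
  obtain ⟨L, hL⟩ := fin_star_real N
  obtain ⟨A', hA', hskew', hform⟩ := flat_conn hA₂ hskew₂ hV hVu
  have hstar : ContDiffOn ℝ ∞ (fun x => star (V x)) (closedBall (0 : En n) 1) := by
    have h1 : ContDiffOn ℝ ∞ (fun x => L (V x)) (closedBall (0 : En n) 1) :=
      L.contDiff.comp_contDiffOn hV
    refine h1.congr fun x _ => ?_
    exact (hL (V x)).symm
  have hVV : ∀ x ∈ closedBall (0 : En n) 1, V x * star (V x) = 1 := fun x hx =>
    Unitary.mul_star_self_of_mem (hVu x hx)
  have hVV' : ∀ x ∈ closedBall (0 : En n) 1, star (V x) * V x = 1 := fun x hx =>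
    Unitary.star_mul_self_of_mem (hVu x hx)
  have hkey : ∀ f : En n → Wn N, BD (O ∩ sphere (0 : En n) 1) f →
      Q g A' f = Q g (fun _ _ => 0) f := by
    intro f hf
    have hbd : BDc (O ∩ sphere (0 : En n) 1) (fun x => star (V x) (f x)) := by
      refine ⟨?_, ?_⟩
      · exact FLD_app.contDiff.comp_contDiffOn (hstar.prodMk hf.1.contDiffOn)
      · refine Set.Subset.trans (closure_mono ?_) hf.2
        rintro x ⟨hx1, hx2⟩
        refine ⟨hx1, fun h0 => hx2 ?_⟩
        show star (V x) (f x) = 0
        rw [h0, map_zero]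
    have hfh : ∀ x ∈ sphere (0 : En n) 1, f x = V x (star (V x) (f x)) := by
      intro x hx
      have h1 := hVV x (sphere_subset_closedBall hx)
      have h2 : (V x * star (V x)) (f x) = V x (star (V x) (f x)) := rfl
      rw [← h2, h1]
      rfl
    have e1 : Q g A' f = Q g A₂ (fun x => star (V x) (f x)) :=
      flat_Q g hV hVu hform hfh
    have e2 : Q g (fun _ _ => 0) f = Q g A₁ (fun x => star (V x) (f x)) := by
      refine flat_Q g hV hVu (fun x hx i => ?_) hfh
      have h1 := hVV x (ball_subset_closedBall hx)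
      rw [hA₁ x hx i, ← mul_assoc (V x) (star (V x)), h1, one_mul]
      exact (sub_self _).symm
    rw [e1, e2, h _ hbd]
  obtain ⟨U', hU1, hU2, hU3, hU4⟩ := diamagnetic_rigidity g hg hpos A' hA' hskew' hO hne hkey
  refine ⟨fun x => star (V x) * U' x * V x, ?_, ?_, ?_, ?_⟩
  · have h1 : ContDiffOn ℝ ∞ (fun x => star (V x) * U' x) (closedBall (0 : En n) 1) :=
      FLD_mul.contDiff.comp_contDiffOn (hstar.prodMk hU1)
    exact FLD_mul.contDiff.comp_contDiffOn (h1.prodMk hV)
  · intro x hx
    exact mul_mem (mul_mem (Unitary.star_mem (hVu x hx)) (hU2 x hx)) (hVu x hx)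
  · intro x hx
    show star (V x) * U' x * V x = 1
    rw [hU3 x hx, mul_one]
    exact hVV' x (sphere_subset_closedBall hx.2)
  · intro x hx i
    refine flat_gauge hx hV hVu hU1 hU2 i (hA₁ x hx i) ?_
    rw [← hform x hx i]
    exact hU4 x hx i

end P088
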