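import Vale.Agent.P088.Defs

/-! Module FORM (S): pointwise linear algebra.  `gq_lo, gq_up`: expand in a (real) orthonormal basis of `X`
(`stdOrthonormalBasis ℝ X`) and apply `G_lo`, `G_up` to every coordinate. -/

open MeasureTheory Metric Set Filter Topology
open scoped ContDiff InnerProductSpace

namespace P088

variable {n : ℕ} {W : Type*} [NormedAddCommGroup W] [InnerProductSpace ℝ W]
  {X : Type*} [NormedAddCommGroup X] [InnerProductSpace ℝ X] [FiniteDimensional ℝ X]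

theorem FORM_exp (η : Fin n → X) : ∃ (d : ℕ) (c : Fin n → Fin d → ℝ),
    ∀ i j, ⟪η i, η j⟫_ℝ = ∑ k, c i k * c j k := by
  refine ⟨_, fun i k => ⟪η i, stdOrthonormalBasis ℝ X k⟫_ℝ, fun i j => ?_⟩
  rw [← (stdOrthonormalBasis ℝ X).sum_inner_mul_inner (η i) (η j)]
  exact Finset.sum_congr rfl fun k _ => congrArg _ (real_inner_comm _ _)

theorem FORM_gq (G : Fin n → Fin n → ℝ) {η : Fin n → X} {d : ℕ} {c : Fin n → Fin d → ℝ}
    (h : ∀ i j, ⟪η i, η j⟫_ℝ = ∑ k, c i k * c j k) :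
    gq G η = ∑ k, ∑ i, ∑ j, G i j * (c i k * c j k) := by
  unfold gq
  rw [Finset.sum_comm]
  have h1 : ∀ j, ∑ i, G i j * ⟪η i, η j⟫_ℝ = ∑ k, ∑ i, G i j * (c i k * c j k) := by
    intro j
    rw [Finset.sum_comm]
    refine Finset.sum_congr rfl fun i _ => ?_
    rw [h, Finset.mul_sum]
  rw [Finset.sum_congr rfl fun j _ => h1 j, Finset.sum_comm]
  refine Finset.sum_congr rfl fun k _ => ?_
  rw [Finset.sum_comm]

theorem FORM_norm {η : Fin n → X} {d : ℕ} {c : Fin n → Fin d → ℝ}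
    (h : ∀ i j, ⟪η i, η j⟫_ℝ = ∑ k, c i k * c j k) (r : ℝ) :
    r * ∑ i, ‖η i‖ ^ 2 = ∑ k, r * ∑ i, c i k ^ 2 := by
  rw [← Finset.mul_sum, Finset.sum_comm]
  refine congrArg _ (Finset.sum_congr rfl fun i _ => ?_)
  rw [← real_inner_self_eq_norm_sq, h]
  exact Finset.sum_congr rfl fun k _ => (sq _).symm

theorem gq_lo (S : Setup n W) (x : En n) (η : Fin n → X) :
    S.lam * ∑ i, ‖η i‖ ^ 2 ≤ gq (S.G x) η := by
  obtain ⟨d, c, h⟩ := FORM_exp η
  rw [FORM_gq _ h, FORM_norm h]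
  exact Finset.sum_le_sum fun k _ => S.G_lo x fun i => c i k

theorem gq_up (S : Setup n W) (x : En n) (η : Fin n → X) :
    gq (S.G x) η ≤ S.Lam * ∑ i, ‖η i‖ ^ 2 := by
  obtain ⟨d, c, h⟩ := FORM_exp η
  rw [FORM_gq _ h, FORM_norm h]
  exact Finset.sum_le_sum fun k _ => S.G_up x fun i => c i k

theorem gq_nonneg (S : Setup n W) (x : En n) (η : Fin n → X) : 0 ≤ gq (S.G x) η :=
  (mul_nonneg S.lam_pos.le (Finset.sum_nonneg fun _ _ => sq_nonneg _)).trans (gq_lo S x η)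

theorem gq_add_smul (S : Setup n W) (x : En n) (η ζ : Fin n → X) (t : ℝ) :
    gq (S.G x) (fun i => η i + t • ζ i) =
      gq (S.G x) η + 2 * t * gb (S.G x) η ζ + t ^ 2 * gq (S.G x) ζ := by
  have h1 : ∑ i, ∑ j, S.G x i j * ⟪ζ i, η j⟫_ℝ = gb (S.G x) η ζ := by
    unfold gb
    rw [Finset.sum_comm]
    refine Finset.sum_congr rfl fun i _ => Finset.sum_congr rfl fun j _ => ?_
    rw [S.G_symm x j i, real_inner_comm]
  have h2 : 2 * t * gb (S.G x) η ζ = t * gb (S.G x) η ζ +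
      t * ∑ i, ∑ j, S.G x i j * ⟪ζ i, η j⟫_ℝ := by
    rw [h1]
    ring
  rw [h2]
  unfold gq gb
  simp only [Finset.mul_sum, ← Finset.sum_add_distrib]
  refine Finset.sum_congr rfl fun i _ => Finset.sum_congr rfl fun j _ => ?_
  rw [inner_add_left, inner_add_right, inner_add_right, real_inner_smul_left,
    real_inner_smul_left, real_inner_smul_right, real_inner_smul_right]
  ring

theorem gq_smul (G : Fin n → Fin n → ℝ) (η : Fin n → X) (t : ℝ) :
    gq G (fun i => t • η i) = t ^ 2 * gq G η := by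
  unfold gq
  simp only [Finset.mul_sum]
  refine Finset.sum_congr rfl fun i _ => Finset.sum_congr rfl fun j _ => ?_
  rw [real_inner_smul_left, real_inner_smul_right]
  ring

/-- from `0 ≤ gq (t η ± ζ)` -/
theorem gb_le (S : Setup n W) (x : En n) (η ζ : Fin n → X) {t : ℝ} (ht : 0 < t) :
    2 * |gb (S.G x) η ζ| ≤ t * gq (S.G x) η + t⁻¹ * gq (S.G x) ζ := by
  have h1 := gq_nonneg S x fun i => η i + t⁻¹ • ζ i
  have h2 := gq_nonneg S x fun i => η i + (-t⁻¹) • ζ i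
  rw [gq_add_smul] at h1 h2
  have h3 := mul_nonneg ht.le h1
  have h4 := mul_nonneg ht.le h2
  have ht0 : t ≠ 0 := ht.ne'
  have h5 : t * (gq (S.G x) η + 2 * t⁻¹ * gb (S.G x) η ζ + t⁻¹ ^ 2 * gq (S.G x) ζ) =
      t * gq (S.G x) η + 2 * gb (S.G x) η ζ + t⁻¹ * gq (S.G x) ζ := by
    field_simp
  have h6 : t * (gq (S.G x) η + 2 * -t⁻¹ * gb (S.G x) η ζ + (-t⁻¹) ^ 2 * gq (S.G x) ζ) =
      t * gq (S.G x) η - 2 * gb (S.G x) η ζ + t⁻¹ * gq (S.G x) ζ := by
    field_simp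
    ring
  rw [h5] at h3
  rw [h6] at h4
  have h7 : |2 * gb (S.G x) η ζ| ≤ t * gq (S.G x) η + t⁻¹ * gq (S.G x) ζ := by
    rw [abs_le]
    constructor <;> linarith
  rwa [abs_mul, abs_of_pos (by norm_num : (0:ℝ) < 2)] at h7

end P088
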