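import Vale.Agent.P088.Int

/-! Module QUAD (S-M): energies are quadratic; a.e. differentiability, `gq_add_smul`, integrability;
diamagnetic inequality for the energies. -/

open MeasureTheory Metric Set Filter Topology
open scoped ContDiff InnerProductSpace

namespace P088

variable {n : ℕ} {W : Type*} [NormedAddCommGroup W] [InnerProductSpace ℝ W] [FiniteDimensional ℝ W]

theorem QUAD_diff {X : Type*} [NormedAddCommGroup X] [InnerProductSpace ℝ X]
    [FiniteDimensional ℝ X] {u : En n → X} (hu : IsLip u) :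
    ∀ᵐ x ∂(volume.restrict (ball (0 : En n) 1)), DifferentiableAt ℝ u x := by
  obtain ⟨K, hK⟩ := hu
  exact ae_restrict_of_ae hK.ae_differentiableAt

theorem er_add (S : Setup n W) {w ψ : En n → ℝ} (hw : IsLip w) (hψ : IsLip ψ) (t : ℝ) :
    S.er (fun x => w x + t * ψ x) = S.er w + 2 * t * S.eb w ψ + t ^ 2 * S.er ψ := by
  unfold Setup.er Setup.eb
  have h1 : ∫ x in ball (0 : En n) 1, gq (S.G x) (fun i => pd (fun x => w x + t * ψ x) i x) =
      ∫ x in ball (0 : En n) 1, (gq (S.G x) (fun i => pd w i x) +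
        2 * t * gb (S.G x) (fun i => pd w i x) (fun i => pd ψ i x) +
        t ^ 2 * gq (S.G x) (fun i => pd ψ i x)) := by
    refine integral_congr_ae ?_
    filter_upwards [QUAD_diff hw, QUAD_diff hψ] with x h1 h2
    rw [← gq_add_smul]
    congr 1
    funext i
    unfold pd
    have h3 : HasFDerivAt (fun x => w x + t * ψ x) (fderiv ℝ w x + t • fderiv ℝ ψ x) x :=
      h1.hasFDerivAt.add (h2.hasFDerivAt.const_mul t)
    rw [h3.fderiv]
    simp
  rw [h1, integral_add, integral_add, integral_const_mul, integral_const_mul]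
  · exact int_er S hw
  · exact (int_eb S hw hψ).const_mul _
  · exact (int_er S hw).add ((int_eb S hw hψ).const_mul _)
  · exact (int_er S hψ).const_mul _

theorem er_nonneg (S : Setup n W) (w : En n → ℝ) : 0 ≤ S.er w :=
  setIntegral_nonneg measurableSet_ball fun x _ => gq_nonneg S x _

theorem QUAD_lip {u u' : En n → W} (hu : IsLip u) (hu' : IsLip u') :
    IsLip (fun x => (1 / 2 : ℝ) • (u x + u' x)) ∧ IsLip (fun x => (1 / 2 : ℝ) • (u x - u' x)) := by
  obtain ⟨K, hK⟩ := hu
  obtain ⟨K', hK'⟩ := hu'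
  exact ⟨⟨_, (lipschitzWith_smul (1 / 2 : ℝ)).comp (hK.add hK')⟩,
    ⟨_, (lipschitzWith_smul (1 / 2 : ℝ)).comp (hK.sub hK')⟩⟩

theorem en_para (S : Setup n W) {u u' : En n → W} (hu : IsLip u) (hu' : IsLip u') :
    S.en (fun x => (1 / 2 : ℝ) • (u x + u' x)) + S.en (fun x => (1 / 2 : ℝ) • (u x - u' x)) =
      (S.en u + S.en u') / 2 := by
  unfold Setup.en
  rw [← integral_add (int_en S (QUAD_lip hu hu').1) (int_en S (QUAD_lip hu hu').2),
    ← integral_add (int_en S hu) (int_en S hu'), ← integral_div]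
  refine integral_congr_ae ?_
  filter_upwards [QUAD_diff hu, QUAD_diff hu'] with x h1 h2
  have e1 : (fun i => S.cd (fun x => (1 / 2 : ℝ) • (u x + u' x)) i x) =
      fun i => (1 / 2 : ℝ) • (S.cd u i x + (1 : ℝ) • S.cd u' i x) := by
    funext i
    unfold Setup.cd pd
    have h3 : HasFDerivAt (fun x => (1 / 2 : ℝ) • (u x + u' x))
        ((1 / 2 : ℝ) • (fderiv ℝ u x + fderiv ℝ u' x)) x :=
      (h1.hasFDerivAt.add h2.hasFDerivAt).const_smul (1 / 2 : ℝ)
    rw [h3.fderiv]
    simp only [one_smul, smul_add, map_add, map_smul, ContinuousLinearMap.smul_apply,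
      ContinuousLinearMap.add_apply]
    abel
  have e2 : (fun i => S.cd (fun x => (1 / 2 : ℝ) • (u x - u' x)) i x) =
      fun i => (1 / 2 : ℝ) • (S.cd u i x + (-1 : ℝ) • S.cd u' i x) := by
    funext i
    unfold Setup.cd pd
    have h3 : HasFDerivAt (fun x => (1 / 2 : ℝ) • (u x - u' x))
        ((1 / 2 : ℝ) • (fderiv ℝ u x - fderiv ℝ u' x)) x :=
      (h1.hasFDerivAt.sub h2.hasFDerivAt).const_smul (1 / 2 : ℝ)
    rw [h3.fderiv]
    simp only [neg_smul, one_smul, smul_add, smul_sub, map_sub, map_smul, smul_neg, neg_add,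
      ContinuousLinearMap.smul_apply, ContinuousLinearMap.sub_apply]
    abel
  show gq (S.G x) (fun i => S.cd (fun x => (1 / 2 : ℝ) • (u x + u' x)) i x) +
    gq (S.G x) (fun i => S.cd (fun x => (1 / 2 : ℝ) • (u x - u' x)) i x) =
    (gq (S.G x) (fun i => S.cd u i x) + gq (S.G x) (fun i => S.cd u' i x)) / 2
  rw [e1, e2, gq_smul, gq_smul, gq_add_smul, gq_add_smul]
  ring

theorem int_df (S : Setup n W) {u : En n → W} (hu : IsLip u) :
    ∫ x in ball (0 : En n) 1, df S u x = S.en u - S.er (fun x => ‖u x‖) :=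
  integral_sub (int_en S hu) (int_er S (lip_norm hu))

/-- `er ‖u‖ ≤ en u` and the integral of the defect -/
theorem er_norm_le (S : Setup n W) {u : En n → W} (hu : IsLip u) :
    S.er (fun x => ‖u x‖) ≤ S.en u := by
  have h1 : 0 ≤ ∫ x in ball (0 : En n) 1, df S u x := by
    refine integral_nonneg_of_ae (ae_restrict_of_ae ?_)
    filter_upwards [kato S hu] with x hx
    exact hx.1
  rw [int_df S hu] at h1
  linarith

end P088
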