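import Vale.Agent.P088.Ibp
import Vale.Agent.P088.Quad

/-! Module FRIED (S-M): Friedrichs inequality.  `z` vanishes outside the ball, so it has compact support;
`∫ z² = - 2 ∫ xᵢ z ∂ᵢz` (`ibp` with `σ = xᵢ`, `χ = z²`, or directly), Cauchy-Schwarz
`2 |xᵢ z ∂ᵢz| ≤ z²/2 + 2 (∂ᵢz)²` on the ball.  `poinc`: `z = ‖u‖`, `er_norm_le`, `gq_lo`. -/

open MeasureTheory Metric Set Filter Topology
open scoped ContDiff InnerProductSpace

namespace P088

variable {n : ℕ} {W : Type*} [NormedAddCommGroup W] [InnerProductSpace ℝ W] [FiniteDimensional ℝ W]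

theorem FRIED_sq {z : En n → ℝ} {K : NNReal} (hK : LipschitzWith K z) {M : ℝ}
    (hM : ∀ x, ‖z x‖ ≤ M) : IsLip (fun x => z x ^ 2) := by
  have hM0 : 0 ≤ M := (norm_nonneg _).trans (hM 0)
  refine ⟨Real.toNNReal (2 * M * K), LipschitzWith.of_dist_le_mul fun x y => ?_⟩
  rw [Real.coe_toNNReal _ (by positivity), Real.dist_eq]
  have h1 : z x ^ 2 - z y ^ 2 = (z x + z y) * (z x - z y) := by ring
  rw [h1, abs_mul]
  have h2 : |z x + z y| ≤ 2 * M := by
    refine (abs_add_le _ _).trans ?_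
    have h3 := hM x
    have h4 := hM y
    rw [Real.norm_eq_abs] at h3 h4
    linarith
  have h5 : |z x - z y| ≤ K * dist x y := by
    rw [← Real.dist_eq]
    exact hK.dist_le_mul x y
  calc |z x + z y| * |z x - z y| ≤ (2 * M) * (K * dist x y) :=
        mul_le_mul h2 h5 (abs_nonneg _) (by linarith)
    _ = 2 * M * K * dist x y := by ring

theorem fried {z : En n → ℝ} (hz : IsLip z) (hz0 : ∀ x, x ∉ ball (0 : En n) 1 → z x = 0)
    (i : Fin n) : ∫ x in ball (0 : En n) 1, z x ^ 2 ≤ 4 * ∫ x in ball (0 : En n) 1, pd z i x ^ 2 := by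
  obtain ⟨K, hK⟩ := hz
  have hzc : Continuous z := hK.continuous
  have hs : HasCompactSupport z := by
    refine HasCompactSupport.of_support_subset_isCompact (isCompact_closedBall (0 : En n) 1) ?_
    intro x hx
    by_contra h
    exact hx (hz0 x fun h' => h (ball_subset_closedBall h'))
  obtain ⟨M, hM⟩ := hzc.bounded_above_of_compact_support hs
  have hχ : IsLip (fun x => z x ^ 2) := FRIED_sq hK hM
  have hχs : HasCompactSupport (fun x => z x ^ 2) := by
    have := hs.comp_left (g := fun t : ℝ => t ^ 2) (by norm_num)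
    exact this
  have hσ : IsLip (fun x : En n => x i) := by
    refine ⟨1, LipschitzWith.of_dist_le_mul fun x y => ?_⟩
    rw [NNReal.coe_one, one_mul, Real.dist_eq, EuclideanSpace.dist_eq]
    refine Real.abs_le_sqrt ?_
    have h1 := Finset.single_le_sum (f := fun j => dist (x j) (y j) ^ 2)
      (fun j _ => sq_nonneg _) (Finset.mem_univ i)
    refine le_trans (le_of_eq ?_) h1
    rw [Real.dist_eq, sq_abs]
  have hpσ : ∀ x, pd (fun x : En n => x i) i x = 1 := by
    intro x
    unfold pd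
    have h1 : HasFDerivAt (fun x : En n => x i) (EuclideanSpace.proj (𝕜 := ℝ) i) x :=
      (EuclideanSpace.proj (𝕜 := ℝ) i : En n →L[ℝ] ℝ).hasFDerivAt
    rw [h1.fderiv]
    simp
  have key := ibp hσ hχ hχs i
  have d1 := hK.ae_differentiableAt (μ := (volume : Measure (En n)))
  have e1 : ∫ x, pd (fun x => z x ^ 2) i x • x i = ∫ x, 2 * z x * pd z i x * x i := by
    refine integral_congr_ae ?_
    filter_upwards [d1] with x hx
    have h1 : HasFDerivAt (fun x => z x ^ 2) ((2 * z x) • fderiv ℝ z x) x := by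
      have := hx.hasFDerivAt.pow 2
      simpa using this
    unfold pd
    rw [h1.fderiv]
    simp
  have e2 : ∫ x, z x ^ 2 • pd (fun x : En n => x i) i x = ∫ x, z x ^ 2 := by
    refine integral_congr_ae (ae_of_all _ fun x => ?_)
    simp only [hpσ, smul_eq_mul, mul_one]
  have e3 : ∫ x, z x ^ 2 = ∫ x in ball (0 : En n) 1, z x ^ 2 := by
    symm
    refine setIntegral_eq_integral_of_forall_compl_eq_zero fun x hx => ?_
    rw [hz0 x hx]
    norm_num
  have e4 : ∫ x, 2 * z x * pd z i x * x i = ∫ x in ball (0 : En n) 1, 2 * z x * pd z i x * x i := by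
    symm
    refine setIntegral_eq_integral_of_forall_compl_eq_zero fun x hx => ?_
    rw [hz0 x hx]
    ring
  rw [e1, e2, e3, e4] at key
  have hb : volume (ball (0 : En n) 1) ≠ ⊤ := measure_ball_lt_top.ne
  have hm : StronglyMeasurable (pd z i) := pd_meas z i
  have i1 : IntegrableOn (fun x => z x ^ 2) (ball (0 : En n) 1) := by
    refine Measure.integrableOn_of_bounded (M := M ^ 2) hb
      (hzc.pow 2).stronglyMeasurable.aestronglyMeasurable ?_
    refine ae_of_all _ fun x => ?_
    rw [norm_pow]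
    exact pow_le_pow_left₀ (norm_nonneg _) (hM x) 2
  have i2 : IntegrableOn (fun x => pd z i x ^ 2) (ball (0 : En n) 1) := by
    refine Measure.integrableOn_of_bounded (M := (K : ℝ) ^ 2) hb
      (hm.pow 2).aestronglyMeasurable ?_
    refine ae_of_all _ fun x => ?_
    rw [norm_pow]
    exact pow_le_pow_left₀ (norm_nonneg _) (pd_bdd hK i x) 2
  have i3 : IntegrableOn (fun x => 2 * z x * pd z i x * x i) (ball (0 : En n) 1) := by
    have hM0 : 0 ≤ M := (norm_nonneg _).trans (hM 0)
    have hxm : Continuous fun x : En n => x i := by fun_prop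
    refine Measure.integrableOn_of_bounded (M := 2 * M * K * 1) hb
      ((((stronglyMeasurable_const.mul hzc.stronglyMeasurable).mul hm).mul
        hxm.stronglyMeasurable).aestronglyMeasurable) ?_
    rw [ae_restrict_iff' measurableSet_ball]
    refine ae_of_all _ fun x hx => ?_
    rw [norm_mul, norm_mul, norm_mul]
    have h1 : ‖x i‖ ≤ 1 := by
      refine (PiLp.norm_apply_le x i).trans ?_
      rw [mem_ball_zero_iff] at hx
      exact hx.le
    have h2 : ‖(2:ℝ)‖ = 2 := by norm_num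
    rw [h2]
    refine mul_le_mul ?_ h1 (norm_nonneg _) (by positivity)
    exact mul_le_mul (mul_le_mul_of_nonneg_left (hM x) (by norm_num)) (pd_bdd hK i x)
      (norm_nonneg _) (by positivity)
  have h6 : ∫ x in ball (0 : En n) 1, -(2 * z x * pd z i x * x i) ≤
      ∫ x in ball (0 : En n) 1, ((1 / 2) * z x ^ 2 + 2 * pd z i x ^ 2) := by
    refine setIntegral_mono_on i3.neg ((i1.const_mul _).add (i2.const_mul _)) measurableSet_ball
      fun x hx => ?_
    have h1 : |x i| ≤ 1 := by
      rw [← Real.norm_eq_abs]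
      refine (PiLp.norm_apply_le x i).trans ?_
      rw [mem_ball_zero_iff] at hx
      exact hx.le
    have h2 : x i ^ 2 ≤ 1 := by
      rw [← sq_abs]
      exact pow_le_one₀ (abs_nonneg _) h1
    nlinarith [sq_nonneg (z x + 2 * pd z i x * x i), mul_nonneg (sq_nonneg (pd z i x))
      (sub_nonneg.mpr h2)]
  rw [integral_neg, integral_add (i1.const_mul _) (i2.const_mul _), integral_const_mul,
    integral_const_mul] at h6
  linarith

theorem poinc (S : Setup n W) {u : En n → W} (hu : IsLip u)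
    (hu0 : ∀ x, x ∉ ball (0 : En n) 1 → u x = 0) (i : Fin n) :
    ∫ x in ball (0 : En n) 1, ‖u x‖ ^ 2 ≤ 4 / S.lam * S.en u := by
  have hz : IsLip (fun x => ‖u x‖) := lip_norm hu
  have h1 := fried hz (fun x hx => by simp [hu0 x hx]) i
  have h2 : ∫ x in ball (0 : En n) 1, pd (fun x => ‖u x‖) i x ^ 2 ≤
      ∫ x in ball (0 : En n) 1, S.lam⁻¹ *
        gq (S.G x) (fun i => pd (fun x => ‖u x‖) i x) := by
    refine integral_mono_of_nonneg (ae_of_all _ fun x => sq_nonneg _)
      ((int_er S hz).const_mul _) (ae_of_all _ fun x => ?_)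
    have h3 := gq_lo S x (fun i => pd (fun x => ‖u x‖) i x)
    have h4 : pd (fun x => ‖u x‖) i x ^ 2 ≤ ∑ j, ‖pd (fun x => ‖u x‖) j x‖ ^ 2 := by
      have h5 := Finset.single_le_sum (f := fun j => ‖pd (fun x => ‖u x‖) j x‖ ^ 2)
        (fun j _ => sq_nonneg _) (Finset.mem_univ i)
      refine le_trans (le_of_eq ?_) h5
      show _ = ‖_‖ ^ 2
      rw [Real.norm_eq_abs, sq_abs]
    have h6 : 0 < S.lam := S.lam_pos
    show pd (fun x => ‖u x‖) i x ^ 2 ≤ S.lam⁻¹ * gq (S.G x) (fun i => pd (fun x => ‖u x‖) i x)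
    rw [inv_mul_eq_div, le_div_iff₀ h6, mul_comm]
    exact (mul_le_mul_of_nonneg_left h4 h6.le).trans h3
  rw [integral_const_mul] at h2
  have h7 := er_norm_le S hu
  have h8 : 0 < S.lam⁻¹ := inv_pos.2 S.lam_pos
  have h9 : ∫ x in ball (0 : En n) 1, gq (S.G x) (fun i => pd (fun x => ‖u x‖) i x) =
      S.er (fun x => ‖u x‖) := rfl
  rw [h9] at h2
  calc ∫ x in ball (0 : En n) 1, ‖u x‖ ^ 2
      ≤ 4 * ∫ x in ball (0 : En n) 1, pd (fun x => ‖u x‖) i x ^ 2 := h1
    _ ≤ 4 * (S.lam⁻¹ * S.er (fun x => ‖u x‖)) := mul_le_mul_of_nonneg_left h2 (by norm_num)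
    _ ≤ 4 * (S.lam⁻¹ * S.en u) :=
        mul_le_mul_of_nonneg_left (mul_le_mul_of_nonneg_left h7 h8.le) (by norm_num)
    _ = 4 / S.lam * S.en u := by ring

end P088
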