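import Vale.Agent.P088.Kato

/-! Module GLUE (S): gluing along the sphere (a segment from inside to outside meets the sphere), the energy only
depends on the values in the open ball. -/

open MeasureTheory Metric Set Filter Topology
open scoped ContDiff InnerProductSpace

namespace P088

variable {n : ℕ} {W : Type*} [NormedAddCommGroup W] [InnerProductSpace ℝ W] [FiniteDimensional ℝ W]

private theorem GLUE_seg {x y : En n} (hx : x ∈ ball (0 : En n) 1) (hy : y ∉ ball (0 : En n) 1) :
    ∃ z ∈ sphere (0 : En n) 1, dist x z ≤ dist x y ∧ dist z y ≤ dist x y := by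
  have hx1 : ‖x‖ ≤ 1 := by
    rw [mem_ball_zero_iff] at hx
    exact hx.le
  have hy1 : 1 ≤ ‖y‖ := by
    rw [mem_ball_zero_iff, not_lt] at hy
    exact hy
  have hc : Continuous fun t : ℝ => ‖AffineMap.lineMap x y t‖ :=
    (AffineMap.lineMap_continuous).norm
  have h0 : ‖(AffineMap.lineMap x y (0 : ℝ) : En n)‖ = ‖x‖ := by rw [AffineMap.lineMap_apply_zero]
  have h1 : ‖(AffineMap.lineMap x y (1 : ℝ) : En n)‖ = ‖y‖ := by rw [AffineMap.lineMap_apply_one]
  have hiv := intermediate_value_Icc (zero_le_one' ℝ) hc.continuousOn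
  have hmem : (1 : ℝ) ∈ Icc ‖(AffineMap.lineMap x y (0 : ℝ) : En n)‖
      ‖(AffineMap.lineMap x y (1 : ℝ) : En n)‖ := by
    rw [h0, h1]
    exact ⟨hx1, hy1⟩
  obtain ⟨t, ht, hz⟩ := hiv hmem
  refine ⟨AffineMap.lineMap x y t, ?_, ?_, ?_⟩
  · rw [mem_sphere_zero_iff_norm]
    exact hz
  · rw [dist_left_lineMap, Real.norm_eq_abs, abs_of_nonneg ht.1]
    exact mul_le_of_le_one_left dist_nonneg ht.2
  · rw [dist_lineMap_right, Real.norm_eq_abs, abs_of_nonneg (by linarith [ht.2])]
    exact mul_le_of_le_one_left dist_nonneg (by linarith [ht.1])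

open Classical in
theorem lip_glue {X : Type*} [NormedAddCommGroup X] [NormedSpace ℝ X] {u h : En n → X}
    (hu : IsLip u) (hh : IsLip h) (huh : ∀ x ∈ sphere (0 : En n) 1, u x = h x) :
    IsLip (fun x => if x ∈ ball (0 : En n) 1 then u x else h x) := by
  obtain ⟨K₁, hK₁⟩ := hu
  obtain ⟨K₂, hK₂⟩ := hh
  refine ⟨K₁ + K₂, LipschitzWith.of_dist_le_mul fun x y => ?_⟩
  have hk1 : (0 : ℝ) ≤ K₁ := K₁.2
  have hk2 : (0 : ℝ) ≤ K₂ := K₂.2
  have hd : 0 ≤ dist x y := dist_nonneg
  push_cast
  have key : ∀ a b : En n, a ∈ ball (0 : En n) 1 → b ∉ ball (0 : En n) 1 →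
      dist (u a) (h b) ≤ ((K₁ : ℝ) + K₂) * dist a b := by
    intro a b ha hb
    obtain ⟨z, hz, h1, h2⟩ := GLUE_seg ha hb
    calc dist (u a) (h b) ≤ dist (u a) (u z) + dist (u z) (h b) := dist_triangle _ _ _
      _ = dist (u a) (u z) + dist (h z) (h b) := by rw [huh z hz]
      _ ≤ K₁ * dist a z + K₂ * dist z b := add_le_add (hK₁.dist_le_mul a z) (hK₂.dist_le_mul z b)
      _ ≤ K₁ * dist a b + K₂ * dist a b :=
          add_le_add (mul_le_mul_of_nonneg_left h1 hk1) (mul_le_mul_of_nonneg_left h2 hk2)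
      _ = _ := by ring
  by_cases hx : x ∈ ball (0 : En n) 1
  · by_cases hy : y ∈ ball (0 : En n) 1
    · rw [if_pos hx, if_pos hy]
      refine (hK₁.dist_le_mul x y).trans ?_
      nlinarith
    · rw [if_pos hx, if_neg hy]
      exact key x y hx hy
  · by_cases hy : y ∈ ball (0 : En n) 1
    · rw [if_neg hx, if_pos hy, dist_comm, dist_comm x y]
      exact key y x hy hx
    · rw [if_neg hx, if_neg hy]
      refine (hK₂.dist_le_mul x y).trans ?_
      nlinarith

theorem pd_congr {X : Type*} [NormedAddCommGroup X] [NormedSpace ℝ X] {u u' : En n → X}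
    (h : ∀ x ∈ ball (0 : En n) 1, u x = u' x) (i : Fin n) :
    ∀ x ∈ ball (0 : En n) 1, pd u i x = pd u' i x := by
  intro x hx
  have h1 : u =ᶠ[𝓝 x] u' := by
    filter_upwards [isOpen_ball.mem_nhds hx] with y hy
    exact h y hy
  unfold pd
  rw [h1.fderiv_eq]

theorem en_congr (S : Setup n W) {u u' : En n → W}
    (h : ∀ x ∈ ball (0 : En n) 1, u x = u' x) : S.en u = S.en u' := by
  unfold Setup.en
  refine setIntegral_congr_fun measurableSet_ball fun x hx => ?_
  have h1 : (fun i => S.cd u i x) = fun i => S.cd u' i x := by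
    funext i
    unfold Setup.cd
    rw [pd_congr h i x hx, h x hx]
  show gq (S.G x) (fun i => S.cd u i x) = gq (S.G x) (fun i => S.cd u' i x)
  rw [h1]

theorem er_congr (S : Setup n W) {w w' : En n → ℝ}
    (h : ∀ x ∈ ball (0 : En n) 1, w x = w' x) : S.er w = S.er w' := by
  unfold Setup.er
  refine setIntegral_congr_fun measurableSet_ball fun x hx => ?_
  have h1 : (fun i => pd w i x) = fun i => pd w' i x := by
    funext i
    exact pd_congr h i x hx
  show gq (S.G x) (fun i => pd w i x) = gq (S.G x) (fun i => pd w' i x)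
  rw [h1]

end P088
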