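import Vale.Agent.P088.Kato

/-! Module INT (S-M): measurability and integrability (`measurable_fderiv`, `measurable_fderiv_apply_const`,
`norm_fderiv_le_of_lipschitz`), Lipschitz maps. -/

open MeasureTheory Metric Set Filter Topology
open scoped ContDiff InnerProductSpace

namespace P088

variable {n : ℕ} {W : Type*} [NormedAddCommGroup W] [InnerProductSpace ℝ W] [FiniteDimensional ℝ W]
  {X : Type*} [NormedAddCommGroup X] [InnerProductSpace ℝ X] [FiniteDimensional ℝ X]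

theorem pd_meas (u : En n → X) (i : Fin n) : StronglyMeasurable (pd u i) := by
  borelize X
  haveI : ProperSpace X := FiniteDimensional.proper ℝ X
  exact (measurable_fderiv_apply_const ℝ u (EuclideanSpace.single i (1 : ℝ))).stronglyMeasurable

theorem pd_bdd {u : En n → X} {K : NNReal} (hu : LipschitzWith K u) (i : Fin n) (x : En n) :
    ‖pd u i x‖ ≤ K := by
  have h1 : ‖fderiv ℝ u x‖ ≤ K := norm_fderiv_le_of_lipschitz ℝ hu
  have h2 := (fderiv ℝ u x).le_opNorm (EuclideanSpace.single i (1 : ℝ))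
  have h3 : ‖(EuclideanSpace.single i (1 : ℝ) : En n)‖ = 1 := by
    rw [EuclideanSpace.norm_single, norm_one]
  rw [h3, mul_one] at h2
  exact h2.trans h1

theorem lip_norm {u : En n → X} (hu : IsLip u) : IsLip (fun x => ‖u x‖) := by
  obtain ⟨K, hK⟩ := hu
  exact ⟨1 * K, lipschitzWith_one_norm.comp hK⟩

theorem INTA_T {δ : ℝ} (hδ : 0 < δ) :
    LipschitzWith (Real.toNNReal (2 / δ)) (fun y : X => (‖y‖ + δ)⁻¹ • y) := by
  refine LipschitzWith.of_dist_le_mul fun y z => ?_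
  rw [dist_eq_norm, dist_eq_norm, Real.coe_toNNReal _ (by positivity)]
  have hy : 0 < ‖y‖ + δ := add_pos_of_nonneg_of_pos (norm_nonneg _) hδ
  have hz : 0 < ‖z‖ + δ := add_pos_of_nonneg_of_pos (norm_nonneg _) hδ
  have h1 : (‖y‖ + δ)⁻¹ • y - (‖z‖ + δ)⁻¹ • z =
      (‖y‖ + δ)⁻¹ • (y - z) + ((‖y‖ + δ)⁻¹ - (‖z‖ + δ)⁻¹) • z := by
    rw [smul_sub, sub_smul]
    abel
  have h2 : ‖(‖y‖ + δ)⁻¹ • (y - z)‖ ≤ (1 / δ) * ‖y - z‖ := by
    rw [norm_smul, norm_inv, Real.norm_of_nonneg hy.le, one_div]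
    exact mul_le_mul_of_nonneg_right (inv_anti₀ hδ (by linarith [norm_nonneg y])) (norm_nonneg _)
  have h3 : ‖((‖y‖ + δ)⁻¹ - (‖z‖ + δ)⁻¹) • z‖ ≤ (1 / δ) * ‖y - z‖ := by
    have e1 : (‖y‖ + δ)⁻¹ - (‖z‖ + δ)⁻¹ = (‖z‖ - ‖y‖) * ((‖y‖ + δ)⁻¹ * (‖z‖ + δ)⁻¹) := by
      field_simp
      ring
    rw [norm_smul, e1, norm_mul, Real.norm_eq_abs, Real.norm_of_nonneg (by positivity)]
    have e2 : |‖z‖ - ‖y‖| ≤ ‖y - z‖ := by
      rw [abs_sub_comm]
      exact abs_norm_sub_norm_le y z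
    have e3 : (‖z‖ + δ)⁻¹ * ‖z‖ ≤ 1 := by
      rw [inv_mul_le_iff₀ hz]
      linarith
    have e4 : (‖y‖ + δ)⁻¹ ≤ 1 / δ := by
      rw [one_div]
      exact inv_anti₀ hδ (by linarith [norm_nonneg y])
    have e5 : (‖y‖ + δ)⁻¹ * ((‖z‖ + δ)⁻¹ * ‖z‖) ≤ 1 / δ * 1 :=
      mul_le_mul e4 e3 (by positivity) (by positivity)
    calc |‖z‖ - ‖y‖| * ((‖y‖ + δ)⁻¹ * (‖z‖ + δ)⁻¹) * ‖z‖
        = |‖z‖ - ‖y‖| * ((‖y‖ + δ)⁻¹ * ((‖z‖ + δ)⁻¹ * ‖z‖)) := by ring
      _ ≤ ‖y - z‖ * (1 / δ * 1) := mul_le_mul e2 e5 (by positivity) (norm_nonneg _)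
      _ = (1 / δ) * ‖y - z‖ := by ring
  rw [h1]
  refine (norm_add_le _ _).trans ((add_le_add h2 h3).trans (le_of_eq ?_))
  ring

theorem lip_sg {u : En n → X} (hu : IsLip u) {δ : ℝ} (hδ : 0 < δ) : IsLip (sg δ u) := by
  obtain ⟨K, hK⟩ := hu
  exact ⟨_, (INTA_T hδ).comp hK⟩

theorem cd_meas (S : Setup n W) {u : En n → W} (hu : IsLip u) (i : Fin n) :
    StronglyMeasurable (S.cd u i) := by
  obtain ⟨K, hK⟩ := hu
  have h1 : StronglyMeasurable u := hK.continuous.stronglyMeasurable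
  have h2 : StronglyMeasurable fun x => (S.A x i) (u x) :=
    isBoundedBilinearMap_apply.continuous.comp_stronglyMeasurable ((S.A_meas i).prodMk h1)
  exact (pd_meas u i).add h2

/-- bounded on the ball -/
theorem cd_bdd (S : Setup n W) {u : En n → W} (hu : IsLip u) :
    ∃ K : ℝ, ∀ x ∈ ball (0 : En n) 1, ∀ i, ‖S.cd u i x‖ ≤ K := by
  obtain ⟨K, hK⟩ := hu
  refine ⟨K + |S.CA| * (‖u 0‖ + K), fun x hx i => ?_⟩
  have hx1 : ‖x‖ ≤ 1 := by
    rw [mem_ball_zero_iff] at hx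
    exact hx.le
  have h1 : ‖u x‖ ≤ ‖u 0‖ + K := by
    have h2 := hK.dist_le_mul x 0
    rw [dist_eq_norm, dist_zero_right] at h2
    have h3 : ‖u x‖ ≤ ‖u 0‖ + ‖u x - u 0‖ := by
      have := norm_add_le (u 0) (u x - u 0)
      rwa [add_sub_cancel] at this
    have h4 : (K : ℝ) * ‖x‖ ≤ K * 1 := mul_le_mul_of_nonneg_left hx1 K.2
    linarith
  refine (norm_add_le _ _).trans (add_le_add (pd_bdd hK i x) ?_)
  refine ((S.A x i).le_opNorm (u x)).trans ?_
  exact mul_le_mul ((S.A_bdd x i).trans (le_abs_self _)) h1 (norm_nonneg _) (abs_nonneg _)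

theorem gq_meas (S : Setup n W) {η : Fin n → En n → X} (hη : ∀ i, StronglyMeasurable (η i)) :
    Measurable fun x => gq (S.G x) (fun i => η i x) := by
  unfold gq
  refine Finset.measurable_sum _ fun i _ => Finset.measurable_sum _ fun j _ => ?_
  exact (S.G_meas i j).mul ((hη i).inner (hη j)).measurable

omit [FiniteDimensional ℝ W] [FiniteDimensional ℝ X] in
theorem INTB_gb_meas (S : Setup n W) {η ζ : Fin n → En n → X} (hη : ∀ i, StronglyMeasurable (η i))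
    (hζ : ∀ i, StronglyMeasurable (ζ i)) :
    Measurable fun x => gb (S.G x) (fun i => η i x) (fun i => ζ i x) := by
  unfold gb
  refine Finset.measurable_sum _ fun i _ => Finset.measurable_sum _ fun j _ => ?_
  exact (S.G_meas i j).mul ((hη i).inner (hζ j)).measurable

omit [FiniteDimensional ℝ W] in
theorem INTB_gq_bdd (S : Setup n W) (x : En n) {η : Fin n → X} {K : ℝ} (h : ∀ i, ‖η i‖ ≤ K) :
    gq (S.G x) η ≤ |S.Lam| * ∑ _i : Fin n, K ^ 2 := by
  refine (gq_up S x η).trans ?_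
  have h1 : ∑ i, ‖η i‖ ^ 2 ≤ ∑ _i : Fin n, K ^ 2 :=
    Finset.sum_le_sum fun i _ => pow_le_pow_left₀ (norm_nonneg _) (h i) 2
  have h0 : 0 ≤ ∑ i, ‖η i‖ ^ 2 := Finset.sum_nonneg fun i _ => sq_nonneg _
  exact mul_le_mul (le_abs_self _) h1 h0 (abs_nonneg _)

theorem INTB_int (S : Setup n W) {η : Fin n → En n → X} (hη : ∀ i, StronglyMeasurable (η i))
    {K : ℝ} (h : ∀ x ∈ ball (0 : En n) 1, ∀ i, ‖η i x‖ ≤ K) :
    IntegrableOn (fun x => gq (S.G x) (fun i => η i x)) (ball (0 : En n) 1) := by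
  refine Measure.integrableOn_of_bounded (M := |S.Lam| * ∑ _i : Fin n, K ^ 2)
    measure_ball_lt_top.ne (gq_meas S hη).aestronglyMeasurable ?_
  refine (ae_restrict_iff' measurableSet_ball).2 (Eventually.of_forall fun x hx => ?_)
  rw [Real.norm_eq_abs, abs_of_nonneg (gq_nonneg S x _)]
  exact INTB_gq_bdd S x (h x hx)

theorem int_en (S : Setup n W) {u : En n → W} (hu : IsLip u) :
    IntegrableOn (fun x => gq (S.G x) (fun i => S.cd u i x)) (ball (0 : En n) 1) := by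
  obtain ⟨K, hK⟩ := cd_bdd S hu
  exact INTB_int S (fun i => cd_meas S hu i) hK

theorem int_er (S : Setup n W) {w : En n → ℝ} (hw : IsLip w) :
    IntegrableOn (fun x => gq (S.G x) (fun i => pd w i x)) (ball (0 : En n) 1) := by
  obtain ⟨K, hK⟩ := hw
  exact INTB_int S (fun i => pd_meas w i) fun x _ i => pd_bdd hK i x

theorem int_eb (S : Setup n W) {w ψ : En n → ℝ} (hw : IsLip w) (hψ : IsLip ψ) :
    IntegrableOn (fun x => gb (S.G x) (fun i => pd w i x) (fun i => pd ψ i x))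
      (ball (0 : En n) 1) := by
  have h1 := (int_er S hw).add (int_er S hψ)
  refine Integrable.mono' h1 (INTB_gb_meas S (fun i => pd_meas w i)
    (fun i => pd_meas ψ i)).aestronglyMeasurable (Eventually.of_forall fun x => ?_)
  have h := gb_le S x (fun i => pd w i x) (fun i => pd ψ i x) (t := 1) one_pos
  have h2 := gq_nonneg S x (fun i => pd w i x)
  have h3 := gq_nonneg S x (fun i => pd ψ i x)
  rw [inv_one, one_mul, one_mul] at h
  rw [Real.norm_eq_abs]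
  have e : ((fun x => gq (S.G x) fun i => pd w i x) + fun x => gq (S.G x) fun i => pd ψ i x) x
    = gq (S.G x) (fun i => pd w i x) + gq (S.G x) (fun i => pd ψ i x) := rfl
  rw [e]
  have h4 := abs_nonneg (gb (S.G x) (fun i => pd w i x) (fun i => pd ψ i x))
  linarith

end P088
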