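import Vale.Agent.P088.Form

/-! Module KATO (M).  At a point `x` where `u` and `w = ‖u‖` are differentiable (a.e., Rademacher:
`LipschitzWith.ae_differentiableAt`).  If `u x = 0`: `w` has a minimum, `dw = 0`, so `u (x+h) = o(h)`,
`du = 0`, everything vanishes.  If `u x ≠ 0`: `e = u/w`, `∂ᵢ w = ⟪e, ∂ᵢ u⟫ = ⟪e, (d_A u)ᵢ⟫` (skew),
`ζᵢ = (d_A u)ᵢ - ∂ᵢw e ⟂ e`, `gq (d_A u) = gq (dw) + gq ζ`, `lam ‖ζᵢ‖² ≤ gq ζ = df`, and
`(d_A σ)ᵢ = ζᵢ/(w+δ) + ∂ᵢw δ/(w+δ)² e` for `σ = u/(w+δ)`. -/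

open MeasureTheory Metric Set Filter Topology
open scoped ContDiff InnerProductSpace

namespace P088

variable {n : ℕ} {W : Type*} [NormedAddCommGroup W] [InnerProductSpace ℝ W] [FiniteDimensional ℝ W]

/-- the defect of the diamagnetic inequality -/
noncomputable def df (S : Setup n W) (u : En n → W) (x : En n) : ℝ :=
  gq (S.G x) (fun i => S.cd u i x) - gq (S.G x) (fun i => pd (fun y => ‖u y‖) i x)

/-- `σ = u / (‖u‖ + δ)` -/
noncomputable def sg (δ : ℝ) (u : En n → W) (x : En n) : W := (‖u x‖ + δ)⁻¹ • u x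

theorem KATO_sg (S : Setup n W) {u : En n → W} {x : En n} (hd : DifferentiableAt ℝ u x)
    (hw : DifferentiableAt ℝ (fun y => ‖u y‖) x) {δ : ℝ} (hδ : 0 < δ) (i : Fin n) :
    S.cd (sg δ u) i x = (‖u x‖ + δ)⁻¹ • S.cd u i x -
      (((‖u x‖ + δ) ^ 2)⁻¹ * pd (fun y => ‖u y‖) i x) • u x := by
  have hpos : 0 < ‖u x‖ + δ := add_pos_of_nonneg_of_pos (norm_nonneg _) hδ
  have h1 : HasFDerivAt (fun y => ‖u y‖ + δ) (fderiv ℝ (fun y => ‖u y‖) x) x :=
    hw.hasFDerivAt.add_const δ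
  have h2 : HasFDerivAt (fun y => (‖u y‖ + δ)⁻¹)
      ((-((‖u x‖ + δ) ^ 2)⁻¹) • fderiv ℝ (fun y => ‖u y‖) x) x :=
    (hasDerivAt_inv hpos.ne').comp_hasFDerivAt x h1
  have h3 := (h2.smul hd.hasFDerivAt).fderiv
  have h4 : pd (sg δ u) i x = (‖u x‖ + δ)⁻¹ • pd u i x -
      (((‖u x‖ + δ) ^ 2)⁻¹ * pd (fun y => ‖u y‖) i x) • u x := by
    unfold pd
    have h5 : fderiv ℝ (sg δ u) x = (‖u x‖ + δ)⁻¹ • fderiv ℝ u x +
      ((-((‖u x‖ + δ) ^ 2)⁻¹) • fderiv ℝ (fun y => ‖u y‖) x).smulRight (u x) := h3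
    rw [h5]
    have h7 : ((‖u x‖ + δ)⁻¹ • fderiv ℝ u x +
      ((-((‖u x‖ + δ) ^ 2)⁻¹) • fderiv ℝ (fun y => ‖u y‖) x).smulRight (u x))
        (EuclideanSpace.single i (1 : ℝ)) =
      (‖u x‖ + δ)⁻¹ • (fderiv ℝ u x) (EuclideanSpace.single i (1 : ℝ)) +
      ((-((‖u x‖ + δ) ^ 2)⁻¹) * (fderiv ℝ (fun y => ‖u y‖) x)
        (EuclideanSpace.single i (1 : ℝ))) • u x := rfl
    rw [h7, neg_mul, neg_smul, sub_eq_add_neg]
  unfold Setup.cd
  rw [h4]
  have h6 : (S.A x i) (sg δ u x) = (‖u x‖ + δ)⁻¹ • (S.A x i) (u x) := by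
    unfold sg
    rw [map_smul]
  rw [h6, smul_add]
  abel

theorem KATO_inner {u : En n → W} {x : En n} (hd : DifferentiableAt ℝ u x)
    (hw : DifferentiableAt ℝ (fun y => ‖u y‖) x) (i : Fin n) :
    ‖u x‖ * pd (fun y => ‖u y‖) i x = ⟪u x, pd u i x⟫_ℝ := by
  have h1 := hd.hasFDerivAt.norm_sq
  have h2 := hw.hasFDerivAt.pow 2
  have h3 := h1.unique h2
  have h4 := congrArg (fun L => L (EuclideanSpace.single i (1 : ℝ))) h3
  have h5 : (2 • (innerSL ℝ (u x)).comp (fderiv ℝ u x)) (EuclideanSpace.single i (1 : ℝ)) =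
      2 • ⟪u x, pd u i x⟫_ℝ := rfl
  have h6 : ((2 • ‖u x‖ ^ (2 - 1)) • fderiv ℝ (fun y => ‖u y‖) x)
      (EuclideanSpace.single i (1 : ℝ)) =
      (2 • ‖u x‖ ^ (2 - 1)) * pd (fun y => ‖u y‖) i x := rfl
  have h7 : 2 • ⟪u x, pd u i x⟫_ℝ = (2 • ‖u x‖ ^ (2 - 1)) * pd (fun y => ‖u y‖) i x := by
    rw [← h5, ← h6]
    exact h4
  rw [nsmul_eq_mul, nsmul_eq_mul] at h7
  norm_num at h7
  linarith

theorem KATO_zero {u : En n → W} {x : En n}
    (hw : DifferentiableAt ℝ (fun y => ‖u y‖) x) (h0 : u x = 0) :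
    fderiv ℝ (fun y => ‖u y‖) x = 0 ∧ fderiv ℝ u x = 0 := by
  have hmin : IsLocalMin (fun y => ‖u y‖) x := by
    refine Filter.Eventually.of_forall fun y => ?_
    show ‖u x‖ ≤ ‖u y‖
    rw [h0, norm_zero]
    exact norm_nonneg _
  have h1 := hmin.fderiv_eq_zero
  refine ⟨h1, ?_⟩
  have h2 : HasFDerivAt (fun y => ‖u y‖) (0 : En n →L[ℝ] ℝ) x := by
    have := hw.hasFDerivAt
    rwa [h1] at this
  have h3 : HasFDerivAt u (0 : En n →L[ℝ] W) x := by
    rw [hasFDerivAt_iff_isLittleO] at h2 ⊢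
    simp only [h0, norm_zero, sub_zero, ContinuousLinearMap.zero_apply] at h2 ⊢
    exact h2.of_norm_left
  exact h3.fderiv

theorem KATO_orth (S : Setup n W) (x : En n) {e : W} (he : ⟪e, e⟫_ℝ = 1) {η ζ : Fin n → W}
    {a : Fin n → ℝ} (h1 : ∀ i, η i = ζ i + a i • e) (h2 : ∀ i, ⟪e, ζ i⟫_ℝ = 0) :
    gq (S.G x) η - gq (S.G x) a = gq (S.G x) ζ := by
  unfold gq
  rw [sub_eq_iff_eq_add, ← Finset.sum_add_distrib]
  refine Finset.sum_congr rfl fun i _ => ?_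
  rw [← Finset.sum_add_distrib]
  refine Finset.sum_congr rfl fun j _ => ?_
  have h3 : ⟪ζ i, e⟫_ℝ = 0 := by rw [real_inner_comm]; exact h2 i
  have h4 : ⟪a i, a j⟫_ℝ = a i * a j := by
    simp [mul_comm]
  rw [h1, h1, inner_add_left, inner_add_right, inner_add_right, real_inner_smul_left,
    real_inner_smul_left, real_inner_smul_right, real_inner_smul_right, he, h2, h3, h4]
  ring

theorem kato (S : Setup n W) {u : En n → W} (hu : IsLip u) :
    ∀ᵐ x, 0 ≤ df S u x ∧ ∀ δ : ℝ, 0 < δ → ∀ i, ‖S.cd (sg δ u) i x‖ ≤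
      Real.sqrt (df S u x / S.lam) / δ + |pd (fun y => ‖u y‖) i x| * (δ / (‖u x‖ + δ) ^ 2) := by
  obtain ⟨K, hK⟩ := hu
  have hK2 : LipschitzWith K (fun y => ‖u y‖) := by
    have h := lipschitzWith_one_norm.comp hK
    rwa [one_mul] at h
  filter_upwards [hK.ae_differentiableAt, hK2.ae_differentiableAt] with x hd hw
  by_cases h0 : u x = 0
  · obtain ⟨z1, z2⟩ := KATO_zero hw h0
    have c0 : ∀ i, S.cd u i x = 0 := by
      intro i
      unfold Setup.cd pd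
      rw [z2, h0, map_zero, add_zero]
      rfl
    have p0 : ∀ i, pd (fun y => ‖u y‖) i x = 0 := by
      intro i
      unfold pd
      rw [z1]
      rfl
    constructor
    · unfold df
      have e1 : gq (S.G x) (fun i => S.cd u i x) = 0 := by
        unfold gq
        simp [c0]
      have e2 : gq (S.G x) (fun i => pd (fun y => ‖u y‖) i x) = 0 := by
        unfold gq
        simp [p0]
      rw [e1, e2, sub_zero]
    · intro δ hδ i
      rw [KATO_sg S hd hw hδ i, c0, h0, smul_zero, smul_zero, sub_zero, norm_zero]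
      positivity
  · have hr : 0 < ‖u x‖ := norm_pos_iff.2 h0
    have hr0 : ‖u x‖ ≠ 0 := hr.ne'
    obtain ⟨e, he⟩ : ∃ e : W, e = ‖u x‖⁻¹ • u x := ⟨_, rfl⟩
    have hue : u x = ‖u x‖ • e := by
      rw [he, smul_smul, mul_inv_cancel₀ hr0, one_smul]
    have he1 : ‖e‖ = 1 := by
      rw [he, norm_smul, norm_inv, norm_norm, inv_mul_cancel₀ hr0]
    have hee : ⟪e, e⟫_ℝ = 1 := by
      rw [real_inner_self_eq_norm_sq, he1, one_pow]
    have hz : ∀ i, ⟪e, S.cd u i x⟫_ℝ = pd (fun y => ‖u y‖) i x := by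
      intro i
      have k1 := KATO_inner hd hw i
      have k2 := S.A_skew x i (u x)
      unfold Setup.cd
      rw [he, real_inner_smul_left, inner_add_right, k2, add_zero, ← k1, ← mul_assoc,
        inv_mul_cancel₀ hr0, one_mul]
    obtain ⟨ζ, hζ⟩ : ∃ ζ : Fin n → W, ∀ i, ζ i = S.cd u i x - pd (fun y => ‖u y‖) i x • e :=
      ⟨_, fun i => rfl⟩
    have hζ1 : ∀ i, S.cd u i x = ζ i + pd (fun y => ‖u y‖) i x • e := by
      intro i
      rw [hζ, sub_add_cancel]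
    have hζ2 : ∀ i, ⟪e, ζ i⟫_ℝ = 0 := by
      intro i
      rw [hζ, inner_sub_right, real_inner_smul_right, hee, hz, mul_one, sub_self]
    have hdf : df S u x = gq (S.G x) ζ := KATO_orth S x hee hζ1 hζ2
    have hlo := gq_lo S x ζ
    rw [← hdf] at hlo
    refine ⟨by rw [hdf]; exact gq_nonneg S x ζ, ?_⟩
    intro δ hδ i
    have hn : ‖ζ i‖ ≤ Real.sqrt (df S u x / S.lam) := by
      refine Real.le_sqrt_of_sq_le ?_
      rw [le_div_iff₀ S.lam_pos, mul_comm]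
      refine le_trans ?_ hlo
      exact mul_le_mul_of_nonneg_left
        (Finset.single_le_sum (f := fun i => ‖ζ i‖ ^ 2) (fun j _ => sq_nonneg _)
          (Finset.mem_univ i)) S.lam_pos.le
    have hpos : 0 < ‖u x‖ + δ := by linarith
    have hpos0 : ‖u x‖ + δ ≠ 0 := hpos.ne'
    have hmain : S.cd (sg δ u) i x = (‖u x‖ + δ)⁻¹ • ζ i +
        (pd (fun y => ‖u y‖) i x * (δ / (‖u x‖ + δ) ^ 2)) • e := by
      rw [KATO_sg S hd hw hδ i, hζ1 i]
      conv_lhs => rw [hue]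
      rw [norm_smul, norm_norm, he1, mul_one, smul_add, smul_smul, smul_smul, add_sub_assoc,
        ← sub_smul]
      congr 2
      field_simp
      ring
    rw [hmain]
    refine (norm_add_le _ _).trans (add_le_add ?_ ?_)
    · rw [norm_smul, norm_inv, Real.norm_of_nonneg hpos.le, div_eq_inv_mul]
      refine mul_le_mul ?_ hn (norm_nonneg _) (inv_nonneg.2 hδ.le)
      exact inv_anti₀ hδ (by linarith)
    · rw [norm_smul, he1, mul_one, norm_mul, Real.norm_eq_abs, Real.norm_of_nonneg (by positivity)]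

end P088
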