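import Vale.Agent.P088.Kato

/-! Module PAR (S-M): inner products of parallel sections are constant (`fderiv = 0` on a convex open set; the quadratic
skewness gives `⟪A a, b⟫ = - ⟪a, A b⟫`); uniqueness: `‖s - t‖²` is constant and tends to `0`. -/

open MeasureTheory Metric Set Filter Topology
open scoped ContDiff InnerProductSpace

namespace P088

variable {n : ℕ} {W : Type*} [NormedAddCommGroup W] [InnerProductSpace ℝ W]

private theorem par_skew (S : Setup n W) (x : En n) (i : Fin n) (a b : W) :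
    ⟪a, S.A x i b⟫_ℝ + ⟪S.A x i a, b⟫_ℝ = 0 := by
  have h1 := S.A_skew x i (a + b)
  have h2 := S.A_skew x i a
  have h3 := S.A_skew x i b
  rw [map_add, inner_add_left, inner_add_right, inner_add_right, h2, h3] at h1
  rw [real_inner_comm b (S.A x i a)]
  linarith

private theorem par_ext {F : En n →L[ℝ] ℝ}
    (h : ∀ i, F (EuclideanSpace.single i (1 : ℝ)) = 0) : F = 0 := by
  ext w
  have hw : w = ∑ i, w i • EuclideanSpace.single i (1 : ℝ) := by
    have h1 := (EuclideanSpace.basisFun (Fin n) ℝ).sum_repr w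
    simpa using h1.symm
  rw [hw, map_sum]
  simp [h]

theorem par_inner (S : Setup n W) {s t : En n → W}
    (hs : ∀ x ∈ ball (0 : En n) 1, DifferentiableAt ℝ s x ∧ ∀ i, pd s i x = - S.A x i (s x))
    (ht : ∀ x ∈ ball (0 : En n) 1, DifferentiableAt ℝ t x ∧ ∀ i, pd t i x = - S.A x i (t x)) :
    ∀ x ∈ ball (0 : En n) 1, ∀ y ∈ ball (0 : En n) 1, ⟪s x, t x⟫_ℝ = ⟪s y, t y⟫_ℝ := by
  have hd : ∀ x ∈ ball (0 : En n) 1, HasFDerivAt (fun x => ⟪s x, t x⟫_ℝ) (0 : En n →L[ℝ] ℝ) x := by
    intro x hx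
    have h1 := (hs x hx).1.hasFDerivAt.inner ℝ (ht x hx).1.hasFDerivAt
    have h2 : (fderivInnerCLM ℝ (s x, t x)).comp ((fderiv ℝ s x).prod (fderiv ℝ t x)) = 0 := by
      refine par_ext fun i => ?_
      have e1 : fderiv ℝ s x (EuclideanSpace.single i (1 : ℝ)) = - S.A x i (s x) := (hs x hx).2 i
      have e2 : fderiv ℝ t x (EuclideanSpace.single i (1 : ℝ)) = - S.A x i (t x) := (ht x hx).2 i
      simp only [ContinuousLinearMap.comp_apply, ContinuousLinearMap.prod_apply,
        fderivInnerCLM_apply, e1, e2, inner_neg_right, inner_neg_left]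
      have := par_skew S x i (s x) (t x)
      linarith
    rw [h2] at h1
    exact h1
  intro x hx y hy
  exact isOpen_ball.is_const_of_fderiv_eq_zero (convex_ball (0 : En n) 1).isPreconnected
    (fun z hz => (hd z hz).differentiableAt.differentiableWithinAt)
    (fun z hz => (hd z hz).fderiv) hx hy

theorem par_unique (S : Setup n W) {s t : En n → W}
    (hs : ∀ x ∈ ball (0 : En n) 1, DifferentiableAt ℝ s x ∧ ∀ i, pd s i x = - S.A x i (s x))
    (ht : ∀ x ∈ ball (0 : En n) 1, DifferentiableAt ℝ t x ∧ ∀ i, pd t i x = - S.A x i (t x))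
    {p : En n} (hp : p ∈ sphere (0 : En n) 1) {v : W}
    (h1 : Tendsto s (𝓝[ball (0 : En n) 1] p) (𝓝 v))
    (h2 : Tendsto t (𝓝[ball (0 : En n) 1] p) (𝓝 v)) : ∀ x ∈ ball (0 : En n) 1, s x = t x := by
  intro x hx
  have hne : (𝓝[ball (0 : En n) 1] p).NeBot := by
    rw [← mem_closure_iff_nhdsWithin_neBot, closure_ball _ one_ne_zero]
    exact sphere_subset_closedBall hp
  have key : ∀ y ∈ ball (0 : En n) 1, ‖s y - t y‖ ^ 2 = ‖s x - t x‖ ^ 2 := by
    intro y hy
    rw [@norm_sub_sq_real, @norm_sub_sq_real, ← real_inner_self_eq_norm_sq,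
      ← real_inner_self_eq_norm_sq, ← real_inner_self_eq_norm_sq, ← real_inner_self_eq_norm_sq,
      par_inner S hs hs y hy x hx, par_inner S hs ht y hy x hx, par_inner S ht ht y hy x hx]
  have hlim : Tendsto (fun y => ‖s y - t y‖ ^ 2) (𝓝[ball (0 : En n) 1] p) (𝓝 0) := by
    have h3 := ((h1.sub h2).norm).pow 2
    simpa using h3
  have hc : Tendsto (fun y => ‖s y - t y‖ ^ 2) (𝓝[ball (0 : En n) 1] p) (𝓝 (‖s x - t x‖ ^ 2)) := by
    refine tendsto_const_nhds.congr' ?_
    filter_upwards [self_mem_nhdsWithin] with y hy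
    exact (key y hy).symm
  have h4 := tendsto_nhds_unique hlim hc
  have h5 : ‖s x - t x‖ = 0 := by
    have : ‖s x - t x‖ ^ 2 = 0 := h4.symm
    exact pow_eq_zero_iff two_ne_zero |>.1 this
  exact sub_eq_zero.1 (norm_eq_zero.1 h5)

end P088
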