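import Vale.Agent.P088.Ibp

/-! Module REG0 (M-L): bounded weak derivatives imply Lipschitz.  Mollify with a normed `ContDiffBump` of outer
radius `ε`: `s_ε x = ∫ φ_ε (x - y) • s y`.  For `x ∈ ball p (ρ - ε)` the function `y ↦ φ_ε (x - y)` is a test
function on `ball p ρ`, so `∂ᵢ s_ε x = - ∫ φ_ε (x - y) • F i y`, of norm `≤ C`; hence `s_ε` is
`n C`-Lipschitz on the convex set `ball p (ρ - ε)`.  `s_ε x → s x` for a.e. `x`
(`ContDiffBump.ae_convolution_tendsto_right_of_locallyIntegrable`).  So `s` is `n C`-Lipschitz on a full measure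
subset of the ball; extend (`LipschitzOnWith.extend_finite_dimension`).
Module REG1 (M): a continuous `t` with continuous weak derivatives is `C¹`: the mollifications `t_ε → t`,
`∂ᵢ t_ε = - φ_ε * F i → - F i` locally uniformly (`hasFDerivAt_of_tendstoUniformlyOn` or
`t (x + h) - t x = - ∫₀¹ ∑ hᵢ F i (x + τ h) dτ`). -/

open MeasureTheory Metric Set Filter Topology
open scoped ContDiff InnerProductSpace

namespace P088

variable {n : ℕ} {X : Type*} [NormedAddCommGroup X] [InnerProductSpace ℝ X]
  [FiniteDimensional ℝ X]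

private theorem REG0_opnorm (L : En n →L[ℝ] X) {C : ℝ}
    (h : ∀ i : Fin n, ‖L (EuclideanSpace.single i (1 : ℝ))‖ ≤ C) : ‖L‖ ≤ n * C := by
  rcases isEmpty_or_nonempty (Fin n) with he | ⟨⟨i0⟩⟩
  · have : ‖L‖ = 0 := by
      rw [norm_eq_zero]
      ext v
      have : v = 0 := by
        ext i
        exact he.elim i
      rw [this]
      simp
    have hn : (n : ℝ) = 0 := by
      have : n = 0 := by
        rcases Nat.eq_zero_or_pos n with h0 | h0
        · exact h0
        · exact (he.elim ⟨0, h0⟩)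
      rw [this]
      simp
    rw [this, hn, zero_mul]
  have hC : 0 ≤ C := (norm_nonneg _).trans (h i0)
  refine ContinuousLinearMap.opNorm_le_bound _ (by positivity) fun v => ?_
  have hv : v = ∑ i, v i • EuclideanSpace.single i (1 : ℝ) := by
    have := (EuclideanSpace.basisFun (Fin n) ℝ).sum_repr v
    simpa using this.symm
  have h1 : L v = ∑ i, v i • L (EuclideanSpace.single i (1 : ℝ)) := by
    conv_lhs => rw [hv]
    rw [map_sum]
    simp only [map_smul]
  rw [h1]
  refine (norm_sum_le _ _).trans ?_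
  have h2 : ∀ i ∈ Finset.univ, ‖v i • L (EuclideanSpace.single i (1 : ℝ))‖ ≤ ‖v‖ * C := by
    intro i _
    rw [norm_smul]
    exact mul_le_mul (PiLp.norm_apply_le v i) (h i) (norm_nonneg _) (norm_nonneg _)
  refine (Finset.sum_le_sum h2).trans ?_
  rw [Finset.sum_const, Finset.card_univ, Fintype.card_fin, nsmul_eq_mul]
  apply le_of_eq
  ring

private theorem REG0_deriv {s : En n → X} {F : Fin n → En n → X}
    (hsl : LocallyIntegrable s volume)
    {C : ℝ} (hFC : ∀ i x, ‖F i x‖ ≤ C) {p : En n} {ρ ε : ℝ} (hw : WeakD p ρ s F)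
    {f : En n → ℝ} (hf : ContDiff ℝ ∞ f) (hfc : HasCompactSupport f)
    (hfs : ∀ x, x ∉ closedBall (0 : En n) ε → f x = 0)
    (hf0 : ∀ x, 0 ≤ f x) (hf1 : ∫ x, f x = 1) {x : En n} (hx : dist x p + ε < ρ) :
    ∃ L : En n →L[ℝ] X, HasFDerivAt (convolution f s
      (ContinuousLinearMap.lsmul ℝ ℝ : ℝ →L[ℝ] X →L[ℝ] X) volume) L x ∧
      ∀ i, ‖L (EuclideanSpace.single i (1 : ℝ))‖ ≤ C := by
  have hf1' : ContDiff ℝ 1 f := hf.of_le (by exact_mod_cast le_top)
  refine ⟨_, hfc.hasFDerivAt_convolution_left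
    (ContinuousLinearMap.lsmul ℝ ℝ : ℝ →L[ℝ] X →L[ℝ] X) hf1' hsl x, fun i => ?_⟩
  have hex := (hfc.fderiv ℝ).convolutionExists_left
    ((ContinuousLinearMap.lsmul ℝ ℝ : ℝ →L[ℝ] X →L[ℝ] X).precompL (En n))
    (hf1'.continuous_fderiv (by norm_num)) hsl x
  have h1 : (convolution (fderiv ℝ f) s
      ((ContinuousLinearMap.lsmul ℝ ℝ : ℝ →L[ℝ] X →L[ℝ] X).precompL (En n)) volume x)
      (EuclideanSpace.single i (1 : ℝ)) =
      ∫ t, (fderiv ℝ f t (EuclideanSpace.single i (1 : ℝ))) • s (x - t) := by
    unfold convolution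
    rw [ContinuousLinearMap.integral_apply hex]
    rfl
  have h2 : ∫ t, (fderiv ℝ f t (EuclideanSpace.single i (1 : ℝ))) • s (x - t) =
      ∫ y, (fderiv ℝ f (x - y) (EuclideanSpace.single i (1 : ℝ))) • s y := by
    rw [← integral_sub_left_eq_self (fun y => (fderiv ℝ f (x - y)
      (EuclideanSpace.single i (1 : ℝ))) • s y) volume x]
    refine integral_congr_ae (ae_of_all _ fun t => ?_)
    simp only [sub_sub_cancel]
  set χ : En n → ℝ := fun y => f (x - y) with hχ
  have hχs : ∀ y, y ∉ closedBall x ε → χ y = 0 := by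
    intro y hy
    refine hfs _ ?_
    intro hb
    apply hy
    rw [mem_closedBall, dist_zero_right] at hb
    rw [mem_closedBall, dist_comm, dist_eq_norm]
    exact hb
  have hχt : tsupport χ ⊆ closedBall x ε := by
    refine closure_minimal ?_ isClosed_closedBall
    intro y hy
    by_contra hc
    exact hy (hχs y hc)
  have hχc : HasCompactSupport χ := HasCompactSupport.intro (isCompact_closedBall x ε) hχs
  have htest : IsTest p ρ χ := by
    refine ⟨hf.comp (contDiff_const.sub contDiff_id), hχc, ?_⟩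
    refine hχt.trans fun y hy => ?_
    rw [mem_closedBall] at hy
    rw [mem_ball]
    have := dist_triangle y x p
    linarith
  have hpd : ∀ y, pd χ i y = -(fderiv ℝ f (x - y) (EuclideanSpace.single i (1 : ℝ))) := by
    intro y
    have hd : HasFDerivAt f (fderiv ℝ f (x - y)) (x - y) :=
      ((hf1'.differentiable (by norm_num)) (x - y)).hasFDerivAt
    have hd2 : HasFDerivAt (fun z : En n => x - z) (-(ContinuousLinearMap.id ℝ (En n))) y :=
      (hasFDerivAt_id y).const_sub x
    have hd3 := HasFDerivAt.comp y hd hd2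
    unfold pd
    have : fderiv ℝ χ y = (fderiv ℝ f (x - y)).comp (-(ContinuousLinearMap.id ℝ (En n))) :=
      hd3.fderiv
    rw [this]
    simp
  have h3 := hw i χ htest
  have h4 : ∫ y, (fderiv ℝ f (x - y) (EuclideanSpace.single i (1 : ℝ))) • s y =
      -∫ y, χ y • F i y := by
    rw [← h3, ← integral_neg]
    refine integral_congr_ae (ae_of_all _ fun y => ?_)
    simp only [hpd y, neg_smul, neg_neg]
  rw [h1, h2, h4, norm_neg]
  have hχcont : Continuous χ := htest.1.continuous
  have hχint : Integrable χ volume := hχcont.integrable_of_hasCompactSupport hχc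
  have h5 : ‖∫ y, χ y • F i y‖ ≤ ∫ y, χ y * C := by
    refine norm_integral_le_of_norm_le (hχint.mul_const C) (ae_of_all _ fun y => ?_)
    rw [norm_smul, Real.norm_eq_abs, abs_of_nonneg (hf0 _)]
    exact mul_le_mul_of_nonneg_left (hFC i y) (hf0 _)
  refine h5.trans ?_
  rw [integral_mul_const]
  have h6 : ∫ y, χ y = 1 := by
    rw [hχ, integral_sub_left_eq_self f volume x, hf1]
  rw [h6, one_mul]

theorem reg_lip {s : En n → X} {F : Fin n → En n → X} (hs : AEStronglyMeasurable s volume)
    (hs1 : ∀ x, ‖s x‖ ≤ 1) (hF : ∀ i, AEStronglyMeasurable (F i) volume) {C : NNReal}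
    (hFC : ∀ i x, ‖F i x‖ ≤ C) {p : En n} {ρ : ℝ} (hρ : 0 < ρ) (hw : WeakD p ρ s F) :
    ∃ t : En n → X, LipschitzWith (lipschitzExtensionConstant X * (n * C)) t ∧
      ∀ᵐ x, x ∈ ball p ρ → t x = s x := by
  have hsl : LocallyIntegrable s volume := by
    refine (locallyIntegrable_const (1 : ℝ)).mono hs (ae_of_all _ fun x => ?_)
    simpa using hs1 x
  let φ : ℕ → ContDiffBump (0 : En n) := fun k =>
    ⟨1 / ((k : ℝ) + 1), 2 * (1 / ((k : ℝ) + 1)), by positivity, by
      have : 0 < 1 / ((k : ℝ) + 1) := by positivity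
      linarith⟩
  have hφr : Tendsto (fun k => (φ k).rOut) atTop (𝓝 0) := by
    have := (tendsto_one_div_add_atTop_nhds_zero_nat (𝕜 := ℝ)).const_mul 2
    rw [mul_zero] at this
    exact this
  have hae : ∀ᵐ x, Tendsto (fun k => (convolution ((φ k).normed volume) s
      (ContinuousLinearMap.lsmul ℝ ℝ) volume) x) atTop (𝓝 (s x)) :=
    ContDiffBump.ae_convolution_tendsto_right_of_locallyIntegrable (K := 2) hφr
      (Filter.Eventually.of_forall fun k => le_rfl) hsl
  set T : Set (En n) := {x | x ∈ ball p ρ ∧ Tendsto (fun k => (convolution ((φ k).normed volume) s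
      (ContinuousLinearMap.lsmul ℝ ℝ) volume) x) atTop (𝓝 (s x))} with hT
  have hlip : LipschitzOnWith (n * C) s T := by
    refine LipschitzOnWith.of_dist_le_mul ?_
    rintro x ⟨hxb, hxt⟩ y ⟨hyb, hyt⟩
    have hlim : Tendsto (fun k => dist ((convolution ((φ k).normed volume) s
      (ContinuousLinearMap.lsmul ℝ ℝ) volume) x) ((convolution ((φ k).normed volume) s
      (ContinuousLinearMap.lsmul ℝ ℝ) volume) y)) atTop (𝓝 (dist (s x) (s y))) := hxt.dist hyt
    refine le_of_tendsto hlim ?_
    rw [mem_ball] at hxb hyb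
    have hx1 : ∀ᶠ k in atTop, (φ k).rOut < ρ - dist x p :=
      hφr.eventually_lt_const (by linarith)
    have hy1 : ∀ᶠ k in atTop, (φ k).rOut < ρ - dist y p :=
      hφr.eventually_lt_const (by linarith)
    filter_upwards [hx1, hy1] with k hkx hky
    have hder : ∀ z ∈ ball p (ρ - (φ k).rOut), ∃ L : En n →L[ℝ] X,
        HasFDerivAt (convolution ((φ k).normed volume) s
          (ContinuousLinearMap.lsmul ℝ ℝ) volume) L z ∧
        ∀ i, ‖L (EuclideanSpace.single i (1 : ℝ))‖ ≤ C := by
      intro z hz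
      rw [mem_ball] at hz
      refine REG0_deriv hsl hFC (ε := (φ k).rOut) hw ((φ k).contDiff_normed)
        ((φ k).hasCompactSupport_normed) ?_ ((φ k).nonneg_normed) ((φ k).integral_normed)
        (by linarith)
      intro w hw'
      by_contra hc
      apply hw'
      have : w ∈ Function.support ((φ k).normed volume) := hc
      rw [(φ k).support_normed_eq] at this
      exact ball_subset_closedBall this
    have hmain := Convex.norm_image_sub_le_of_norm_hasFDerivWithin_le
      (f := convolution ((φ k).normed volume) s (ContinuousLinearMap.lsmul ℝ ℝ) volume)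
      (f' := fderiv ℝ (convolution ((φ k).normed volume) s
          (ContinuousLinearMap.lsmul ℝ ℝ) volume)) (s := ball p (ρ - (φ k).rOut))
      (C := n * C) (x := y) (y := x)
      (fun z hz => by
        obtain ⟨L, hL, -⟩ := hder z hz
        rw [hL.fderiv]
        exact hL.hasFDerivWithinAt)
      (fun z hz => by
        obtain ⟨L, hL, hL2⟩ := hder z hz
        rw [hL.fderiv]
        exact REG0_opnorm L hL2) (convex_ball _ _)
      (by rw [mem_ball]; linarith) (by rw [mem_ball]; linarith)
    rw [dist_eq_norm, dist_eq_norm]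
    simpa using hmain
  obtain ⟨t, ht1, ht2⟩ := hlip.extend_finite_dimension
  refine ⟨t, ht1, ?_⟩
  filter_upwards [hae] with x hx hxb
  exact (ht2 ⟨hxb, hx⟩).symm

end P088
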