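import Vale.Agent.P088.Conv
import Vale.Agent.P088.Log
import Vale.Agent.P088.RegLip

/-! Modules HD, POS1, POS2, POS3: positivity of `‖ū‖`.
HD: elementary facts on `hd δ t = min 1 (max 0 (log (t+δ) / log δ))`, `0 < δ ≤ 1/2`, `t ≥ 0`.
POS1: `ibp` with `σ = hd δ ‖u_m‖`: `|∂ᵢσ| ≤ |∂ᵢw|/((w+δ)|log δ|)` a.e.; on the ball AM-GM and `log_est`
(`ep m ≤ δ⁴`, `w = ‖u_m‖`, `ms_norm`); outside the closed ball `w = f ≥ c0` on the support of `χ`.
POS2: let `m → ∞`, then `δ → 0` (dominated convergence): `∫ ∂ᵢχ 1_Z = 0`, `Z = {ū = 0}`; `reg_lip` with `C = 0`: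
`1_Z` is a.e. constant on `ball p ρ`.
POS3: first a small ball around `q` with `f q > 0` (admissible; outside the closed unit ball `ū = f v ≠ 0`), so `ū ≠ 0`
a.e. in it; this ball meets the unit ball (`ball 0 1` itself is admissible) in a nonempty open set. -/

open MeasureTheory Metric Set Filter Topology
open scoped ContDiff InnerProductSpace

namespace P088

variable {n : ℕ} {W : Type*} [NormedAddCommGroup W] [InnerProductSpace ℝ W] [FiniteDimensional ℝ W]

noncomputable def hd (δ t : ℝ) : ℝ := min 1 (max 0 (Real.log (t + δ) / Real.log δ))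

theorem hd_mem (δ t : ℝ) : 0 ≤ hd δ t ∧ hd δ t ≤ 1 :=
  ⟨le_min zero_le_one (le_max_left _ _), min_le_left _ _⟩

theorem HD_log {δ : ℝ} (h0 : 0 < δ) (h1 : δ ≤ 1 / 2) : Real.log δ < 0 :=
  Real.log_neg h0 (by linarith)

theorem hd_zero {δ : ℝ} (h0 : 0 < δ) (h1 : δ ≤ 1 / 2) : hd δ 0 = 1 := by
  unfold hd
  rw [zero_add, div_self (HD_log h0 h1).ne]
  simp

theorem hd_tendsto {t : ℝ} (ht : 0 < t) : Tendsto (fun δ => hd δ t) (𝓝[>] 0) (𝓝 0) := by
  have h1 : Tendsto (fun δ : ℝ => Real.log (t + δ)) (𝓝[>] 0) (𝓝 (Real.log t)) := by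
    have h2 : Tendsto (fun δ : ℝ => t + δ) (𝓝 0) (𝓝 (t + 0)) :=
      (continuous_const.add continuous_id).tendsto 0
    rw [add_zero] at h2
    exact ((Real.continuousAt_log ht.ne').tendsto.comp h2).mono_left nhdsWithin_le_nhds
  have h3 : Tendsto (fun δ : ℝ => Real.log (t + δ) / Real.log δ) (𝓝[>] 0) (𝓝 0) := by
    have h4 : Tendsto (fun δ : ℝ => (Real.log δ)⁻¹) (𝓝[>] 0) (𝓝 0) :=
      Real.tendsto_log_nhdsGT_zero.inv_tendsto_atBot
    have h5 := h1.mul h4
    rw [mul_zero] at h5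
    exact h5
  have h6 : Tendsto (fun s : ℝ => min 1 (max 0 s)) (𝓝 0) (𝓝 (min 1 (max 0 0))) :=
    (continuous_const.min (continuous_const.max continuous_id)).tendsto 0
  have h7 : min (1 : ℝ) (max 0 0) = 0 := by simp
  rw [h7] at h6
  exact h6.comp h3

theorem HD_clamp (a b : ℝ) : |min 1 (max 0 a) - min 1 (max 0 b)| ≤ |a - b| := by
  have h := ((LipschitzWith.id (α := ℝ)).const_max 0).const_min 1 |>.dist_le_mul a b
  simpa [Real.dist_eq] using h

theorem HD_diff (δ a b : ℝ) :
    |hd δ a - hd δ b| ≤ |Real.log (a + δ) / Real.log δ - Real.log (b + δ) / Real.log δ| :=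
  HD_clamp _ _

theorem HD_loglip {δ a b : ℝ} (h0 : 0 < δ) (ha : δ ≤ a) (hb : δ ≤ b) :
    |Real.log a - Real.log b| ≤ |a - b| / δ := by
  have key : ∀ a b : ℝ, δ ≤ a → δ ≤ b → b ≤ a → Real.log a - Real.log b ≤ (a - b) / δ := by
    intro a b ha hb hab
    have hb0 : 0 < b := h0.trans_le hb
    have ha0 : 0 < a := h0.trans_le ha
    rw [← Real.log_div ha0.ne' hb0.ne']
    have h1 := Real.log_le_sub_one_of_pos (div_pos ha0 hb0)
    have h2 : a / b - 1 = (a - b) / b := by field_simp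
    rw [h2] at h1
    exact h1.trans (div_le_div_of_nonneg_left (by linarith) h0 hb)
  rcases le_total b a with h | h
  · rw [abs_of_nonneg (sub_nonneg.2 h), abs_of_nonneg]
    · exact key a b ha hb h
    · exact sub_nonneg.2 (Real.log_le_log (h0.trans_le hb) h)
  · rw [abs_sub_comm, abs_sub_comm a b, abs_of_nonneg (sub_nonneg.2 h), abs_of_nonneg]
    · exact key b a hb ha h
    · exact sub_nonneg.2 (Real.log_le_log (h0.trans_le ha) h)

theorem hd_lip {δ : ℝ} (h0 : 0 < δ) (h1 : δ ≤ 1 / 2) {w : En n → ℝ} (hw : IsLip w)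
    (hw0 : ∀ x, 0 ≤ w x) : IsLip (fun x => hd δ (w x)) := by
  obtain ⟨K, hK⟩ := hw
  have hl : 0 < |Real.log δ| := abs_pos.2 (HD_log h0 h1).ne
  refine ⟨⟨(K : ℝ) / δ / |Real.log δ|, by positivity⟩, LipschitzWith.of_dist_le_mul fun x y => ?_⟩
  rw [Real.dist_eq]
  have h2 := HD_diff δ (w x) (w y)
  have h3 := HD_loglip h0 (show δ ≤ w x + δ by linarith [hw0 x])
    (show δ ≤ w y + δ by linarith [hw0 y])
  have h4 := hK.dist_le_mul x y
  rw [Real.dist_eq] at h4
  have h5 : w x + δ - (w y + δ) = w x - w y := by ring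
  rw [h5] at h3
  rw [← sub_div, abs_div] at h2
  refine h2.trans ?_
  show _ ≤ (K : ℝ) / δ / |Real.log δ| * dist x y
  have h6 : |Real.log (w x + δ) - Real.log (w y + δ)| ≤ (K : ℝ) / δ * dist x y := by
    refine h3.trans ?_
    rw [div_mul_eq_mul_div]
    exact div_le_div_of_nonneg_right h4 h0.le
  rw [div_mul_eq_mul_div]
  exact div_le_div_of_nonneg_right h6 hl.le

theorem HD_deriv {φ F : ℝ → ℝ} {a b : ℝ} (h1 : HasDerivAt φ a 0) (h2 : HasDerivAt F b 0)
    (h : ∀ t, |φ t - φ 0| ≤ |F t - F 0|) : |a| ≤ |b| := by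
  refine le_of_tendsto_of_tendsto (hasDerivAt_iff_tendsto_slope.1 h1).abs
    (hasDerivAt_iff_tendsto_slope.1 h2).abs (Eventually.of_forall fun t => ?_)
  show |slope φ 0 t| ≤ |slope F 0 t|
  rw [slope_def_field, slope_def_field, abs_div, abs_div]
  exact div_le_div_of_nonneg_right (h t) (abs_nonneg _)

/-- at points where both functions are differentiable -/
theorem hd_pd {δ : ℝ} (h0 : 0 < δ) (h1 : δ ≤ 1 / 2) {w : En n → ℝ} (hw : IsLip w)
    (hw0 : ∀ x, 0 ≤ w x) : ∀ᵐ x, ∀ i, |pd (fun x => hd δ (w x)) i x| ≤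
      |pd w i x| / ((w x + δ) * |Real.log δ|) := by
  obtain ⟨K, hK⟩ := hw
  obtain ⟨K', hK'⟩ := hd_lip h0 h1 ⟨K, hK⟩ hw0
  filter_upwards [hK.ae_differentiableAt, hK'.ae_differentiableAt] with x hx hx' i
  have hpos : 0 < w x + δ := by linarith [hw0 x]
  have hl : Real.log δ ≠ 0 := (HD_log h0 h1).ne
  have hline : HasDerivAt (fun t : ℝ => x + t • (EuclideanSpace.single i (1 : ℝ) : En n))
      (EuclideanSpace.single i (1 : ℝ)) 0 := by
    have h2 := ((hasDerivAt_id (0 : ℝ)).smul_const (EuclideanSpace.single i (1 : ℝ) : En n)).const_add x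
    simpa using h2
  have hx0 : x + (0 : ℝ) • (EuclideanSpace.single i (1 : ℝ) : En n) = x := by simp
  have hφ : HasDerivAt (fun t : ℝ => hd δ (w (x + t • (EuclideanSpace.single i (1 : ℝ) : En n))))
      (pd (fun x => hd δ (w x)) i x) 0 := by
    have h2 : HasFDerivAt (fun x => hd δ (w x)) (fderiv ℝ (fun x => hd δ (w x)) x)
        (x + (0 : ℝ) • (EuclideanSpace.single i (1 : ℝ) : En n)) := by
      rw [hx0]
      exact hx'.hasFDerivAt
    exact h2.comp_hasDerivAt 0 hline
  have hwd : HasDerivAt (fun t : ℝ => w (x + t • (EuclideanSpace.single i (1 : ℝ) : En n)))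
      (pd w i x) 0 := by
    have h2 : HasFDerivAt w (fderiv ℝ w x)
        (x + (0 : ℝ) • (EuclideanSpace.single i (1 : ℝ) : En n)) := by
      rw [hx0]
      exact hx.hasFDerivAt
    exact h2.comp_hasDerivAt 0 hline
  have hF : HasDerivAt (fun t : ℝ =>
      Real.log (w (x + t • (EuclideanSpace.single i (1 : ℝ) : En n)) + δ) / Real.log δ)
      (pd w i x / (w x + δ) / Real.log δ) 0 := by
    have h2 := ((hwd.add_const δ).log (by rw [hx0]; exact hpos.ne')).div_const (Real.log δ)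
    simpa [hx0] using h2
  have h3 := HD_deriv hφ hF fun t => HD_diff δ _ _
  refine h3.trans (le_of_eq ?_)
  rw [abs_div, abs_div, abs_of_pos hpos, div_div]

private theorem POS1_lip {χ : En n → ℝ} (h1 : ContDiff ℝ ∞ χ) (h2 : HasCompactSupport χ) :
    IsLip χ :=
  ContDiff.lipschitzWith_of_hasCompactSupport h2 h1 (by simp)

private theorem POS1_amgm {a b s : ℝ} (hb : 0 ≤ b) (hs : b ^ 2 ≤ s) :
    |a| * b ≤ 1 / 2 * (1 + a ^ 2 * s) := by
  have h1 : 0 ≤ (1 - |a| * b) ^ 2 := sq_nonneg _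
  have h2 : (|a| * b) ^ 2 = a ^ 2 * b ^ 2 := by rw [mul_pow, sq_abs]
  have h3 : a ^ 2 * b ^ 2 ≤ a ^ 2 * s := mul_le_mul_of_nonneg_left hs (sq_nonneg a)
  nlinarith

private theorem POS1_far {w f : En n → ℝ} (h : ∀ x, x ∉ ball (0 : En n) 1 → w x = f x) {x : En n}
    (hx : x ∉ closedBall (0 : En n) 1) (i : Fin n) : pd w i x = pd f i x := by
  have h1 : w =ᶠ[𝓝 x] f := by
    filter_upwards [isClosed_closedBall.isOpen_compl.mem_nhds hx] with y hy
    exact h y fun hy' => hy (ball_subset_closedBall hy')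
  unfold pd
  rw [h1.fderiv_eq]

theorem pos_bound {S : Setup n W} (M : MinSeq S) {p : En n} {ρ : ℝ} (hadm : Adm M.f p ρ)
    {χ : En n → ℝ} (hχ : IsTest p ρ χ) (i : Fin n) :
    ∃ C : ℝ, ∀ δ : ℝ, 0 < δ → δ ≤ 1 / 2 → ∀ m, ep m ≤ δ ^ 4 →
      |∫ x, pd χ i x * hd δ ‖M.u m x‖| ≤ C / |Real.log δ| := by
  obtain ⟨c0, hc0, hadm⟩ := hadm
  obtain ⟨hχ1, hχ2, hχ3⟩ := hχ
  have hχl : IsLip χ := POS1_lip hχ1 hχ2
  have hχs : ∀ x, χ x ≠ 0 → x ∈ ball p ρ := fun x hx => hχ3 (subset_tsupport χ hx)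
  obtain ⟨C₁, hC₁0, hC₁⟩ := log_est S M.f_lip M.c_le hχl hc0 (fun x hx hx' =>
    hadm x (hχs x hx') (fun hx2 => by
      rw [mem_sphere_zero_iff_norm] at hx
      rw [mem_ball_zero_iff, hx] at hx2
      exact lt_irrefl _ hx2))
  obtain ⟨Kf, hKf⟩ := M.f_lip
  have hχc : Continuous χ := hχ1.continuous
  have hχi : Integrable (fun x => |χ x|) := (hχc.integrable_of_hasCompactSupport hχ2).abs
  refine ⟨1 / 2 * ((volume (ball (0 : En n) 1)).toReal + C₁) + Kf / c0 * ∫ x, |χ x|,
    fun δ hδ0 hδ1 m hm => ?_⟩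
  obtain ⟨hwl, hwo, hwe, -, hep, -⟩ := ms_norm M m
  set w : En n → ℝ := fun x => ‖M.u m x‖ with hw
  have hw0 : ∀ x, 0 ≤ w x := fun x => norm_nonneg _
  have hL : 0 < |Real.log δ| := abs_pos.2 (Real.log_neg hδ0 (by linarith)).ne
  have hσl : IsLip (fun x => hd δ (w x)) := hd_lip hδ0 hδ1 hwl hw0
  have hlog := hC₁ w δ (ep m) hwl hw0 (fun x hx => hwo x (fun hx2 => by
      rw [mem_sphere_zero_iff_norm] at hx
      rw [mem_ball_zero_iff, hx] at hx2
      exact lt_irrefl _ hx2)) hδ0 (by linarith) hep hm hwe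
  -- integration by parts
  have e1 : ∫ x, pd χ i x * hd δ ‖M.u m x‖ = - ∫ x, χ x • pd (fun x => hd δ (w x)) i x := by
    rw [← ibp hσl hχl hχ2 i]
    rfl
  rw [e1, abs_neg, ← Real.norm_eq_abs]
  refine (norm_integral_le_integral_norm _).trans ?_
  -- the dominating function
  set h : En n → ℝ := fun x => χ x ^ 2 * ∑ j, (pd w j x / (w x + δ)) ^ 2 with hh
  obtain ⟨Kw, hKw⟩ := hwl
  have hwc : Continuous w := hKw.continuous
  have hhm : Measurable h := by
    have h1 : ∀ j, Measurable (pd w j) := fun j => (pd_meas w j).measurable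
    have h2 : Measurable χ := hχc.measurable
    have h3 : Measurable w := hwc.measurable
    exact (h2.pow_const 2).mul
      (Finset.measurable_sum _ fun j _ => ((h1 j).div (h3.add_const δ)).pow_const 2)
  have hhb : ∃ B : ℝ, ∀ x ∈ closedBall (0 : En n) 1, ‖h x‖ ≤ B := by
    obtain ⟨B₀, hB₀⟩ := (isCompact_closedBall (0 : En n) 1).exists_bound_of_continuousOn
      hχc.continuousOn
    refine ⟨B₀ ^ 2 * ∑ _j : Fin n, ((Kw : ℝ) / δ) ^ 2, fun x hx => ?_⟩
    have hB1 := hB₀ x hx
    have hB2 : 0 ≤ B₀ := (norm_nonneg _).trans hB1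
    have h5 : ∑ j, (pd w j x / (w x + δ)) ^ 2 ≤ ∑ _j : Fin n, ((Kw : ℝ) / δ) ^ 2 := by
      refine Finset.sum_le_sum fun j _ => ?_
      rw [← sq_abs (pd w j x / (w x + δ))]
      refine pow_le_pow_left₀ (abs_nonneg _) ?_ 2
      rw [abs_div, abs_of_pos (add_pos_of_nonneg_of_pos (hw0 x) hδ0)]
      exact div_le_div₀ Kw.2 (pd_bdd hKw j x) hδ0 (by linarith [hw0 x])
    have h6 : 0 ≤ ∑ j, (pd w j x / (w x + δ)) ^ 2 := Finset.sum_nonneg fun j _ => sq_nonneg _
    have h7 : χ x ^ 2 ≤ B₀ ^ 2 := by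
      rw [← sq_abs]
      exact pow_le_pow_left₀ (abs_nonneg _) hB1 2
    rw [Real.norm_eq_abs, abs_of_nonneg (mul_nonneg (sq_nonneg _) h6)]
    exact mul_le_mul h7 h5 h6 (sq_nonneg _)
  obtain ⟨B, hB⟩ := hhb
  have hhi : IntegrableOn h (ball (0 : En n) 1) := by
    refine Measure.integrableOn_of_bounded (M := B) measure_ball_lt_top.ne
      hhm.aestronglyMeasurable ?_
    exact (ae_restrict_iff' measurableSet_ball).2
      (Eventually.of_forall fun x hx => hB x (ball_subset_closedBall hx))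
  have hci : IntegrableOn (fun _ : En n => (1 : ℝ)) (ball (0 : En n) 1) :=
    integrableOn_const measure_ball_lt_top.ne
  have hgi1 : IntegrableOn (fun x => 1 / 2 * (1 + h x)) (ball (0 : En n) 1) :=
    (hci.add hhi).const_mul (1 / 2)
  have hgi2 : Integrable ((ball (0 : En n) 1).indicator fun x => 1 / 2 * (1 + h x)) :=
    hgi1.integrable_indicator measurableSet_ball
  have hgi3 : Integrable fun x => (Kf : ℝ) / c0 * |χ x| := hχi.const_mul _
  have hgi : Integrable fun x => 1 / |Real.log δ| *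
      ((ball (0 : En n) 1).indicator (fun x => 1 / 2 * (1 + h x)) x + (Kf : ℝ) / c0 * |χ x|) :=
    (hgi2.add hgi3).const_mul _
  have hsph : ∀ᵐ x : En n, x ∉ sphere (0 : En n) 1 := by
    rw [← measure_eq_zero_iff_ae_notMem]
    exact Measure.addHaar_sphere_of_ne_zero volume (0 : En n) one_ne_zero
  have hle : (fun x => ‖χ x • pd (fun x => hd δ (w x)) i x‖) ≤ᵐ[volume] fun x =>
      1 / |Real.log δ| * ((ball (0 : En n) 1).indicator (fun x => 1 / 2 * (1 + h x)) x +
        (Kf : ℝ) / c0 * |χ x|) := by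
    filter_upwards [hd_pd hδ0 hδ1 ⟨Kw, hKw⟩ hw0, hsph] with x hx1 hx2
    have hwd : 0 < w x + δ := add_pos_of_nonneg_of_pos (hw0 x) hδ0
    have h1 : ‖χ x • pd (fun x => hd δ (w x)) i x‖ ≤
        1 / |Real.log δ| * (|χ x| * (|pd w i x| / (w x + δ))) := by
      rw [smul_eq_mul, norm_mul, Real.norm_eq_abs, Real.norm_eq_abs]
      refine (mul_le_mul_of_nonneg_left (hx1 i) (abs_nonneg _)).trans (le_of_eq ?_)
      field_simp
    refine h1.trans (mul_le_mul_of_nonneg_left ?_ (by positivity))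
    have hKf0 : (0 : ℝ) ≤ (Kf : ℝ) / c0 * |χ x| :=
      mul_nonneg (div_nonneg Kf.2 hc0.le) (abs_nonneg _)
    by_cases hxb : x ∈ ball (0 : En n) 1
    · rw [indicator_of_mem hxb]
      have h2 : |χ x| * (|pd w i x| / (w x + δ)) ≤ 1 / 2 * (1 + h x) := by
        refine POS1_amgm (div_nonneg (abs_nonneg _) hwd.le) ?_
        have h3 : (|pd w i x| / (w x + δ)) ^ 2 = (pd w i x / (w x + δ)) ^ 2 := by
          rw [div_pow, div_pow, sq_abs]
        rw [h3]
        exact Finset.single_le_sum (f := fun j => (pd w j x / (w x + δ)) ^ 2)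
          (fun j _ => sq_nonneg _) (Finset.mem_univ i)
      linarith
    · rw [indicator_of_notMem hxb, zero_add]
      have hxc : x ∉ closedBall (0 : En n) 1 := by
        intro h3
        rw [← ball_union_sphere] at h3
        exact h3.elim hxb hx2
      by_cases hx0 : χ x = 0
      · rw [hx0, abs_zero, zero_mul, mul_zero]
      · have h4 : c0 ≤ w x := by
          have h4' : w x = M.f x := hwo x hxb
          rw [h4']
          exact hadm x (hχs x hx0) hxb
        have h5 : |pd w i x| ≤ Kf := by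
          rw [POS1_far hwo hxc i]
          exact pd_bdd hKf i x
        rw [mul_comm]
        refine mul_le_mul_of_nonneg_right ?_ (abs_nonneg _)
        exact div_le_div₀ Kf.2 h5 hc0 (by linarith)
  refine (integral_mono_of_nonneg (Eventually.of_forall fun x => norm_nonneg _) hgi hle).trans ?_
  rw [integral_const_mul, integral_add hgi2 hgi3, integral_const_mul,
    integral_indicator measurableSet_ball, integral_const_mul, integral_add hci hhi]
  have h8 : ∫ x in ball (0 : En n) 1, (1 : ℝ) = (volume (ball (0 : En n) 1)).toReal := by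
    rw [setIntegral_const, smul_eq_mul, mul_one]
    rfl
  have h9 : ∫ x in ball (0 : En n) 1, h x ≤ C₁ := hlog
  have h10 : 0 ≤ 1 / |Real.log δ| := (one_div_pos.2 hL).le
  rw [h8, div_eq_mul_one_div (1 / 2 * ((volume (ball (0 : En n) 1)).toReal + C₁) +
    (Kf : ℝ) / c0 * ∫ x, |χ x|) |Real.log δ|, mul_comm _ (1 / |Real.log δ|)]
  refine mul_le_mul_of_nonneg_left ?_ h10
  linarith

theorem pos_dich {S : Setup n W} (M : MinSeq S) {ub : En n → W}
    (hub : ∀ᵐ x, Tendsto (fun m => M.u m x) atTop (𝓝 (ub x))) {p : En n} {ρ : ℝ}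
    (hρ : 0 < ρ) (hadm : Adm M.f p ρ) :
    (∀ᵐ x, x ∈ ball p ρ → ub x ≠ 0) ∨ (∀ᵐ x, x ∈ ball p ρ → ub x = 0) := by
  classical
  have hucont : ∀ m, Continuous (M.u m) := fun m => (M.u_lip m).choose_spec.continuous
  have hubm : AEStronglyMeasurable ub volume :=
    aestronglyMeasurable_of_tendsto_ae atTop
      (fun m => (hucont m).aestronglyMeasurable) hub
  -- continuity of `hd` in `t`
  have hdcont : ∀ δ : ℝ, 0 < δ → ∀ t : ℝ, 0 ≤ t → ContinuousAt (hd δ) t := by
    intro δ hδ t ht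
    unfold hd
    have h1 : ContinuousAt (fun t : ℝ => Real.log (t + δ)) t :=
      ContinuousAt.log (continuousAt_id.add continuousAt_const) (by positivity)
    exact continuousAt_const.min (continuousAt_const.max (h1.div_const _))
  have hdc : ∀ δ : ℝ, 0 < δ → Continuous fun t : ℝ => hd δ (max t 0) := by
    intro δ hδ
    rw [continuous_iff_continuousAt]
    intro t
    exact ContinuousAt.comp (f := fun t : ℝ => max t 0) (g := hd δ)
      (hdcont δ hδ _ (le_max_right _ _))
      (continuous_id.max continuous_const).continuousAt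
  have hmeas : ∀ (δ : ℝ), 0 < δ → ∀ g : En n → W, AEStronglyMeasurable g volume →
      AEStronglyMeasurable (fun x => hd δ ‖g x‖) volume := by
    intro δ hδ g hg
    have h := (hdc δ hδ).comp_aestronglyMeasurable hg.norm
    refine h.congr (Eventually.of_forall fun x => ?_)
    change hd δ (max ‖g x‖ 0) = hd δ ‖g x‖
    rw [max_eq_left (norm_nonneg _)]
  let s : En n → ℝ := fun x => if ub x = 0 then 1 else 0
  -- pointwise limit
  have hlim : ∀ x, Tendsto (fun δ => hd δ ‖ub x‖) (𝓝[>] 0) (𝓝 (s x)) := by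
    intro x
    by_cases h : ub x = 0
    · have e : s x = 1 := if_pos h
      rw [e, h, norm_zero]
      refine tendsto_const_nhds.congr' ?_
      have : ∀ᶠ δ : ℝ in 𝓝[>] 0, δ ∈ Ioc (0 : ℝ) (1 / 2) := Ioc_mem_nhdsGT (by norm_num)
      filter_upwards [this] with δ hδ
      exact (hd_zero hδ.1 hδ.2).symm
    · have e : s x = 0 := if_neg h
      rw [e]
      exact hd_tendsto (norm_pos_iff.2 h)
  -- a sequence of `δ`
  let d : ℕ → ℝ := fun k => (1 / 2) ^ (k + 1)
  have hd0 : ∀ k, 0 < d k := fun k => by positivity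
  have hd1 : ∀ k, d k ≤ 1 / 2 := by
    intro k
    change (1 / 2 : ℝ) ^ (k + 1) ≤ 1 / 2
    rw [pow_succ]
    have : (1 / 2 : ℝ) ^ k ≤ 1 := pow_le_one₀ (by norm_num) (by norm_num)
    linarith
  have hdt : Tendsto d atTop (𝓝[>] 0) := by
    rw [tendsto_nhdsWithin_iff]
    refine ⟨?_, Eventually.of_forall hd0⟩
    exact (tendsto_pow_atTop_nhds_zero_of_lt_one (by norm_num) (by norm_num)).comp
      (tendsto_add_atTop_nat 1)
  have hsm : AEStronglyMeasurable s volume :=
    aestronglyMeasurable_of_tendsto_ae atTop (fun k => hmeas (d k) (hd0 k) ub hubm)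
      (Eventually.of_forall fun x => (hlim x).comp hdt)
  have hs1 : ∀ x, ‖s x‖ ≤ 1 := by
    intro x
    change ‖(if ub x = 0 then (1 : ℝ) else 0)‖ ≤ 1
    split_ifs <;> simp
  have hep : Tendsto ep atTop (𝓝 0) := by
    have h1 : (fun m => ep m) = fun m => ((1 / 2 : ℝ) ^ 10) ^ m := by
      funext m
      unfold ep
      rw [pow_mul]
    change Tendsto (fun m => ep m) atTop (𝓝 0)
    rw [h1]
    exact tendsto_pow_atTop_nhds_zero_of_lt_one (by positivity) (by norm_num)
  have hweak : WeakD p ρ s (fun (_ : Fin n) (_ : En n) => (0 : ℝ)) := by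
    intro i χ hχ
    have hR : ∫ x, χ x • (0 : ℝ) = 0 := by simp
    rw [hR]
    obtain ⟨C, hC⟩ := pos_bound M hadm hχ i
    have hpc : Continuous (pd χ i) := by
      unfold pd
      exact (hχ.1.continuous_fderiv (by simp)).clm_apply continuous_const
    have hps : HasCompactSupport (pd χ i) :=
      (hχ.2.1.fderiv ℝ).comp_left (g := fun L : En n →L[ℝ] ℝ => L (EuclideanSpace.single i (1 : ℝ)))
        rfl
    have hpi : Integrable (pd χ i) := hpc.integrable_of_hasCompactSupport hps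
    -- limit in `m`
    have step1 : ∀ δ : ℝ, 0 < δ → δ ≤ 1 / 2 →
        |∫ x, pd χ i x * hd δ ‖ub x‖| ≤ C / |Real.log δ| := by
      intro δ hδ hδ1
      have hT : Tendsto (fun m => ∫ x, pd χ i x * hd δ ‖M.u m x‖) atTop
          (𝓝 (∫ x, pd χ i x * hd δ ‖ub x‖)) := by
        refine tendsto_integral_of_dominated_convergence (fun x => |pd χ i x|) ?_ hpi.abs ?_ ?_
        · exact fun m => hpc.aestronglyMeasurable.mul
            (hmeas δ hδ _ (hucont m).aestronglyMeasurable)
        · intro m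
          refine Eventually.of_forall fun x => ?_
          rw [Real.norm_eq_abs, abs_mul]
          have := hd_mem δ ‖M.u m x‖
          rw [abs_of_nonneg this.1]
          exact mul_le_of_le_one_right (abs_nonneg _) this.2
        · filter_upwards [hub] with x hx
          exact ((hdcont δ hδ _ (norm_nonneg _)).tendsto.comp hx.norm).const_mul _
      refine le_of_tendsto hT.abs ?_
      have : ∀ᶠ m in atTop, ep m < δ ^ 4 := hep.eventually_lt_const (by positivity)
      filter_upwards [this] with m hm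
      exact hC δ hδ hδ1 m hm.le
    have hT : Tendsto (fun k => ∫ x, pd χ i x * hd (d k) ‖ub x‖) atTop
        (𝓝 (∫ x, pd χ i x * s x)) := by
      refine tendsto_integral_of_dominated_convergence (fun x => |pd χ i x|) ?_ hpi.abs ?_ ?_
      · exact fun k => hpc.aestronglyMeasurable.mul (hmeas (d k) (hd0 k) _ hubm)
      · intro k
        refine Eventually.of_forall fun x => ?_
        rw [Real.norm_eq_abs, abs_mul]
        have := hd_mem (d k) ‖ub x‖
        rw [abs_of_nonneg this.1]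
        exact mul_le_of_le_one_right (abs_nonneg _) this.2
      · exact Eventually.of_forall fun x => ((hlim x).comp hdt).const_mul _
    have hT2 : Tendsto (fun k => C / |Real.log (d k)|) atTop (𝓝 0) := by
      have h1 : Tendsto (fun k => Real.log (d k)) atTop atBot :=
        Real.tendsto_log_nhdsGT_zero.comp hdt
      exact (tendsto_abs_atBot_atTop.comp h1).const_div_atTop C
    have h2 : |∫ x, pd χ i x * s x| ≤ 0 :=
      le_of_tendsto_of_tendsto' hT.abs hT2 fun k => step1 (d k) (hd0 k) (hd1 k)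
    have h3 := abs_eq_zero.1 (le_antisymm h2 (abs_nonneg _))
    exact h3
  obtain ⟨t, ht, hts⟩ := reg_lip hsm hs1 (F := fun (_ : Fin n) (_ : En n) => (0 : ℝ))
    (fun i => aestronglyMeasurable_const) (C := 0) (fun i x => by simp) hρ hweak
  have htc : ∀ x, t x = t p := by
    intro x
    have := ht.dist_le_mul x p
    simp only [mul_zero, NNReal.coe_zero, zero_mul] at this
    exact dist_le_zero.1 this
  by_cases hc : t p = 1
  · right
    filter_upwards [hts] with x hx hxb
    have h1 := hx hxb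
    rw [htc, hc] at h1
    by_contra hne
    have : s x = 0 := if_neg hne
    rw [this] at h1
    exact one_ne_zero h1
  · left
    filter_upwards [hts] with x hx hxb h0
    have h1 := hx hxb
    rw [htc] at h1
    have : s x = 1 := if_pos h0
    exact hc (h1.trans this)

theorem POS3_open {U : Set (En n)} (hU : IsOpen U) (hne : U.Nonempty)
    (h : ∀ᵐ x : En n, x ∉ U) : False := by
  have h1 : 0 < (volume : Measure (En n)) U := hU.measure_pos volume hne
  exact h1.ne' (measure_eq_zero_iff_ae_notMem.2 h)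

theorem POS3_pt {q : En n} (hq : ‖q‖ = 1) {ρ : ℝ} (hρ : 0 < ρ) :
    (ball q ρ ∩ ball 0 1).Nonempty ∧ (ball q ρ ∩ (closedBall 0 1)ᶜ).Nonempty := by
  set t : ℝ := min (1 / 2) (ρ / 2) with ht
  have ht0 : 0 < t := lt_min (by norm_num) (by positivity)
  have ht1 : t ≤ 1 / 2 := min_le_left _ _
  have ht2 : t < ρ := lt_of_le_of_lt (min_le_right _ _) (by linarith)
  refine ⟨⟨(1 - t) • q, ?_, ?_⟩, ⟨(1 + t) • q, ?_, ?_⟩⟩
  · rw [mem_ball, dist_eq_norm]
    have : (1 - t) • q - q = (-t) • q := by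
      rw [sub_smul, one_smul, neg_smul]; abel
    rw [this, norm_smul, hq, Real.norm_eq_abs, abs_neg, abs_of_pos ht0, mul_one]
    exact ht2
  · rw [mem_ball_zero_iff, norm_smul, hq, Real.norm_eq_abs, abs_of_pos (by linarith), mul_one]
    linarith
  · rw [mem_ball, dist_eq_norm]
    have : (1 + t) • q - q = t • q := by
      rw [add_smul, one_smul]; abel
    rw [this, norm_smul, hq, Real.norm_eq_abs, abs_of_pos ht0, mul_one]
    exact ht2
  · rw [mem_compl_iff, mem_closedBall_zero_iff, norm_smul, hq, Real.norm_eq_abs,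
      abs_of_pos (by linarith), mul_one]
    linarith

theorem pos_all {S : Setup n W} (M : MinSeq S) {ub : En n → W}
    (hub : ∀ᵐ x, Tendsto (fun m => M.u m x) atTop (𝓝 (ub x)))
    (hq : ∃ q ∈ sphere (0 : En n) 1, 0 < M.f q) :
    ∀ᵐ x, x ∈ ball (0 : En n) 1 → ub x ≠ 0 := by
  obtain ⟨q, hqs, hqf⟩ := hq
  have hq1 : ‖q‖ = 1 := mem_sphere_zero_iff_norm.1 hqs
  obtain ⟨K, hK⟩ := M.f_lip
  have hfc : Continuous M.f := hK.continuous
  obtain ⟨ρ, hρ, hball⟩ : ∃ ρ > 0, ∀ x ∈ ball q ρ, M.f q / 2 < M.f x := by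
    have h1 : {x | M.f q / 2 < M.f x} ∈ 𝓝 q :=
      (isOpen_lt continuous_const hfc).mem_nhds (by show M.f q / 2 < M.f q; linarith)
    obtain ⟨ρ, hρ, hsub⟩ := Metric.mem_nhds_iff.1 h1
    exact ⟨ρ, hρ, fun x hx => hsub hx⟩
  obtain ⟨hne1, hne2⟩ := POS3_pt hq1 hρ
  have hv : M.v ≠ 0 := by
    intro h
    have := M.v_norm
    rw [h, norm_zero] at this
    exact zero_ne_one this
  have hA : ∀ᵐ x, x ∈ ball q ρ → ub x ≠ 0 := by
    rcases pos_dich M hub hρ ⟨M.f q / 2, by positivity, fun x hx _ => (hball x hx).le⟩ with h | h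
    · exact h
    · exfalso
      refine POS3_open (isOpen_ball.inter isClosed_closedBall.isOpen_compl) hne2 ?_
      filter_upwards [hub, h] with x hx1 hx2 hx3
      have hxb : x ∉ ball (0 : En n) 1 := fun hc => hx3.2 (ball_subset_closedBall hc)
      have h2 : Tendsto (fun m => M.u m x) atTop (𝓝 (M.f x • M.v)) := by
        have h3 : (fun m => M.u m x) = fun _ => M.f x • M.v := by
          funext m; exact M.u_out m x hxb
        rw [h3]; exact tendsto_const_nhds
      have h4 : ub x = M.f x • M.v := tendsto_nhds_unique hx1 h2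
      rw [hx2 hx3.1] at h4
      have h5 : M.f x ≠ 0 := by
        have := hball x hx3.1
        have h6 : 0 < M.f x := by linarith
        exact h6.ne'
      exact (smul_ne_zero h5 hv) h4.symm
  rcases pos_dich M hub one_pos (p := 0) ⟨1, one_pos, fun x hx hx' => absurd hx hx'⟩ with h | h
  · exact h
  · exfalso
    refine POS3_open (isOpen_ball.inter isOpen_ball) hne1 ?_
    filter_upwards [hA, h] with x hx1 hx2 hx3
    exact hx1 hx3.1 (hx2 hx3.2)

end P088
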