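import Vale.Agent.P088.FlatFinal

/-!
# P088: the definitions used in the statements of the hand-ins

`M` is the closed unit ball of `ℝⁿ`.  All the definitions are short; `dn` is the quadratic form
`f ↦ ⟨Λ_{g,A} f, f⟩` of the problem, written through the Dirichlet principle.
-/

open MeasureTheory Metric Set Filter Topology
open scoped ContDiff InnerProductSpace

namespace P088

/-- `ℂ^{N × N}`, as the algebra of linear operators of `ℂᴺ` -/
abbrev Op (N : ℕ) := Wn N →L[ℂ] Wn N

/-- the interior of `M`: the open unit ball of `ℝⁿ` -/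
def intM (n : ℕ) : Set (En n) := ball (0 : En n) 1

/-- `M`: the closed unit ball of `ℝⁿ` -/
def clM (n : ℕ) : Set (En n) := closedBall (0 : En n) 1

/-- `∂M`: the unit sphere of `ℝⁿ` -/
def bdM (n : ℕ) : Set (En n) := sphere (0 : En n) 1

/-- Riemannian metrics on the closed unit ball, smooth up to the boundary: `g x i j` is the value of
`g` at `x` on the coordinate vector fields `∂ᵢ, ∂ⱼ` -/
def IsMetric {n : ℕ} (g : En n → Matrix (Fin n) (Fin n) ℝ) : Prop :=
  (∀ i j, ContDiffOn ℝ ∞ (fun x => g x i j) (clM n)) ∧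
    ∀ x ∈ clM n, (g x).PosDef

/-- operator valued functions on the closed unit ball, smooth up to the boundary -/
def SmoothOp {n N : ℕ} (U : En n → Op N) : Prop :=
  ContDiffOn ℝ ∞ U (clM n)

/-- the adjoint of an operator (the conjugate transpose of a matrix) -/
noncomputable def adj {N : ℕ} (T : Op N) : Op N := star T

/-- the product of operators (of matrices) -/
noncomputable def mulOp {N : ℕ} (S T : Op N) : Op N := S * T

/-- the sum of operators (of matrices) -/
noncomputable def addOp {N : ℕ} (S T : Op N) : Op N := S + T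

/-- `T ∈ U(N)` -/
def IsUnitary {N : ℕ} (T : Op N) : Prop := T ∈ unitary (Op N)

/-- `T ∈ 𝔲(N)`, that is `T* = - T` -/
def IsSkew {N : ℕ} (T : Op N) : Prop := star T = - T

/-- `T = I` -/
def IsId {N : ℕ} (T : Op N) : Prop := T = 1

/-- the partial derivative `∂ᵢ U` of an operator valued function -/
noncomputable def pdOp {n N : ℕ} (U : En n → Op N) (i : Fin n) (x : En n) : Op N := pd U i x

/-- smooth unitary connections `d + A` on `M × ℂᴺ`, `M` the closed unit ball; `A x i` is the value of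
the `1`-form `A` on `∂ᵢ` at `x` -/
def IsUConn {n N : ℕ} (A : En n → Fin n → Op N) : Prop :=
  (∀ i, SmoothOp fun x => A x i) ∧ ∀ x ∈ clM n, ∀ i, IsSkew (A x i)

/-- smooth maps from the closed unit ball to `U(N)` -/
def IsUMap {n N : ℕ} (U : En n → Op N) : Prop :=
  SmoothOp U ∧ ∀ x ∈ clM n, IsUnitary (U x)

/-- `U⁻¹ ∂ᵢ U` at `x`, for unitary `U` -/
noncomputable def pureG {n N : ℕ} (U : En n → Op N) (i : Fin n) (x : En n) : Op N :=
  mulOp (adj (U x)) (pdOp U i x)

/-- `U⁻¹ A U + U⁻¹ dU` evaluated on `∂ᵢ` at `x`, for unitary `U` -/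
noncomputable def gaugeT {n N : ℕ} (A : En n → Fin n → Op N) (U : En n → Op N) (i : Fin n)
    (x : En n) : Op N :=
  addOp (mulOp (mulOp (adj (U x)) (A x i)) (U x)) (pureG U i x)

/-- the covariant derivative `d_A u = du + A u` on `∂ᵢ` at `x` -/
noncomputable def covD {n N : ℕ} (A : En n → Fin n → Op N) (u : En n → Wn N) (i : Fin n)
    (x : En n) : Wn N := pd u i x + A x i (u x)

/-- `Re ⟨a, b⟩` -/
noncomputable def reIn {N : ℕ} (a b : Wn N) : ℝ := (inner ℂ a b : ℂ).re

/-- `|d_A u|²_g` at `x` -/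
noncomputable def normSq {n N : ℕ} (g : En n → Matrix (Fin n) (Fin n) ℝ)
    (A : En n → Fin n → Op N) (u : En n → Wn N) (x : En n) : ℝ :=
  ∑ i, ∑ j, (g x)⁻¹ i j * reIn (covD A u i x) (covD A u j x)

/-- the energy `∫_M |d_A u|²_g dV_g`, `dV_g = √(det g) dx` -/
noncomputable def dirE {n N : ℕ} (g : En n → Matrix (Fin n) (Fin n) ℝ)
    (A : En n → Fin n → Op N) (u : En n → Wn N) : ℝ :=
  ∫ x in intM n, Real.sqrt (g x).det * normSq g A u x

/-- the data `⟨Λ_{g,A} f, f⟩`: by the Dirichlet principle this is the infimum (attained by `u_f`) of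
the energies of the Lipschitz `u` with boundary values `f` -/
noncomputable def dn {n N : ℕ} (g : En n → Matrix (Fin n) (Fin n) ℝ)
    (A : En n → Fin n → Op N) (f : En n → Wn N) : ℝ :=
  sInf {e | ∃ u : En n → Wn N, IsLip u ∧ (∀ x ∈ bdM n, u x = f x) ∧
    e = dirE g A u}

/-- `f` is smooth on `M` and the support of `f` restricted to `∂M` is contained in `Γ`: `f` restricts to
an element of `C_c^∞(Γ; ℂᴺ)`, and every element of it is obtained -/
def IsBV {n N : ℕ} (Γ : Set (En n)) (f : En n → Wn N) : Prop :=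
  ContDiffOn ℝ ∞ f (clM n) ∧ closure {x | x ∈ bdM n ∧ f x ≠ 0} ⊆ Γ

/-- the two pairs have the same data on `Γ`: the quadratic forms `⟨Λ f, f⟩` (hence, by
polarization, the sesquilinear forms) agree on `C_c^∞(Γ; ℂᴺ)`; `IsBV Γ f` says that `f` is smooth on `M`
and restricts to an element of `C_c^∞(Γ; ℂᴺ)` -/
def SameData {n N : ℕ} (Γ : Set (En n)) (g₁ : En n → Matrix (Fin n) (Fin n) ℝ)
    (A₁ : En n → Fin n → Op N) (g₂ : En n → Matrix (Fin n) (Fin n) ℝ)
    (A₂ : En n → Fin n → Op N) : Prop :=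
  ∀ f : En n → Wn N, IsBV Γ f → dn g₁ A₁ f = dn g₂ A₂ f

theorem dirE_eq {n N : ℕ} (g : En n → Matrix (Fin n) (Fin n) ℝ) (A : En n → Fin n → Op N)
    (u : En n → Wn N) : dirE g A u = energy g A u := rfl

theorem dn_eq {n N : ℕ} (g : En n → Matrix (Fin n) (Fin n) ℝ) (A : En n → Fin n → Op N)
    (f : En n → Wn N) : dn g A f = Q g A f := rfl

end P088
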