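import Vale.Agent.P088.Quad

/-! Module TEST (S): near-minimality tested with `w + t ψ`. -/

open MeasureTheory Metric Set Filter Topology
open scoped ContDiff InnerProductSpace

namespace P088

variable {n : ℕ} {W : Type*} [NormedAddCommGroup W] [InnerProductSpace ℝ W] [FiniteDimensional ℝ W]

theorem test_ineq (S : Setup n W) {f w ψ : En n → ℝ} {c ε t : ℝ} (hc : S.LB f c) (hw : IsLip w)
    (hwf : ∀ x ∈ sphere (0 : En n) 1, w x = f x) (hE : S.er w ≤ c + ε) (hψ : IsLip ψ)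
    (hψ0 : ∀ x ∈ sphere (0 : En n) 1, ψ x = 0) (ht : 0 < t) :
    -(S.eb w ψ) ≤ ε / (2 * t) + t / 2 * S.er ψ := by
  obtain ⟨K, hK⟩ := id hw
  obtain ⟨K', hK'⟩ := id hψ
  have hlip : IsLip (fun x => w x + t * ψ x) := by
    have h1 : LipschitzWith (‖t‖₊ * K') (fun x => t • ψ x) :=
      (lipschitzWith_smul t).comp hK'
    exact ⟨K + ‖t‖₊ * K', hK.add h1⟩
  have hbd : ∀ x ∈ sphere (0 : En n) 1, w x + t * ψ x = f x := by
    intro x hx
    rw [hwf x hx, hψ0 x hx, mul_zero, add_zero]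
  have h2 := hc (fun x => w x + t * ψ x) hlip hbd
  rw [er_add S hw hψ t] at h2
  have h3 : t * (-(S.eb w ψ)) ≤ t * (ε / (2 * t) + t / 2 * S.er ψ) := by
    have e : t * (ε / (2 * t) + t / 2 * S.er ψ) = ε / 2 + t ^ 2 / 2 * S.er ψ := by
      field_simp
    rw [e]
    linarith
  exact le_of_mul_le_mul_left h3 ht

end P088
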